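import Vale.Agent.P084.T.AStepS

/-!
# Module D: the radial step (a one-dimensional inequality on `(0, ∞)`)
-/

namespace Vale.Agent.P084.T

open MeasureTheory Filter Topology Set
open scoped NNReal

/-- a property that holds a.e. on `(0,∞)` holds frequently near every positive point -/
theorem freq_of_ae {p : ℝ → Prop} (hp : ∀ᵐ a, 0 < a → p a) {a : ℝ} (ha : 0 < a) :
    ∃ᶠ x in 𝓝 a, 0 < x ∧ p x := by
  have h1 : Dense {x : ℝ | 0 < x → p x} := Measure.dense_of_ae hp
  have h2 := mem_closure_iff_frequently.1 (h1 a)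
  exact (h2.and_eventually (lt_mem_nhds ha)).mono fun x hx => ⟨hx.2, hx.1 hx.2⟩

theorem lip_log {M Eh : ℝ → ℝ} (h : MData M) (hEb : ∃ K, ∀ a, 0 < a → |Eh a| ≤ K * M a)
    (hs : ∀ᵐ a, 0 < a → ∀ b, 0 < b → (b - a) * Eh a ≤ M a * Real.log (M a / M b)) :
    ∃ K, 0 ≤ K ∧ ∀ a b, 0 < a → 0 < b → Real.log (M b) - Real.log (M a) ≤ K * |b - a| := by
  obtain ⟨K, hK⟩ := hEb
  have hK0 : 0 ≤ K := by
    have h1 := (abs_nonneg _).trans (hK 1 one_pos)
    by_contra hcon
    push Not at hcon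
    have := mul_neg_of_neg_of_pos hcon (h.pos 1 zero_le_one)
    linarith
  refine ⟨K, hK0, fun a b ha hb => ?_⟩
  have h1 := freq_of_ae hs ha
  have hMa := h.pos a ha.le
  have h2 : Tendsto (fun x => Real.log (M b) - Real.log (M x) - K * |b - x|) (𝓝 a)
      (𝓝 (Real.log (M b) - Real.log (M a) - K * |b - a|)) := by
    have h3 : ContinuousAt (fun x => Real.log (M x)) a := (h.contAt ha).log hMa.ne'
    have h4 : ContinuousAt (fun x => K * |b - x|) a := by fun_prop
    exact (tendsto_const_nhds.sub h3).sub h4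
  have h5 : Real.log (M b) - Real.log (M a) - K * |b - a| ≤ 0 := by
    refine le_of_tendsto_of_frequently h2 (h1.mono fun x hx => ?_)
    obtain ⟨hx0, hx1⟩ := hx
    have hMx := h.pos x hx0.le
    have h6 := hx1 b hb
    rw [Real.log_div hMx.ne' (h.pos b hb.le).ne'] at h6
    have h7 : -(|b - x| * (K * M x)) ≤ (b - x) * Eh x := by
      have h8 : |(b - x) * Eh x| ≤ |b - x| * (K * M x) := by
        rw [abs_mul]
        exact mul_le_mul_of_nonneg_left (hK x hx0) (abs_nonneg _)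
      exact (abs_le.1 h8).1
    have h9 : 0 ≤ M x * ((Real.log (M x) - Real.log (M b)) + K * |b - x|) := by
      nlinarith
    have h10 := nonneg_of_mul_nonneg_right h9 hMx
    linarith
  linarith

theorem lip_M {M Eh : ℝ → ℝ} (h : MData M) (hEb : ∃ K, ∀ a, 0 < a → |Eh a| ≤ K * M a)
    (hs : ∀ᵐ a, 0 < a → ∀ b, 0 < b → (b - a) * Eh a ≤ M a * Real.log (M a / M b)) :
    ∃ L : ℝ≥0, LipschitzOnWith L M (Ioi 0) := by
  obtain ⟨K, hK0, hK⟩ := lip_log h hEb hs
  obtain ⟨B, α, hB0, hα, hB⟩ := h.bound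
  have hB' : ∀ a, 0 < a → M a ≤ B := by
    intro a ha
    refine (hB a ha.le).trans ?_
    have : Real.exp (-(α * a)) ≤ 1 := by
      rw [Real.exp_le_one_iff]
      have := mul_pos hα ha
      linarith
    nlinarith
  have key : ∀ a b, 0 < a → 0 < b → M b - M a ≤ B * K * |b - a| := by
    intro a b ha hb
    have hMa := h.pos a ha.le
    have hMb := h.pos b hb.le
    set t := Real.log (M b) - Real.log (M a) with ht
    have h1 : M a = M b * Real.exp (-t) := by
      rw [ht, neg_sub, Real.exp_sub, Real.exp_log hMa, Real.exp_log hMb]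
      field_simp
    have h2 := Real.add_one_le_exp (-t)
    have h3 : M b - M a ≤ M b * t := by
      rw [h1]
      nlinarith
    have h4 := hK a b ha hb
    calc M b - M a ≤ M b * t := h3
      _ ≤ M b * (K * |b - a|) := mul_le_mul_of_nonneg_left h4 hMb.le
      _ ≤ B * (K * |b - a|) := mul_le_mul_of_nonneg_right (hB' b hb) (by positivity)
      _ = B * K * |b - a| := by ring
  refine ⟨⟨B * K, by positivity⟩, LipschitzOnWith.of_dist_le_mul fun a ha b hb => ?_⟩
  rw [Real.dist_eq, Real.dist_eq, abs_le]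
  show -(B * K * |a - b|) ≤ M a - M b ∧ M a - M b ≤ B * K * |a - b|
  constructor
  · have := key a b ha hb
    rw [abs_sub_comm] at this
    linarith
  · exact key b a hb ha

theorem deriv_eq_neg {M Eh : ℝ → ℝ} (h : MData M) {a : ℝ} (ha : 0 < a)
    (hgood : ∀ b, 0 < b → (b - a) * Eh a ≤ M a * Real.log (M a / M b))
    (hd : DifferentiableAt ℝ M a) : deriv M a = -Eh a := by
  have hMa := h.pos a ha.le
  have h1 : IsLocalMax (fun b => (b - a) * Eh a - M a * (Real.log (M a) - Real.log (M b))) a := by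
    filter_upwards [lt_mem_nhds ha] with b hb
    have h2 := hgood b hb
    rw [Real.log_div hMa.ne' (h.pos b hb.le).ne'] at h2
    simp only [sub_self, zero_mul, mul_zero]
    linarith
  have h3 : HasDerivAt (fun b => (b - a) * Eh a - M a * (Real.log (M a) - Real.log (M b)))
      (1 * Eh a - M a * (0 - deriv M a / M a)) a := by
    have h4 : HasDerivAt (fun b => Real.log (M b)) (deriv M a / M a) a :=
      hd.hasDerivAt.log hMa.ne'
    have h5 : HasDerivAt (fun b : ℝ => (b - a) * Eh a) (1 * Eh a) a :=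
      ((hasDerivAt_id a).sub_const a).mul_const (Eh a)
    exact h5.sub (((hasDerivAt_const a (Real.log (M a))).sub h4).const_mul (M a))
  have h6 := h1.hasDerivAt_eq_zero h3
  have h7 : M a * (deriv M a / M a) = deriv M a := by field_simp
  linarith

/-- the exhausting intervals -/
def II (n : ℕ) : Set ℝ := Ioc (1 / ((n : ℝ) + 1)) ((n : ℝ) + 1)

theorem II_le (n : ℕ) : (1 / ((n : ℝ) + 1)) ≤ (n : ℝ) + 1 := by
  have h0 : (0:ℝ) ≤ n := Nat.cast_nonneg n
  rw [div_le_iff₀ (by linarith)]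
  nlinarith

theorem II_mono : Monotone II := by
  intro m n hmn
  have h0 : (0:ℝ) ≤ m := Nat.cast_nonneg m
  have h1 : (m:ℝ) ≤ n := by exact_mod_cast hmn
  refine Ioc_subset_Ioc ?_ (by linarith)
  exact one_div_le_one_div_of_le (by linarith) (by linarith)

theorem II_meas (n : ℕ) : MeasurableSet (II n) := measurableSet_Ioc

theorem iUnion_II : ⋃ n, II n = Ioi 0 := by
  ext a
  simp only [mem_iUnion, II, mem_Ioc, mem_Ioi]
  constructor
  · rintro ⟨n, h1, _⟩
    exact lt_trans (by positivity) h1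
  · intro ha
    obtain ⟨n, hn⟩ := exists_nat_one_div_lt ha
    obtain ⟨m, hm⟩ := exists_nat_ge a
    refine ⟨max n m, ?_, ?_⟩
    · refine lt_of_le_of_lt ?_ hn
      push_cast
      exact one_div_le_one_div_of_le (by positivity) (by linarith [le_max_left (n:ℝ) m])
    · push_cast
      linarith [le_max_right (n:ℝ) m]

theorem tendsto_II {f : ℝ → ℝ} (hf : IntegrableOn f (Ioi 0)) :
    Tendsto (fun n => ∫ a in II n, f a) atTop (𝓝 (∫ a in Ioi 0, f a)) := by
  have := tendsto_setIntegral_of_monotone (μ := volume) (f := f) II_meas II_mono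
    (by rw [iUnion_II]; exact hf)
  rwa [iUnion_II] at this

theorem II_sub (n : ℕ) : II n ⊆ Ioi 0 := by
  rw [← iUnion_II]
  exact subset_iUnion _ n

/-- the pointwise inequality behind the radial step -/
theorem ptwise {u s ρ : ℝ} (hu : 0 < u) (hs : 0 < s) (hρ : 0 < ρ) :
    u * Real.log (ρ * s) ≤ ρ - 2 * u + u ^ 2 * s := by
  have h1 : Real.log (ρ * s) = Real.log (u * s) + Real.log (ρ / u) := by
    rw [← Real.log_mul (by positivity) (by positivity)]
    congr 1
    field_simp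
  have h2 := Real.log_le_sub_one_of_pos (show 0 < u * s by positivity)
  have h3 := Real.log_le_sub_one_of_pos (show 0 < ρ / u by positivity)
  have h4 : u * (ρ / u) = ρ := by field_simp
  rw [h1]
  nlinarith

theorem ptwise_eq {u s ρ : ℝ} (hu : 0 < u) (hs : 0 < s) (hρ : 0 < ρ)
    (h : ρ - 2 * u + u ^ 2 * s ≤ u * Real.log (ρ * s)) : u = ρ := by
  by_contra hne
  have h1 : Real.log (ρ * s) = Real.log (u * s) + Real.log (ρ / u) := by
    rw [← Real.log_mul (by positivity) (by positivity)]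
    congr 1
    field_simp
  have h2 := Real.log_le_sub_one_of_pos (show 0 < u * s by positivity)
  have h3 := Real.log_lt_sub_one_of_pos (show 0 < ρ / u by positivity) (by
    intro h'
    rw [div_eq_one_iff_eq hu.ne'] at h'
    exact hne h'.symm)
  have h4 : u * (ρ / u) = ρ := by field_simp
  rw [h1] at h
  nlinarith

/-- everything that is used of the radial step -/
theorem a_core {M0 M1 Ch Eh : ℝ → ℝ} (h0 : MData M0) (h1 : MData M1)
    (hC : Measurable Ch) (hCb : ∃ K, ∀ a, 0 < a → |Ch a| ≤ K * M0 a)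
    (hE : Measurable Eh) (hEb : ∃ K, ∀ a, 0 < a → |Eh a| ≤ K * M0 a)
    (hs0 : ∀ᵐ a, 0 < a → ∀ b, 0 < b → (b - a) * Eh a ≤ M0 a * Real.log (M0 a / M0 b)) :
    ∃ S s' : ℝ → ℝ, (∀ a, 0 < a → 0 < S a) ∧ (∀ a, 0 < a → HasDerivAt S (s' a) a) ∧
      (∀ a, s' a = ((∫ a in Ioi 0, M1 a) / (∫ a in Ioi 0, M0 a)) * (M0 a / M1 (S a))) ∧
      ∃ D : ℝ → ℝ, (∀ a, D a = M0 a * ((∫ a in Ioi 0, M0 a) / (∫ a in Ioi 0, M1 a)
          - 2 * (a / S a) + (a / S a) ^ 2 * s' a) - (a / S a) * (S a * Ch a + (S a - a) * Eh a)) ∧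
        (∀ n, IntegrableOn D (II n)) ∧
        ∃ τ : ℕ → ℝ, (∀ n, ∫ a in II n, D a ≤ τ n) ∧
          Tendsto τ atTop (𝓝 ((∫ a in Ioi 0, M0 a) *
            ((∫ a in Ioi 0, M0 a) / (∫ a in Ioi 0, M1 a) - 1) - ∫ a in Ioi 0, a * Ch a)) := by
  obtain ⟨S, hSpos, hSd, c, hc, hSc⟩ := exists_S h0 h1
  set A0 := ∫ a in Ioi 0, M0 a with hA0
  set A1 := ∫ a in Ioi 0, M1 a with hA1
  have hA0p : 0 < A0 := h0.intPos
  have hA1p : 0 < A1 := h1.intPos
  obtain ⟨B, α, hB0, hα, hB⟩ := h0.bound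
  have hB' : ∀ a, 0 < a → M0 a ≤ B := by
    intro a ha
    refine (hB a ha.le).trans ?_
    have : Real.exp (-(α * a)) ≤ 1 := by
      rw [Real.exp_le_one_iff]
      have := mul_pos hα ha
      linarith
    nlinarith
  set s' : ℝ → ℝ := fun a => (A1 / A0) * (M0 a / M1 (S a)) with hs'
  set g : ℝ → ℝ := fun a => a - a ^ 2 / S a with hg
  set g' : ℝ → ℝ := fun a => 1 - 2 * (a / S a) + (a / S a) ^ 2 * s' a with hg'
  have hgd : ∀ a, 0 < a → HasDerivAt g (g' a) a := by
    intro a ha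
    have h2 : HasDerivAt (fun a : ℝ => a ^ 2 / S a)
        ((((2:ℕ):ℝ) * a ^ (2 - 1) * S a - a ^ 2 * s' a) / (S a) ^ 2) a :=
      (hasDerivAt_pow 2 a).div (hSd a ha) (hSpos a ha).ne'
    have h3 := (hasDerivAt_id a).sub h2
    have h4 : g' a = 1 - (((2:ℕ):ℝ) * a ^ (2 - 1) * S a - a ^ 2 * s' a) / (S a) ^ 2 := by
      have := (hSpos a ha).ne'
      simp only [hg']
      field_simp
      push_cast
      ring
    rw [h4]
    exact h3
  have hScont : ContinuousOn S (Ioi 0) := fun a ha => (hSd a ha).continuousAt.continuousWithinAt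
  have hM0c : ContinuousOn M0 (Ioi 0) := h0.cont.mono Ioi_subset_Ici_self
  have hM1c : ContinuousOn (fun a => M1 (S a)) (Ioi 0) :=
    h1.cont.comp hScont fun a ha => (hSpos a ha).le
  have hs'c : ContinuousOn s' (Ioi 0) :=
    continuousOn_const.mul (hM0c.div hM1c fun a ha => (h1.pos _ (hSpos a ha).le).ne')
  have huc : ContinuousOn (fun a => a / S a) (Ioi 0) :=
    continuousOn_id.div hScont fun a ha => (hSpos a ha).ne'
  have hg'c : ContinuousOn g' (Ioi 0) :=
    (continuousOn_const.sub (continuousOn_const.mul huc)).add ((huc.pow 2).mul hs'c)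
  have hgc : ContinuousOn g (Ioi 0) := fun a ha => (hgd a ha).continuousAt.continuousWithinAt
  obtain ⟨L, hL⟩ := lip_M h0 hEb hs0
  -- integrability
  have hCi : IntegrableOn (fun a => a * Ch a) (Ioi 0) := by
    obtain ⟨K, hK⟩ := hCb
    refine Integrable.mono' (h0.integrableOn_mul.const_mul K) ?_ ?_
    · exact (measurable_id.mul hC).aestronglyMeasurable
    · refine (ae_restrict_iff' measurableSet_Ioi).2 (Eventually.of_forall fun a ha => ?_)
      have ha' : (0 : ℝ) < a := ha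
      rw [Real.norm_eq_abs, abs_mul, abs_of_pos ha']
      calc a * |Ch a| ≤ a * (K * M0 a) := mul_le_mul_of_nonneg_left (hK a ha') ha'.le
        _ = K * (a * M0 a) := by ring
  have hEi : IntegrableOn Eh (Ioi 0) := by
    obtain ⟨K, hK⟩ := hEb
    refine Integrable.mono' (h0.integrableOn.const_mul K) hE.aestronglyMeasurable ?_
    refine (ae_restrict_iff' measurableSet_Ioi).2 (Eventually.of_forall fun a ha => ?_)
    rw [Real.norm_eq_abs]
    exact hK a ha
  -- the pieces on a compact interval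
  have hpieces : ∀ ε R : ℝ, 0 < ε → ε ≤ R →
      IntervalIntegrable (fun a => g' a * M0 a - g a * Eh a) volume ε R ∧
      ∫ a in ε..R, (g' a * M0 a - g a * Eh a) = g R * M0 R - g ε * M0 ε := by
    intro ε R hε hεR
    have hsub : uIcc ε R ⊆ Ioi 0 := by
      rw [uIcc_of_le hεR]
      exact fun a ha => lt_of_lt_of_le hε ha.1
    have hEi' : IntervalIntegrable Eh volume ε R :=
      (intervalIntegrable_iff_integrableOn_Ioc_of_le hεR).2
        (hEi.mono_set fun a ha => hε.trans ha.1)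
    have hi1 : IntervalIntegrable (fun a => g' a * M0 a) volume ε R :=
      ((hg'c.mul hM0c).mono hsub).intervalIntegrable
    have hi2 : IntervalIntegrable (fun a => g a * Eh a) volume ε R :=
      hEi'.continuousOn_mul (hgc.mono hsub)
    refine ⟨hi1.sub hi2, ?_⟩
    have hgac : AbsolutelyContinuousOnInterval g ε R := by
      obtain ⟨C, hCC⟩ := isCompact_uIcc.exists_bound_of_continuousOn (hg'c.mono hsub)
      have h2 : LipschitzOnWith (Real.toNNReal C) g (uIcc ε R) := by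
        refine (convex_uIcc ε R).lipschitzOnWith_of_nnnorm_hasDerivWithin_le (f' := g')
          (fun a ha => (hgd a (hsub ha)).hasDerivWithinAt) (fun a ha => ?_)
        rw [← NNReal.coe_le_coe, coe_nnnorm]
        exact (hCC a ha).trans (Real.le_coe_toNNReal C)
      exact h2.absolutelyContinuousOnInterval
    have hMac : AbsolutelyContinuousOnInterval M0 ε R :=
      (hL.mono hsub).absolutelyContinuousOnInterval
    rw [← hgac.integral_deriv_mul_eq_sub hMac]
    refine intervalIntegral.integral_congr_ae ?_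
    filter_upwards [hMac.ae_differentiableAt, hs0] with a ha1 ha2 ha3
    have ha4 : a ∈ uIcc ε R := uIoc_subset_uIcc ha3
    have ha5 : 0 < a := hsub ha4
    rw [(hgd a ha5).deriv, deriv_eq_neg h0 ha5 (ha2 ha5) (ha1 ha4)]
    ring
  refine ⟨S, s', hSpos, hSd, fun a => rfl, fun a => M0 a * (A0 / A1
    - 2 * (a / S a) + (a / S a) ^ 2 * s' a) - (a / S a) * (S a * Ch a + (S a - a) * Eh a),
    fun a => rfl, ?_⟩
  have hDeq : ∀ a, 0 < a → M0 a * (A0 / A1
      - 2 * (a / S a) + (a / S a) ^ 2 * s' a) - (a / S a) * (S a * Ch a + (S a - a) * Eh a) =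
      (A0 / A1 - 1) * M0 a + (g' a * M0 a - g a * Eh a) - a * Ch a := by
    intro a ha
    have := (hSpos a ha).ne'
    simp only [hg', hg]
    field_simp
    ring
  have hDint : ∀ n, IntegrableOn (fun a => (A0 / A1 - 1) * M0 a + (g' a * M0 a - g a * Eh a)
      - a * Ch a) (II n) ∧ ∫ a in II n, ((A0 / A1 - 1) * M0 a + (g' a * M0 a - g a * Eh a)
      - a * Ch a) = (A0 / A1 - 1) * (∫ a in II n, M0 a) +
        (g (n + 1) * M0 (n + 1) - g (1 / (n + 1)) * M0 (1 / (n + 1))) -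
        ∫ a in II n, a * Ch a := by
    intro n
    obtain ⟨h2, h3⟩ := hpieces (1 / ((n:ℝ) + 1)) ((n:ℝ) + 1) (by positivity) (II_le n)
    rw [intervalIntegrable_iff_integrableOn_Ioc_of_le (II_le n)] at h2
    rw [intervalIntegral.integral_of_le (II_le n)] at h3
    have h4 : IntegrableOn (fun a => (A0 / A1 - 1) * M0 a) (II n) :=
      (h0.integrableOn.mono_set (II_sub n)).const_mul _
    have h5 : IntegrableOn (fun a => a * Ch a) (II n) := hCi.mono_set (II_sub n)
    have h45 : IntegrableOn (fun a => (A0 / A1 - 1) * M0 a + (g' a * M0 a - g a * Eh a))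
        (II n) := h4.add h2
    refine ⟨h45.sub h5, ?_⟩
    rw [integral_sub h45 h5, integral_add h4 h2, integral_const_mul]
    congr 2
  refine ⟨fun n => (hDint n).1.congr_fun (fun a ha => (hDeq a (II_sub n ha)).symm) (II_meas n),
    fun n => (A0 / A1 - 1) * (∫ a in II n, M0 a) +
        (B * ((n + 1) * Real.exp (-(α * (n + 1)))) + B / c * (1 / (n + 1))) -
        ∫ a in II n, a * Ch a, fun n => ?_, ?_⟩
  · rw [setIntegral_congr_fun (II_meas n) (fun a ha => hDeq a (II_sub n ha)), (hDint n).2]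
    have hn : (0:ℝ) < (n:ℝ) + 1 := by positivity
    have h2 : g (n + 1) * M0 (n + 1) ≤ B * ((n + 1) * Real.exp (-(α * (n + 1)))) := by
      have h3 : g (n + 1) ≤ n + 1 := by
        have : 0 ≤ ((n:ℝ) + 1) ^ 2 / S (n + 1) := by
          have := hSpos _ hn
          positivity
        simp only [hg]
        linarith
      have h4 := h0.pos _ hn.le
      calc g (n + 1) * M0 (n + 1) ≤ (n + 1) * M0 (n + 1) := by gcongr
        _ ≤ (n + 1) * (B * Real.exp (-(α * (n + 1)))) :=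
            mul_le_mul_of_nonneg_left (hB _ hn.le) hn.le
        _ = _ := by ring
    have h3 : -(g (1 / (n + 1)) * M0 (1 / (n + 1))) ≤ B / c * (1 / (n + 1)) := by
      set ε : ℝ := 1 / (n + 1) with hε
      have hε0 : 0 < ε := by positivity
      have hε1 : ε ≤ 1 := by
        rw [hε, div_le_one hn]
        have : (0:ℝ) ≤ n := Nat.cast_nonneg n
        linarith
      have h5 := hSc ε hε0 hε1
      have h6 := hSpos ε hε0
      have h7 : -g ε ≤ ε / c := by
        have h8 : ε ^ 2 / S ε ≤ ε ^ 2 / (c * ε) := by gcongr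
        have h9 : ε ^ 2 / (c * ε) = ε / c := by field_simp
        simp only [hg]
        linarith
      have h10 := h0.pos ε hε0.le
      calc -(g ε * M0 ε) = (-g ε) * M0 ε := by ring
        _ ≤ ε / c * M0 ε := by gcongr
        _ ≤ ε / c * B := by gcongr; exact hB' ε hε0
        _ = B / c * ε := by ring
    linarith
  · have h2 := tendsto_II h0.integrableOn
    have h3 := tendsto_II hCi
    rw [← hA0] at h2
    have h4 : Tendsto (fun n : ℕ => ((n:ℝ) + 1) * Real.exp (-(α * ((n:ℝ) + 1)))) atTop (𝓝 0) := by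
      have h5 := Real.tendsto_pow_mul_exp_neg_atTop_nhds_zero 1
      have h6 : Tendsto (fun n : ℕ => α * ((n:ℝ) + 1)) atTop atTop :=
        (tendsto_atTop_add_const_right _ _ tendsto_natCast_atTop_atTop).const_mul_atTop hα
      have h7 := (h5.comp h6).const_mul (1 / α)
      rw [mul_zero] at h7
      refine h7.congr fun n => ?_
      simp only [Function.comp, pow_one]
      field_simp
    have h5 : Tendsto (fun n : ℕ => (1:ℝ) / ((n:ℝ) + 1)) atTop (𝓝 0) :=
      tendsto_one_div_add_atTop_nhds_zero_nat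
    have h6 := ((h2.const_mul (A0 / A1 - 1)).add ((h4.const_mul B).add (h5.const_mul (B / c)))).sub
      h3
    refine h6.congr' ?_ |>.trans_eq ?_
    · exact Eventually.of_forall fun n => rfl
    · congr 1
      ring

theorem D_nonneg {m ρ s u b a ch eh m1 : ℝ} (hm : 0 < m) (hρ : 0 < ρ) (hm1 : 0 < m1)
    (ha : 0 < a) (hb : 0 < b) (hu : u = a / b) (hs : s = ρ⁻¹ * (m / m1))
    (h : b * ch + (b - a) * eh ≤ m * Real.log (m / m1)) :
    0 ≤ m * (ρ - 2 * u + u ^ 2 * s) - u * (b * ch + (b - a) * eh) := by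
  have hu0 : 0 < u := by rw [hu]; positivity
  have hs0 : 0 < s := by rw [hs]; positivity
  have h1 := ptwise hu0 hs0 hρ
  have h2 : ρ * s = m / m1 := by rw [hs]; field_simp
  rw [h2] at h1
  have h3 := mul_le_mul_of_nonneg_left h hu0.le
  have h4 := mul_le_mul_of_nonneg_left h1 hm.le
  nlinarith

theorem D_zero {m ρ s u b a ch eh m1 : ℝ} (hm : 0 < m) (hρ : 0 < ρ) (hm1 : 0 < m1)
    (ha : 0 < a) (hb : 0 < b) (hu : u = a / b) (hs : s = ρ⁻¹ * (m / m1))
    (h : b * ch + (b - a) * eh ≤ m * Real.log (m / m1))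
    (h0 : m * (ρ - 2 * u + u ^ 2 * s) - u * (b * ch + (b - a) * eh) = 0) : u = ρ := by
  have hu0 : 0 < u := by rw [hu]; positivity
  have hs0 : 0 < s := by rw [hs]; positivity
  refine ptwise_eq hu0 hs0 hρ ?_
  have h2 : ρ * s = m / m1 := by rw [hs]; field_simp
  rw [h2]
  have h3 := mul_le_mul_of_nonneg_left h hu0.le
  have h4 : m * (ρ - 2 * u + u ^ 2 * s) ≤ m * (u * Real.log (m / m1)) := by nlinarith
  exact le_of_mul_le_mul_left h4 hm

/-- The radial step. `Ch a = ∫ c e^{-N}`, `Eh a = ∫ J_w(x) e^{-N}` on the slice `a`. -/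
theorem a_step {M0 M1 Ch Eh : ℝ → ℝ} (h0 : MData M0) (h1 : MData M1)
    (hC : Measurable Ch) (hCb : ∃ K, ∀ a, 0 < a → |Ch a| ≤ K * M0 a)
    (hE : Measurable Eh) (hEb : ∃ K, ∀ a, 0 < a → |Eh a| ≤ K * M0 a)
    (hs0 : ∀ᵐ a, 0 < a → ∀ b, 0 < b → (b - a) * Eh a ≤ M0 a * Real.log (M0 a / M0 b))
    (hs1 : ∀ᵐ a, 0 < a → ∀ b, 0 < b →
      b * Ch a + (b - a) * Eh a ≤ M0 a * Real.log (M0 a / M1 b)) :
    ∫ a in Ioi 0, a * Ch a ≤ (∫ a in Ioi 0, M0 a) *
      ((∫ a in Ioi 0, M0 a) / (∫ a in Ioi 0, M1 a) - 1) := by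
  obtain ⟨S, s', hSpos, hSd, hs', D, hD, hDi, τ, hτ, hτt⟩ := a_core h0 h1 hC hCb hE hEb hs0
  have hA0p : 0 < ∫ a in Ioi 0, M0 a := h0.intPos
  have hA1p : 0 < ∫ a in Ioi 0, M1 a := h1.intPos
  have hDn : ∀ᵐ a, 0 < a → 0 ≤ D a := by
    filter_upwards [hs1] with a ha ha0
    rw [hD a]
    refine D_nonneg (h0.pos a ha0.le) (by positivity) (h1.pos _ (hSpos a ha0).le) ha0
      (hSpos a ha0) rfl ?_ (ha ha0 _ (hSpos a ha0))
    rw [hs' a, inv_div]
  have h2 : ∀ n, 0 ≤ τ n := by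
    intro n
    refine le_trans ?_ (hτ n)
    refine setIntegral_nonneg_of_ae_restrict ?_
    refine (ae_restrict_iff' (II_meas n)).2 ?_
    filter_upwards [hDn] with a ha hn
    exact ha (II_sub n hn)
  have h3 := ge_of_tendsto' hτt h2
  linarith

/-- Equality case of the radial step. -/
theorem a_step_eq {M0 M1 Ch Eh : ℝ → ℝ} (h0 : MData M0) (h1 : MData M1)
    (hC : Measurable Ch) (hCb : ∃ K, ∀ a, 0 < a → |Ch a| ≤ K * M0 a)
    (hE : Measurable Eh) (hEb : ∃ K, ∀ a, 0 < a → |Eh a| ≤ K * M0 a)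
    (hs0 : ∀ᵐ a, 0 < a → ∀ b, 0 < b → (b - a) * Eh a ≤ M0 a * Real.log (M0 a / M0 b))
    (hs1 : ∀ᵐ a, 0 < a → ∀ b, 0 < b →
      b * Ch a + (b - a) * Eh a ≤ M0 a * Real.log (M0 a / M1 b))
    (heq : ∫ a in Ioi 0, a * Ch a = (∫ a in Ioi 0, M0 a) *
      ((∫ a in Ioi 0, M0 a) / (∫ a in Ioi 0, M1 a) - 1)) :
    ∃ r : ℝ, 0 < r ∧ (∀ a, 0 < a → M1 (r * a) = M0 a) ∧
      ∀ᵐ a, 0 < a → (r * a) * Ch a + (r * a - a) * Eh a = M0 a * Real.log (M0 a / M1 (r * a)) := by
  obtain ⟨S, s', hSpos, hSd, hs', D, hD, hDi, τ, hτ, hτt⟩ := a_core h0 h1 hC hCb hE hEb hs0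
  rw [heq, sub_self] at hτt
  have hA0p : 0 < ∫ a in Ioi 0, M0 a := h0.intPos
  have hA1p : 0 < ∫ a in Ioi 0, M1 a := h1.intPos
  set ρ := (∫ a in Ioi 0, M0 a) / (∫ a in Ioi 0, M1 a) with hρ
  have hρp : 0 < ρ := by positivity
  have hκ : (∫ a in Ioi 0, M1 a) / (∫ a in Ioi 0, M0 a) = ρ⁻¹ := by rw [hρ, inv_div]
  rw [hκ] at hs'
  have hDn : ∀ᵐ a, 0 < a → 0 ≤ D a := by
    filter_upwards [hs1] with a ha ha0
    rw [hD a]
    exact D_nonneg (h0.pos a ha0.le) hρp (h1.pos _ (hSpos a ha0).le) ha0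
      (hSpos a ha0) rfl (hs' a) (ha ha0 _ (hSpos a ha0))
  have hDr : ∀ n, 0 ≤ᵐ[volume.restrict (II n)] D := by
    intro n
    refine (ae_restrict_iff' (II_meas n)).2 ?_
    filter_upwards [hDn] with a ha hn
    exact ha (II_sub n hn)
  have hint0 : ∀ n, ∫ a in II n, D a = 0 := by
    intro n
    refine le_antisymm ?_ (setIntegral_nonneg_of_ae_restrict (hDr n))
    refine ge_of_tendsto hτt ?_
    filter_upwards [eventually_ge_atTop n] with m hm
    refine le_trans ?_ (hτ m)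
    exact setIntegral_mono_set (hDi m) (hDr m) (II_mono hm).eventuallyLE
  have hD0 : ∀ᵐ a, 0 < a → D a = 0 := by
    have h2 : ∀ n, ∀ᵐ a, a ∈ II n → D a = 0 := by
      intro n
      have h3 := (setIntegral_eq_zero_iff_of_nonneg_ae (hDr n) (hDi n)).1 (hint0 n)
      exact (ae_restrict_iff' (II_meas n)).1 h3
    have h4 := ae_all_iff.2 h2
    filter_upwards [h4] with a ha ha0
    have h5 : a ∈ ⋃ n, II n := by rw [iUnion_II]; exact ha0
    obtain ⟨n, hn⟩ := mem_iUnion.1 h5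
    exact ha n hn
  have hu : ∀ᵐ a, 0 < a → a / S a = ρ := by
    filter_upwards [hs1, hD0] with a ha hz ha0
    have hz' := hz ha0
    rw [hD a] at hz'
    exact D_zero (h0.pos a ha0.le) hρp (h1.pos _ (hSpos a ha0).le) ha0
      (hSpos a ha0) rfl (hs' a) (ha ha0 _ (hSpos a ha0)) hz'
  have hu' : ∀ a, 0 < a → a / S a = ρ := by
    intro a ha
    have h2 : ContinuousAt (fun x => x / S x) a :=
      continuousAt_id.div (hSd a ha).continuousAt (hSpos a ha).ne'
    have h3 := freq_of_ae hu ha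
    exact isClosed_singleton.mem_of_frequently_of_tendsto (s := {ρ})
      (h3.mono fun x hx => hx.2) h2
  have hS : ∀ a, 0 < a → S a = ρ⁻¹ * a := by
    intro a ha
    have h2 := hu' a ha
    have h3 := (hSpos a ha).ne'
    rw [div_eq_iff h3] at h2
    rw [eq_inv_mul_iff_mul_eq₀ hρp.ne']
    exact h2.symm
  have hM : ∀ a, 0 < a → M1 (ρ⁻¹ * a) = M0 a := by
    intro a ha
    have h2 : HasDerivAt (fun a : ℝ => ρ⁻¹ * a) (ρ⁻¹ * 1) a := (hasDerivAt_id a).const_mul _
    have h3 : S =ᶠ[𝓝 a] fun a : ℝ => ρ⁻¹ * a := by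
      filter_upwards [lt_mem_nhds ha] with b hb
      exact hS b hb
    have h4 := (hSd a ha).unique (h2.congr_of_eventuallyEq h3)
    rw [hs' a, hS a ha] at h4
    have h5 : M0 a / M1 (ρ⁻¹ * a) = 1 := mul_left_cancel₀ (inv_ne_zero hρp.ne') h4
    have h6 := h1.pos (ρ⁻¹ * a) (by positivity)
    rw [div_eq_one_iff_eq h6.ne'] at h5
    exact h5.symm
  refine ⟨ρ⁻¹, by positivity, hM, ?_⟩
  filter_upwards [hD0] with a hz ha0
  have hz' := hz ha0
  have hMa := h0.pos a ha0.le
  rw [hD a, hs' a, hu' a ha0, hS a ha0, hM a ha0, div_self hMa.ne'] at hz'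
  rw [hM a ha0, div_self hMa.ne', Real.log_one, mul_zero]
  have h2 : ρ * (ρ⁻¹ * a * Ch a + (ρ⁻¹ * a - a) * Eh a) = 0 := by
    have h3 : ρ - 2 * ρ + ρ ^ 2 * (ρ⁻¹ * 1) = 0 := by field_simp; ring
    rw [h3, mul_zero] at hz'
    linarith
  rcases mul_eq_zero.1 h2 with h3 | h3
  · exact absurd h3 hρp.ne'
  · exact h3

end Vale.Agent.P084.T
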