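import Mathlib

/-!
# Module D, part 1: data for the radial step and the transport on `(0, ∞)`
-/

namespace Vale.Agent.P084.T

open MeasureTheory Filter Topology Set

/-- data for the radial step: `M` is positive and continuous on `[0,∞)`, squeezed between
exponentials -/
structure MData (M : ℝ → ℝ) : Prop where
  cont : ContinuousOn M (Ici 0)
  pos : ∀ a, 0 ≤ a → 0 < M a
  upper : ∃ K α : ℝ, 0 < α ∧ ∀ a, 0 ≤ a → M a ≤ K * Real.exp (-(α * a))

namespace MData

variable {M : ℝ → ℝ}

theorem bound (h : MData M) :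
    ∃ K α : ℝ, 0 < K ∧ 0 < α ∧ ∀ a, 0 ≤ a → M a ≤ K * Real.exp (-(α * a)) := by
  obtain ⟨K, α, hα, hK⟩ := h.upper
  refine ⟨K, α, ?_, hα, hK⟩
  have h1 := hK 0 le_rfl
  have h2 := h.pos 0 le_rfl
  rw [mul_zero, neg_zero, Real.exp_zero, mul_one] at h1
  linarith

theorem contExt (h : MData M) : Continuous (fun t => M |t|) :=
  h.cont.comp_continuous continuous_abs (fun t => abs_nonneg t)

theorem contAt (h : MData M) {a : ℝ} (ha : 0 < a) : ContinuousAt M a :=
  h.cont.continuousAt (Ici_mem_nhds ha)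

theorem integrableOn_mul (h : MData M) : IntegrableOn (fun a => a * M a) (Ioi 0) := by
  obtain ⟨K, α, hK0, hα, hK⟩ := h.bound
  have h1 : IntegrableOn (fun a : ℝ => a * Real.exp (-α * a)) (Ioi 0) := by
    have := integrableOn_rpow_mul_exp_neg_mul_rpow (s := 1) (p := 1) (b := α) (by norm_num)
      (by norm_num) hα
    simpa using this
  refine Integrable.mono' (h1.const_mul K) ?_ ?_
  · exact (continuousOn_id.mul (h.cont.mono Ioi_subset_Ici_self)).aestronglyMeasurable
      measurableSet_Ioi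
  · refine (ae_restrict_iff' measurableSet_Ioi).2 (Eventually.of_forall fun a ha => ?_)
    have ha' : (0 : ℝ) < a := ha
    have h3 := hK a ha'.le
    have h4 := h.pos a ha'.le
    rw [Real.norm_eq_abs, abs_of_pos (by positivity)]
    calc a * M a ≤ a * (K * Real.exp (-(α * a))) := by gcongr
      _ = K * (a * Real.exp (-α * a)) := by rw [neg_mul]; ring

theorem integrableOn (h : MData M) : IntegrableOn M (Ioi 0) := by
  obtain ⟨K, α, hK0, hα, hK⟩ := h.bound
  have h1 : IntegrableOn (fun a : ℝ => Real.exp (-α * a)) (Ioi 0) := exp_neg_integrableOn_Ioi 0 hα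
  refine Integrable.mono' (h1.const_mul K) ?_ ?_
  · exact (h.cont.mono Ioi_subset_Ici_self).aestronglyMeasurable measurableSet_Ioi
  · refine (ae_restrict_iff' measurableSet_Ioi).2 (Eventually.of_forall fun a ha => ?_)
    have ha' : (0 : ℝ) < a := ha
    have h3 := hK a ha'.le
    have h4 := h.pos a ha'.le
    rw [Real.norm_eq_abs, abs_of_pos (by positivity)]
    calc M a ≤ (K * Real.exp (-(α * a))) := h3
      _ = K * (Real.exp (-α * a)) := by rw [neg_mul]

theorem intPos (h : MData M) : 0 < ∫ a in Ioi 0, M a := by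
  rw [setIntegral_pos_iff_support_of_nonneg_ae]
  · have : Function.support M ∩ Ioi 0 = Ioi 0 := by
      ext a
      constructor
      · exact fun h' => h'.2
      · exact fun h' => ⟨(h.pos a (le_of_lt h')).ne', h'⟩
    rw [this]
    simp
  · exact (ae_restrict_iff' measurableSet_Ioi).2 (Eventually.of_forall fun a ha =>
      (h.pos a (le_of_lt ha)).le)
  · exact h.integrableOn

/-- the primitive -/
noncomputable def prim (M : ℝ → ℝ) (a : ℝ) : ℝ := ∫ t in (0:ℝ)..a, M |t|

theorem hasDerivAt_prim (h : MData M) (a : ℝ) : HasDerivAt (prim M) (M |a|) a :=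
  (h.contExt.integral_hasStrictDerivAt 0 a).hasDerivAt

theorem prim_zero (M : ℝ → ℝ) : prim M 0 = 0 := by simp [prim]

theorem strictMono_prim (h : MData M) : StrictMono (prim M) := by
  refine strictMono_of_deriv_pos fun a => ?_
  rw [(h.hasDerivAt_prim a).deriv]
  exact h.pos _ (abs_nonneg _)

theorem continuous_prim (h : MData M) : Continuous (prim M) :=
  continuous_iff_continuousAt.2 fun a => (h.hasDerivAt_prim a).continuousAt

theorem tendsto_prim (h : MData M) : Tendsto (prim M) atTop (𝓝 (∫ a in Ioi 0, M a)) := by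
  have h1 : IntegrableOn (fun t => M |t|) (Ioi 0) := by
    refine h.integrableOn.congr_fun (fun a ha => ?_) measurableSet_Ioi
    rw [abs_of_pos ha]
  have h2 := intervalIntegral_tendsto_integral_Ioi 0 h1 tendsto_id
  have h3 : ∫ a in Ioi 0, M |a| = ∫ a in Ioi 0, M a :=
    setIntegral_congr_fun measurableSet_Ioi fun a ha => by
      show M |a| = M a
      rw [abs_of_pos ha]
  rw [h3] at h2
  exact h2

theorem prim_lt (h : MData M) (a : ℝ) : prim M a < ∫ a in Ioi 0, M a := by
  have h1 : prim M a < prim M (a + 1) := h.strictMono_prim (by linarith)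
  have h2 : prim M (a + 1) ≤ ∫ a in Ioi 0, M a :=
    h.strictMono_prim.monotone.ge_of_tendsto h.tendsto_prim (a + 1)
  linarith

theorem prim_pos (h : MData M) {a : ℝ} (ha : 0 < a) : 0 < prim M a := by
  have := h.strictMono_prim ha
  rwa [prim_zero] at this

theorem exists_prim (h : MData M) {y : ℝ} (hy : 0 < y) (hy' : y < ∫ a in Ioi 0, M a) :
    ∃ s, 0 < s ∧ prim M s = y := by
  obtain ⟨b, hb⟩ := ((h.tendsto_prim.eventually (lt_mem_nhds hy'))).exists
  obtain ⟨s, hs⟩ := mem_range_of_exists_le_of_exists_ge h.continuous_prim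
    ⟨0, by rw [prim_zero]; exact hy.le⟩ ⟨b, hb.le⟩
  refine ⟨s, ?_, hs⟩
  by_contra hcon
  push Not at hcon
  have := h.strictMono_prim.monotone hcon
  rw [hs, prim_zero] at this
  linarith

end MData

open MData in
/-- The transport on `(0,∞)`. -/
theorem exists_S {M0 M1 : ℝ → ℝ} (h0 : MData M0) (h1 : MData M1) :
    ∃ S : ℝ → ℝ, (∀ a, 0 < a → 0 < S a) ∧
      (∀ a, 0 < a → HasDerivAt S (((∫ a in Ioi 0, M1 a) / (∫ a in Ioi 0, M0 a)) *
        (M0 a / M1 (S a))) a) ∧
      ∃ c, 0 < c ∧ ∀ a, 0 < a → a ≤ 1 → c * a ≤ S a := by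
  classical
  set A0 := ∫ a in Ioi 0, M0 a with hA0
  set A1 := ∫ a in Ioi 0, M1 a with hA1
  have hA0p : 0 < A0 := h0.intPos
  have hA1p : 0 < A1 := h1.intPos
  set κ := A1 / A0 with hκ
  have hκp : 0 < κ := by positivity
  have hlt : ∀ a, κ * prim M0 a < A1 := by
    intro a
    have := h0.prim_lt a
    rw [← hA0] at this
    calc κ * prim M0 a < κ * A0 := by gcongr
      _ = A1 := by rw [hκ]; field_simp
  have hex : ∀ y : ℝ, ∃ s : ℝ, 0 < y → y < A1 → 0 < s ∧ prim M1 s = y := by
    intro y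
    by_cases hy : 0 < y ∧ y < A1
    · obtain ⟨s, hs⟩ := h1.exists_prim hy.1 hy.2
      exact ⟨s, fun _ _ => hs⟩
    · refine ⟨0, fun h2 h3 => (hy ⟨h2, h3⟩).elim⟩
  choose G hG using hex
  have hGc : ∀ y, 0 < y → y < A1 → ContinuousAt G y := by
    intro y hy hy'
    have hnb : ∀ᶠ z in 𝓝 y, 0 < z ∧ z < A1 :=
      (lt_mem_nhds hy).and (gt_mem_nhds hy')
    refine tendsto_order.2 ⟨fun s hs => ?_, fun s hs => ?_⟩
    · have h2 : prim M1 s < y := by
        rw [← (hG y hy hy').2]
        exact h1.strictMono_prim hs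
      filter_upwards [hnb, lt_mem_nhds h2] with z hz hz2
      rw [← (hG z hz.1 hz.2).2] at hz2
      exact h1.strictMono_prim.lt_iff_lt.1 hz2
    · have h2 : y < prim M1 s := by
        rw [← (hG y hy hy').2]
        exact h1.strictMono_prim hs
      filter_upwards [hnb, gt_mem_nhds h2] with z hz hz2
      rw [← (hG z hz.1 hz.2).2] at hz2
      exact h1.strictMono_prim.lt_iff_lt.1 hz2
  have hGd : ∀ y, 0 < y → y < A1 → HasDerivAt G (M1 (G y))⁻¹ y := by
    intro y hy hy'
    have hnb : ∀ᶠ z in 𝓝 y, 0 < z ∧ z < A1 :=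
      (lt_mem_nhds hy).and (gt_mem_nhds hy')
    have hGy := hG y hy hy'
    have h2 := h1.hasDerivAt_prim (G y)
    rw [abs_of_pos hGy.1] at h2
    refine HasDerivAt.of_local_left_inverse (hGc y hy hy') h2 (h1.pos _ hGy.1.le).ne' ?_
    filter_upwards [hnb] with z hz
    exact (hG z hz.1 hz.2).2
  have hSp : ∀ a, 0 < a → 0 < κ * prim M0 a := fun a ha => mul_pos hκp (h0.prim_pos ha)
  refine ⟨fun a => G (κ * prim M0 a), fun a ha => (hG _ (hSp a ha) (hlt a)).1,
    fun a ha => ?_, ?_⟩
  · have h2 := hGd _ (hSp a ha) (hlt a)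
    have h3 : HasDerivAt (fun a => κ * prim M0 a) (κ * M0 |a|) a :=
      (h0.hasDerivAt_prim a).const_mul κ
    have h4 := h2.comp a h3
    rw [abs_of_pos ha] at h4
    have h5 : κ * (M0 a / M1 (G (κ * prim M0 a))) =
        (M1 (G (κ * prim M0 a)))⁻¹ * (κ * M0 a) := by
      field_simp
    rw [h5]
    exact h4
  · -- lower linear bound
    obtain ⟨K, α, hK0, hα, hK⟩ := h1.bound
    obtain ⟨x0, hx0, hmin⟩ := isCompact_Icc.exists_isMinOn (s := Icc (0:ℝ) 1)
      (nonempty_Icc.2 zero_le_one) (h0.cont.mono Icc_subset_Ici_self)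
    have hm : 0 < M0 x0 := h0.pos _ hx0.1
    refine ⟨κ * M0 x0 / K, by positivity, fun a ha ha1 => ?_⟩
    have h2 : M0 x0 * a ≤ prim M0 a := by
      have h3 : ∫ t in (0:ℝ)..a, M0 x0 ≤ ∫ t in (0:ℝ)..a, M0 |t| := by
        refine intervalIntegral.integral_mono_on ha.le (by simp)
          (h0.contExt.intervalIntegrable _ _) (fun t ht => ?_)
        rw [abs_of_nonneg ht.1]
        exact hmin ⟨ht.1, ht.2.trans ha1⟩
      rw [intervalIntegral.integral_const, sub_zero, smul_eq_mul] at h3
      unfold prim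
      linarith
    set s := G (κ * prim M0 a) with hs
    have hs' := hG _ (hSp a ha) (hlt a)
    rw [← hs] at hs'
    have h4 : prim M1 s ≤ K * s := by
      have h3 : ∫ t in (0:ℝ)..s, M1 |t| ≤ ∫ t in (0:ℝ)..s, K := by
        refine intervalIntegral.integral_mono_on hs'.1.le
          (h1.contExt.intervalIntegrable _ _) (by simp) (fun t ht => ?_)
        refine (hK _ (abs_nonneg t)).trans ?_
        have : Real.exp (-(α * |t|)) ≤ 1 := by
          rw [Real.exp_le_one_iff]
          have := mul_nonneg hα.le (abs_nonneg t)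
          linarith
        nlinarith
      rw [intervalIntegral.integral_const, sub_zero, smul_eq_mul] at h3
      unfold prim
      linarith
    rw [hs'.2] at h4
    have h5 : κ * (M0 x0 * a) ≤ K * s := (mul_le_mul_of_nonneg_left h2 hκp.le).trans h4
    rw [div_mul_eq_mul_div, div_le_iff₀ hK0]
    linarith

end Vale.Agent.P084.T
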