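import Vale.Agent.P084.T.Basic
namespace Vale.Agent.P084.T
open MeasureTheory Filter Topology Set Metric

variable {X : Type*} [NormedAddCommGroup X] [NormedSpace ℝ X] [FiniteDimensional ℝ X]

theorem integrable_pow_exp_norm [MeasurableSpace X] [BorelSpace X] (μ : Measure X)
    [μ.IsAddHaarMeasure] (m : ℕ) : Integrable (fun w : X => ‖w‖ ^ m * Real.exp (-‖w‖)) μ := by
  set k := Module.finrank ℝ X + 1 + m with hk
  have h1 : Integrable (fun w : X => (1 + ‖w‖) ^ (-((Module.finrank ℝ X + 1 : ℕ) : ℝ))) μ :=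
    integrable_one_add_norm (by push_cast; linarith)
  refine Integrable.mono' (h1.const_mul (Real.exp 1 * k.factorial)) (by fun_prop) ?_
  refine Eventually.of_forall fun w => ?_
  have hw : 0 ≤ ‖w‖ := norm_nonneg w
  have h2 := Real.pow_div_factorial_le_exp (1 + ‖w‖) (by positivity) k
  rw [Real.norm_eq_abs, abs_of_nonneg (by positivity)]
  rw [Real.rpow_neg (by positivity), Real.rpow_natCast]
  have h3 : Real.exp (-‖w‖) = Real.exp 1 * (Real.exp (1 + ‖w‖))⁻¹ := by
    rw [← Real.exp_neg, ← Real.exp_add]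
    congr 1
    ring
  have hf : (0 : ℝ) < k.factorial := by positivity
  have hp : 0 < (1 + ‖w‖) ^ k := by positivity
  have h4 : (Real.exp (1 + ‖w‖))⁻¹ ≤ ((1 + ‖w‖) ^ k / k.factorial)⁻¹ :=
    inv_anti₀ (by positivity) h2
  have h5 : ‖w‖ ^ m ≤ (1 + ‖w‖) ^ m := by gcongr; linarith
  calc ‖w‖ ^ m * Real.exp (-‖w‖) = Real.exp 1 * (‖w‖ ^ m * (Real.exp (1 + ‖w‖))⁻¹) := by
        rw [h3]; ring
    _ ≤ Real.exp 1 * ((1 + ‖w‖) ^ m * ((1 + ‖w‖) ^ k / k.factorial)⁻¹) := by gcongr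
    _ = Real.exp 1 * k.factorial * ((1 + ‖w‖) ^ (Module.finrank ℝ X + 1))⁻¹ := by
        rw [hk, pow_add (1 + ‖w‖) (Module.finrank ℝ X + 1) m]
        field_simp

theorem integrable_exp_norm [MeasurableSpace X] [BorelSpace X] (μ : Measure X)
    [μ.IsAddHaarMeasure] : Integrable (fun w : X => Real.exp (-‖w‖)) μ := by
  simpa using integrable_pow_exp_norm μ 0

theorem integrable_norm_exp_norm [MeasurableSpace X] [BorelSpace X] (μ : Measure X)
    [μ.IsAddHaarMeasure] : Integrable (fun w : X => ‖w‖ * Real.exp (-‖w‖)) μ := by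
  simpa using integrable_pow_exp_norm μ 1
end Vale.Agent.P084.T
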