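import Vale.Agent.P084.T.Key
import Vale.Agent.P084.T.Integ

/-!
# Module H: the area formula average
-/

namespace Vale.Agent.P084.T

open MeasureTheory Filter Topology Set

variable {X Y : Type*} [NormedAddCommGroup X] [NormedSpace ℝ X] [FiniteDimensional ℝ X]
    [NormedAddCommGroup Y] [NormedSpace ℝ Y] {F : X → Y}

theorem HMap.finiteDimensional (hF : HMap F) (hb : Function.Bijective F) :
    FiniteDimensional ℝ Y := by
  have h1 : IsCompact (F '' Metric.closedBall (0 : X) 1) :=
    (isCompact_closedBall (0 : X) 1).image hF.continuous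
  have h2 : F '' Metric.closedBall (0 : X) 1 = Metric.closedBall (0 : Y) 1 := by
    ext y
    simp only [mem_image, mem_closedBall_zero_iff]
    constructor
    · rintro ⟨x, hx, rfl⟩
      rwa [hF.norm_map]
    · intro hy
      obtain ⟨x, rfl⟩ := hb.2 y
      exact ⟨x, by rwa [hF.norm_map] at hy, rfl⟩
  rw [h2] at h1
  exact FiniteDimensional.of_isCompact_closedBall₀ ℝ zero_lt_one h1

/-- bi-Lipschitz maps preserve the dimension -/
theorem HMap.finrank_eq (hF : HMap F) (hb : Function.Bijective F) :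
    Module.finrank ℝ Y = Module.finrank ℝ X := by
  have := hF.finiteDimensional hb
  obtain ⟨G, hGF, hFG⟩ := Function.bijective_iff_has_inverse.1 hb
  have hG : HMap G := hF.inverse hGF hFG
  have h1 : dimH (univ : Set Y) ≤ dimH (univ : Set X) := by
    have := hF.lipschitz.dimH_range_le
    rwa [hb.2.range_eq] at this
  have h2 : dimH (univ : Set X) ≤ dimH (univ : Set Y) := by
    have := hG.lipschitz.dimH_range_le
    rwa [(Function.RightInverse.surjective hGF).range_eq] at this
  have h3 := le_antisymm h1 h2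
  rw [Real.dimH_univ_eq_finrank, Real.dimH_univ_eq_finrank] at h3
  exact_mod_cast h3

variable [MeasurableSpace X] [BorelSpace X]

/-- the slice integrals are positive and finite -/
theorem HMap.integrable_exp (hF : HMap F) (μ : Measure X) [μ.IsAddHaarMeasure] {x : X}
    (hx : Good F x) :
    Integrable (fun w => Real.exp (-‖fderiv ℝ F x w‖)) μ ∧
      0 < ∫ w, Real.exp (-‖fderiv ℝ F x w‖) ∂μ := by
  have hinj := hF.fderiv_injective hx
  obtain ⟨K, hK, hKa⟩ := LinearMap.exists_antilipschitzWith (fderiv ℝ F x : X →ₗ[ℝ] Y)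
    (LinearMap.ker_eq_bot.2 hinj)
  have hK' : (0 : ℝ) < K := hK
  have hI : Integrable (fun w => Real.exp (-‖fderiv ℝ F x w‖)) μ := by
    have h1 : Integrable (fun w : X => Real.exp (-‖((K : ℝ)⁻¹) • w‖)) μ := by
      have := (integrable_comp_smul_iff μ (fun w : X => Real.exp (-‖w‖))
        (R := (K : ℝ)⁻¹) (inv_ne_zero hK'.ne')).2 (integrable_exp_norm μ)
      exact this
    refine h1.mono' (by fun_prop) (Eventually.of_forall fun w => ?_)
    rw [Real.norm_eq_abs, Real.abs_exp]
    apply Real.exp_le_exp.2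
    rw [neg_le_neg_iff, norm_smul, norm_inv, Real.norm_eq_abs, abs_of_pos hK',
      inv_mul_le_iff₀ hK']
    have h2 := hKa.le_mul_dist w 0
    simp only [dist_zero_right, map_zero] at h2
    exact h2
  exact ⟨hI, integral_exp_pos hI⟩

/-- Lipschitz self maps of a finite dimensional space map null sets to null sets -/
theorem null_image (μ : Measure X) [μ.IsAddHaarMeasure] {f : X → X} {K : NNReal}
    (hf : LipschitzWith K f) {s : Set X} (hs : μ s = 0) : μ (f '' s) = 0 := by
  set ν : Measure X := Measure.hausdorffMeasure (Module.finrank ℝ X : ℝ) with hν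
  have h1 : μ ≪ ν := Measure.absolutelyContinuous_isAddHaarMeasure μ ν
  have h2 : ν ≪ μ := Measure.absolutelyContinuous_isAddHaarMeasure ν μ
  apply h1
  have h3 := hf.hausdorffMeasure_image_le (d := (Module.finrank ℝ X : ℝ)) (by positivity) s
  have h4 : ν s = 0 := h2 hs
  rw [← hν] at h3
  rw [h4, mul_zero] at h3
  exact le_antisymm h3 (zero_le)

/-- linear change of variables -/
theorem integral_comp_linear (μ : Measure X) [μ.IsAddHaarMeasure] (A : X →L[ℝ] X)
    (hA : Function.Injective A) (g : X → ℝ) :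
    |A.det| * ∫ w, g (A w) ∂μ = ∫ w, g w ∂μ := by
  have h := integral_image_eq_integral_abs_det_fderiv_smul μ (s := univ) MeasurableSet.univ
    (f := A) (f' := fun _ => A) (fun x _ => A.hasFDerivAt.hasFDerivWithinAt)
    hA.injOn g
  have hsurj : Function.Surjective A := by
    have := LinearMap.injective_iff_surjective (f := (A : X →ₗ[ℝ] X))
    exact this.1 hA
  rw [image_univ, hsurj.range_eq] at h
  simp only [Measure.restrict_univ, smul_eq_mul] at h
  rw [h, integral_const_mul]

/-- Average of the reciprocal volume of the unit ball of `‖T_x ·‖` (area formula for `F`). -/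
theorem HMap.area_average (hF : HMap F) (hb : Function.Bijective F) (μ : Measure X)
    [μ.IsAddHaarMeasure] [Nontrivial X] :
    Integrable (fun x => Real.exp (-‖x‖) / (∫ w, Real.exp (-‖fderiv ℝ F x w‖) ∂μ)) μ ∧
    ∫ x, Real.exp (-‖x‖) / (∫ w, Real.exp (-‖fderiv ℝ F x w‖) ∂μ) ∂μ = 1 := by
  have := hF.finiteDimensional hb
  have hfr := hF.finrank_eq hb
  obtain ⟨L⟩ : Nonempty (Y ≃L[ℝ] X) := FiniteDimensional.nonempty_continuousLinearEquiv_of_finrank_eq hfr
  set f : X → X := fun x => L (F x) with hfdef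
  have hfl : LipschitzWith (‖(L : Y →L[ℝ] X)‖₊ * 3) f :=
    (L : Y →L[ℝ] X).lipschitz.comp hF.lipschitz
  have hfb : Function.Bijective f := L.bijective.comp hb
  set s : Set X := {x | DifferentiableAt ℝ F x} with hs
  have hsm : MeasurableSet s := measurableSet_of_differentiableAt ℝ F
  have hsn : μ sᶜ = 0 := hF.lipschitz.ae_differentiableAt
  set A : X → X →L[ℝ] X := fun x => (L : Y →L[ℝ] X).comp (fderiv ℝ F x) with hAdef
  have hfd : ∀ x ∈ s, HasFDerivWithinAt f (A x) s x := fun x hx =>
    (((L : Y →L[ℝ] X).hasFDerivAt).comp x hx.hasFDerivAt).hasFDerivWithinAt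
  have himg : μ (f '' s)ᶜ = 0 := by
    rw [← image_compl_eq hfb]
    exact null_image μ hfl hsn
  have hrestr : μ.restrict (f '' s) = μ := by
    rw [Measure.restrict_eq_self_of_ae_mem]
    exact himg
  have hrestr' : μ.restrict s = μ := by
    rw [Measure.restrict_eq_self_of_ae_mem]
    exact hsn
  -- the test function
  have hLs : Integrable (fun z : X => Real.exp (-‖L.symm z‖)) μ := by
    have hK : (0 : ℝ) < ‖(L : Y →L[ℝ] X)‖ + 1 := by positivity
    have h1 : Integrable (fun w : X => Real.exp (-‖((‖(L : Y →L[ℝ] X)‖ + 1)⁻¹) • w‖)) μ :=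
      (integrable_comp_smul_iff μ (fun w : X => Real.exp (-‖w‖))
        (R := (‖(L : Y →L[ℝ] X)‖ + 1)⁻¹) (inv_ne_zero hK.ne')).2 (integrable_exp_norm μ)
    refine h1.mono' (by fun_prop) (Eventually.of_forall fun w => ?_)
    rw [Real.norm_eq_abs, Real.abs_exp]
    apply Real.exp_le_exp.2
    rw [neg_le_neg_iff, norm_smul, norm_inv, Real.norm_eq_abs, abs_of_pos hK,
      inv_mul_le_iff₀ hK]
    have h2 := (L : Y →L[ℝ] X).le_opNorm (L.symm w)
    simp only [ContinuousLinearEquiv.coe_coe, ContinuousLinearEquiv.apply_symm_apply] at h2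
    refine h2.trans ?_
    gcongr
    linarith
  set Z : ℝ := ∫ z : X, Real.exp (-‖L.symm z‖) ∂μ with hZ
  have hZpos : 0 < Z := integral_exp_pos hLs
  have hdet : ∀ᵐ x ∂μ, Real.exp (-‖x‖) / (∫ w, Real.exp (-‖fderiv ℝ F x w‖) ∂μ) =
      Z⁻¹ * (|(A x).det| • Real.exp (-‖L.symm (f x)‖)) := by
    have h1 : ∀ᵐ x ∂μ, DifferentiableAt ℝ F x := hF.lipschitz.ae_differentiableAt
    have h2 : ∀ᵐ x ∂μ, ND x := (lipschitzWith_one_norm (E := X)).ae_differentiableAt
    filter_upwards [h1, h2] with x hx1 hx2
    have hx : Good F x := ⟨hx2.ne_zero, hx2, hx1⟩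
    have hAinj : Function.Injective (A x) := L.injective.comp (hF.fderiv_injective hx)
    have h3 := integral_comp_linear μ (A x) hAinj (fun z => Real.exp (-‖L.symm z‖))
    have h4 : ∀ w, L.symm (A x w) = fderiv ℝ F x w := fun w => by simp [hAdef]
    have h5 : L.symm (f x) = F x := by simp [hfdef]
    simp only [h4] at h3
    rw [h5, hF.norm_map, smul_eq_mul]
    have hpos := (hF.integrable_exp μ hx).2
    rw [hZ, ← h3]
    rw [← hZ] at h3
    have hd : |(A x).det| ≠ 0 := by
      intro h0
      rw [h0, zero_mul] at h3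
      exact hZpos.ne h3
    field_simp
  have hint1 : Integrable (fun x => |(A x).det| • Real.exp (-‖L.symm (f x)‖)) μ := by
    have h1 := (integrableOn_image_iff_integrableOn_abs_det_fderiv_smul μ hsm hfd hfb.1.injOn
      (fun z => Real.exp (-‖L.symm z‖))).1
    unfold IntegrableOn at h1
    rw [hrestr, hrestr'] at h1
    exact h1 hLs
  have hint2 : ∫ x, |(A x).det| • Real.exp (-‖L.symm (f x)‖) ∂μ = Z := by
    have h1 := integral_image_eq_integral_abs_det_fderiv_smul μ hsm hfd hfb.1.injOn
      (fun z => Real.exp (-‖L.symm z‖))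
    rw [hrestr, hrestr'] at h1
    exact h1.symm
  refine ⟨(hint1.const_mul Z⁻¹).congr (hdet.mono fun x hx => hx.symm), ?_⟩
  rw [integral_congr_ae hdet, integral_const_mul, hint2, inv_mul_cancel₀ hZpos.ne']

end Vale.Agent.P084.T
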