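import Vale.Agent.P084.T.Key

/-!
# Module G: chords, the function `cc`, antisymmetry and the flux identity
-/

namespace Vale.Agent.P084.T

open MeasureTheory Filter Topology Set

variable {X Y : Type*} [NormedAddCommGroup X] [NormedSpace ℝ X]
    [NormedAddCommGroup Y] [NormedSpace ℝ Y]

/-- exit parameter of the chord of the sphere through `x` in direction `-w` -/
noncomputable def ex (x w : X) : ℝ := sSup {s : ℝ | 0 ≤ s ∧ ‖x - s • w‖ ≤ ‖x‖}

/-- the other end point of the chord through `x` parallel to `w` -/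
noncomputable def opp (x w : X) : X := x - ex x w • w

/-- right derivative of the norm at `a` in direction `b` -/
noncomputable def dp (a b : Y) : ℝ := ⨅ k : ℕ, ((k : ℝ) + 1) * (‖a + ((k : ℝ) + 1)⁻¹ • b‖ - ‖a‖)

/-- the constant `c(x,w)` of the paper proof -/
noncomputable def cc (F : X → Y) (x w : X) : ℝ :=
  ((dp (F x - F (opp x w)) (F x) - dp (F x - F (opp x w)) (-F x)) / 2 - J w x) / ‖x‖

theorem exSet_zero (x w : X) : (0 : ℝ) ∈ {s : ℝ | 0 ≤ s ∧ ‖x - s • w‖ ≤ ‖x‖} := by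
  simp

theorem exSet_bdd (x : X) {w : X} (hw : w ≠ 0) :
    BddAbove {s : ℝ | 0 ≤ s ∧ ‖x - s • w‖ ≤ ‖x‖} := by
  have hw' : 0 < ‖w‖ := norm_pos_iff.2 hw
  refine ⟨2 * ‖x‖ / ‖w‖, fun s hs => ?_⟩
  obtain ⟨hs0, hs1⟩ := hs
  rw [le_div_iff₀ hw']
  have h1 : ‖s • w‖ ≤ ‖x‖ + ‖x - s • w‖ := by
    have : s • w = x - (x - s • w) := by abel
    calc ‖s • w‖ = ‖x - (x - s • w)‖ := by rw [← this]
      _ ≤ _ := norm_sub_le _ _
  rw [norm_smul, Real.norm_eq_abs, abs_of_nonneg hs0] at h1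
  linarith

theorem exSet_closed (x w : X) : IsClosed {s : ℝ | 0 ≤ s ∧ ‖x - s • w‖ ≤ ‖x‖} := by
  have h1 : IsClosed {s : ℝ | 0 ≤ s} := isClosed_Ici
  have h2 : IsClosed {s : ℝ | ‖x - s • w‖ ≤ ‖x‖} := isClosed_le (by fun_prop) continuous_const
  exact h1.inter h2

theorem ex_mem (x : X) {w : X} (hw : w ≠ 0) : 0 ≤ ex x w ∧ ‖x - ex x w • w‖ ≤ ‖x‖ :=
  (exSet_closed x w).csSup_mem ⟨0, exSet_zero x w⟩ (exSet_bdd x hw)

theorem ex_nonneg (x w : X) : 0 ≤ ex x w := Real.sSup_nonneg fun _ hs => hs.1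

theorem le_ex (x : X) {w : X} (hw : w ≠ 0) {s : ℝ} (hs : 0 ≤ s) (h : ‖x - s • w‖ ≤ ‖x‖) :
    s ≤ ex x w :=
  le_csSup (exSet_bdd x hw) ⟨hs, h⟩

theorem ne_zero_of_J_pos {x w : X} (hJ : 0 < J x w) : w ≠ 0 := by
  rintro rfl
  simp at hJ

theorem eventually_norm_lt {x w : X} (hx : ND x) (hJ : 0 < J x w) :
    ∀ᶠ t : ℝ in 𝓝[>] 0, ‖x - t • w‖ < ‖x‖ := by
  have h1 := tendsto_quot (hasDerivAt_norm_line hx (-w))
  have h2 : J x (-w) < 0 := by rw [map_neg]; linarith
  have h3 := h1.eventually (gt_mem_nhds h2)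
  filter_upwards [h3, self_mem_nhdsWithin] with t ht ht0
  have ht0' : (0 : ℝ) < t := ht0
  rw [smul_eq_mul] at ht
  have h4 : ‖x + t • -w‖ - ‖x + (0 : ℝ) • -w‖ < 0 := by
    by_contra hcon
    push Not at hcon
    have := mul_nonneg (inv_nonneg.2 ht0'.le) hcon
    linarith
  have e1 : x + t • -w = x - t • w := by rw [smul_neg, sub_eq_add_neg]
  rw [e1, zero_smul, add_zero] at h4
  linarith

theorem ex_pos {x w : X} (hx : ND x) (hJ : 0 < J x w) : 0 < ex x w := by
  obtain ⟨t, ht, ht0⟩ := ((eventually_norm_lt hx hJ).and self_mem_nhdsWithin).exists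
  have ht0' : (0 : ℝ) < t := ht0
  exact ht0'.trans_le (le_ex x (ne_zero_of_J_pos hJ) ht0'.le ht.le)

theorem norm_opp {x w : X} (hw : w ≠ 0) : ‖opp x w‖ = ‖x‖ := by
  apply le_antisymm (ex_mem x hw).2
  by_contra hcon
  push Not at hcon
  have hc : Continuous fun s : ℝ => ‖x - s • w‖ := by fun_prop
  have h1 : ∀ᶠ s in 𝓝 (ex x w), ‖x - s • w‖ < ‖x‖ :=
    (hc.tendsto (ex x w)).eventually (gt_mem_nhds hcon)
  have h2 : ∀ᶠ s in 𝓝[>] (ex x w), ‖x - s • w‖ < ‖x‖ := h1.filter_mono nhdsWithin_le_nhds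
  obtain ⟨s, hs, hs'⟩ := (h2.and self_mem_nhdsWithin).exists
  have hs'' : ex x w < s := hs'
  have := le_ex x hw ((ex_nonneg x w).trans hs''.le) hs.le
  linarith

theorem norm_lt_of_J_pos {x w : X} (hx : ND x) (hJ : 0 < J x w) {t : ℝ} (ht : 0 < t) :
    ‖x‖ < ‖x + t • w‖ := by
  have h1 := J_le x (x + t • w)
  rw [map_add, J_self hx, map_smul, smul_eq_mul] at h1
  have := mul_pos ht hJ
  linarith

theorem ex_opp {x w : X} (hx : ND x) (hJ : 0 < J x w) : ex (opp x w) (-w) = ex x w := by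
  have hw := ne_zero_of_J_pos hJ
  have hy := norm_opp (x := x) hw
  apply IsGreatest.csSup_eq
  constructor
  · refine ⟨ex_nonneg x w, ?_⟩
    have : opp x w - ex x w • -w = x := by simp [opp]
    rw [this, hy]
  · rintro s ⟨hs0, hs1⟩
    by_contra hcon
    push Not at hcon
    have h1 : opp x w - s • -w = x + (s - ex x w) • w := by
      rw [opp]; module
    rw [h1, hy] at hs1
    have := norm_lt_of_J_pos hx hJ (sub_pos.2 hcon)
    linarith

theorem opp_opp {x w : X} (hx : ND x) (hJ : 0 < J x w) : opp (opp x w) (-w) = x := by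
  have h := ex_opp hx hJ
  have : opp (opp x w) (-w) = opp x w - ex (opp x w) (-w) • -w := rfl
  rw [this, h, opp]
  module

/-- at the other end point the line leaves the ball transversally -/
theorem J_opp_neg {x w : X} (hx : ND x) (hJ : 0 < J x w) (hy : ND (opp x w)) :
    0 < J (opp x w) (-w) := by
  have hw := ne_zero_of_J_pos hJ
  have he := ex_pos hx hJ
  have hn := norm_opp (x := x) hw
  have h1 : ∀ᶠ t : ℝ in 𝓝[>] 0, t < ex x w :=
    (gt_mem_nhds he).filter_mono nhdsWithin_le_nhds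
  obtain ⟨t, ht, ht1⟩ := ((eventually_norm_lt hx hJ).and h1).exists
  have e1 : x - t • w = opp x w + (ex x w - t) • w := by rw [opp]; module
  have h2 := J_le (opp x w) (x - t • w)
  rw [e1] at h2
  rw [map_add, J_self hy, map_smul, smul_eq_mul, hn, ← e1] at h2
  rw [map_neg]
  by_contra hcon
  push Not at hcon
  have : 0 ≤ (ex x w - t) * J (opp x w) w := mul_nonneg (by linarith) (by linarith)
  linarith

/-! ### the right derivative -/

theorem quot_mono (a b : Y) {s t : ℝ} (hs : 0 < s) (hst : s ≤ t) :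
    (‖a + s • b‖ - ‖a‖) / s ≤ (‖a + t • b‖ - ‖a‖) / t := by
  have ht : 0 < t := hs.trans_le hst
  have e : a + s • b = (1 - s / t) • a + (s / t) • (a + t • b) := by
    have : (s / t) * t = s := div_mul_cancel₀ _ ht.ne'
    calc a + s • b = a + ((s / t) * t) • b := by rw [this]
      _ = _ := by module
  have h1 : ‖a + s • b‖ ≤ (1 - s / t) * ‖a‖ + (s / t) * ‖a + t • b‖ := by
    rw [e]
    refine (norm_add_le _ _).trans ?_
    rw [norm_smul, norm_smul, Real.norm_eq_abs, Real.norm_eq_abs,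
      abs_of_nonneg (by rw [sub_nonneg, div_le_one ht]; exact hst),
      abs_of_nonneg (by positivity)]
  rw [div_le_iff₀ hs]
  have e2 : (‖a + t • b‖ - ‖a‖) / t * s = (s / t) * (‖a + t • b‖ - ‖a‖) := by ring
  rw [e2]
  linarith

theorem quot_eq (a b : Y) (k : ℕ) :
    ((k : ℝ) + 1) * (‖a + ((k : ℝ) + 1)⁻¹ • b‖ - ‖a‖) =
      (‖a + ((k : ℝ) + 1)⁻¹ • b‖ - ‖a‖) / ((k : ℝ) + 1)⁻¹ := by
  rw [div_inv_eq_mul, mul_comm]

theorem neg_norm_le_quot (a b : Y) {t : ℝ} (ht : 0 < t) :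
    -‖b‖ ≤ (‖a + t • b‖ - ‖a‖) / t := by
  rw [le_div_iff₀ ht]
  have : ‖a‖ ≤ ‖a + t • b‖ + ‖t • b‖ := by
    calc ‖a‖ = ‖(a + t • b) - t • b‖ := by rw [add_sub_cancel_right]
      _ ≤ _ := norm_sub_le _ _
  rw [norm_smul, Real.norm_eq_abs, abs_of_pos ht] at this
  linarith

theorem dp_bdd (a b : Y) :
    BddBelow (Set.range fun k : ℕ => ((k : ℝ) + 1) * (‖a + ((k : ℝ) + 1)⁻¹ • b‖ - ‖a‖)) := by
  refine ⟨-‖b‖, ?_⟩
  rintro _ ⟨k, rfl⟩
  simp only
  rw [quot_eq]
  exact neg_norm_le_quot a b (by positivity)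

theorem dp_le_quot (a b : Y) {t : ℝ} (ht : 0 < t) : dp a b ≤ (‖a + t • b‖ - ‖a‖) / t := by
  obtain ⟨k, hk⟩ := exists_nat_one_div_lt ht
  rw [one_div] at hk
  refine (ciInf_le (dp_bdd a b) k).trans ?_
  rw [quot_eq]
  exact quot_mono a b (by positivity) hk.le

theorem tendsto_dp (a b : Y) :
    Tendsto (fun t : ℝ => (‖a + t • b‖ - ‖a‖) / t) (𝓝[>] 0) (𝓝 (dp a b)) := by
  rw [tendsto_order]
  constructor
  · intro c hc
    filter_upwards [self_mem_nhdsWithin] with t ht
    exact hc.trans_le (dp_le_quot a b ht)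
  · intro c hc
    obtain ⟨k, hk⟩ := exists_lt_of_ciInf_lt hc
    rw [quot_eq] at hk
    have hpos : (0 : ℝ) < ((k : ℝ) + 1)⁻¹ := by positivity
    have h1 : ∀ᶠ t : ℝ in 𝓝[>] 0, t < ((k : ℝ) + 1)⁻¹ :=
      (gt_mem_nhds hpos).filter_mono nhdsWithin_le_nhds
    filter_upwards [h1, self_mem_nhdsWithin] with t ht ht0
    exact (quot_mono a b ht0 ht.le).trans_lt hk

theorem dp_smul (a b : Y) {c : ℝ} (hc : 0 < c) : dp a (c • b) = c * dp a b := by
  have h1 := tendsto_dp a (c • b)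
  have h2 : Tendsto (fun t : ℝ => c * t) (𝓝[>] 0) (𝓝[>] 0) := by
    apply tendsto_nhdsWithin_of_tendsto_nhds_of_eventually_within
    · have : Tendsto (fun t : ℝ => c * t) (𝓝 0) (𝓝 (c * 0)) :=
        (continuous_const.mul continuous_id).tendsto 0
      rw [mul_zero] at this
      exact this.mono_left nhdsWithin_le_nhds
    · filter_upwards [self_mem_nhdsWithin] with t ht
      exact mul_pos hc (Set.mem_Ioi.1 ht)
  have h3 := ((tendsto_dp a b).comp h2).const_mul c
  refine tendsto_nhds_unique h1 (h3.congr' ?_)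
  filter_upwards [self_mem_nhdsWithin] with t ht
  have ht' : (0 : ℝ) < t := ht
  simp only [Function.comp]
  rw [smul_smul, mul_comm t c]
  field_simp

theorem dp_add (a b b' : Y) : dp a (b + b') ≤ dp a b + dp a b' := by
  have h1 := tendsto_dp a (b + b')
  have h2 : Tendsto (fun t : ℝ => 2 * t) (𝓝[>] 0) (𝓝[>] 0) := by
    apply tendsto_nhdsWithin_of_tendsto_nhds_of_eventually_within
    · have : Tendsto (fun t : ℝ => 2 * t) (𝓝 0) (𝓝 (2 * 0)) :=
        (continuous_const.mul continuous_id).tendsto 0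
      rw [mul_zero] at this
      exact this.mono_left nhdsWithin_le_nhds
    · filter_upwards [self_mem_nhdsWithin] with t ht
      exact mul_pos two_pos (Set.mem_Ioi.1 ht)
  have h3 := ((tendsto_dp a b).comp h2).add ((tendsto_dp a b').comp h2)
  refine le_of_tendsto_of_tendsto h1 h3 ?_
  filter_upwards [self_mem_nhdsWithin] with t ht
  have ht' : (0 : ℝ) < t := ht
  simp only [Function.comp]
  rw [← add_div, div_le_div_iff₀ ht' (by positivity)]
  have e : a + t • (b + b') = (2⁻¹ : ℝ) • (a + (2 * t) • b) + (2⁻¹ : ℝ) • (a + (2 * t) • b') := by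
    module
  have h4 : ‖a + t • (b + b')‖ ≤ 2⁻¹ * ‖a + (2 * t) • b‖ + 2⁻¹ * ‖a + (2 * t) • b'‖ := by
    rw [e]
    refine (norm_add_le _ _).trans ?_
    rw [norm_smul, norm_smul, Real.norm_eq_abs, abs_of_pos (by norm_num : (0 : ℝ) < 2⁻¹)]
  nlinarith

theorem dp_le_norm (a b : Y) : dp a b ≤ ‖b‖ := by
  refine (dp_le_quot a b one_pos).trans ?_
  rw [div_one, one_smul]
  have := norm_add_le a b
  linarith

theorem neg_norm_le_dp (a b : Y) : -‖b‖ ≤ dp a b := by
  refine le_ciInf fun k => ?_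
  rw [quot_eq]
  exact neg_norm_le_quot a b (by positivity)

theorem dp_zero (a : Y) : dp a 0 = 0 := by
  simp [dp]

theorem dp_self (a : Y) : dp a a = ‖a‖ := by
  refine tendsto_nhds_unique (tendsto_dp a a) ?_
  refine Tendsto.congr' ?_ tendsto_const_nhds
  filter_upwards [self_mem_nhdsWithin] with t ht
  have ht' : (0 : ℝ) < t := ht
  have e : a + t • a = (1 + t) • a := by module
  rw [e, norm_smul, Real.norm_eq_abs, abs_of_pos (by linarith)]
  field_simp
  ring

theorem dp_neg_self (a : Y) : dp a (-a) = -‖a‖ := by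
  refine tendsto_nhds_unique (tendsto_dp a (-a)) ?_
  refine Tendsto.congr' ?_ tendsto_const_nhds
  have h1 : ∀ᶠ t : ℝ in 𝓝[>] 0, t < 1 := (gt_mem_nhds one_pos).filter_mono nhdsWithin_le_nhds
  filter_upwards [self_mem_nhdsWithin, h1] with t ht ht1
  have ht' : (0 : ℝ) < t := ht
  have e : a + t • -a = (1 - t) • a := by module
  rw [e, norm_smul, Real.norm_eq_abs, abs_of_pos (by linarith)]
  field_simp
  ring

theorem le_dp {a b : Y} {ψ : Y →L[ℝ] ℝ} (hψ : ∀ u, ψ u ≤ ‖u‖) (ha : ψ a = ‖a‖) :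
    ψ b ≤ dp a b := by
  refine le_ciInf fun k => ?_
  rw [quot_eq, le_div_iff₀ (by positivity)]
  have := hψ (a + ((k : ℝ) + 1)⁻¹ • b)
  rw [map_add, map_smul, ha, smul_eq_mul] at this
  linarith

/-- `dp a b` is the maximum of `ψ b` over norming functionals `ψ` of `a` -/
theorem exists_dp (a b : Y) : ∃ ψ : Y →L[ℝ] ℝ, (∀ u, ψ u ≤ ‖u‖) ∧ ψ a = ‖a‖ ∧ ψ b = dp a b := by
  by_cases hb : b = 0
  · obtain ⟨ψ, h1, h2⟩ := exists_norming a
    exact ⟨ψ, h1, h2, by rw [hb, dp_zero, map_zero]⟩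
  · obtain ⟨g, hg1, hg2⟩ := exists_extension_of_le_sublinear
      (LinearPMap.mkSpanSingleton b (dp a b) hb) (dp a)
      (fun c hc x => dp_smul a x hc) (fun x y => dp_add a x y) (by
        rintro ⟨z, hz⟩
        obtain ⟨t, rfl⟩ := Submodule.mem_span_singleton.1 hz
        rw [LinearPMap.mkSpanSingleton'_apply]
        simp only [smul_eq_mul, RingHom.id_apply]
        rcases lt_trichotomy t 0 with ht | ht | ht
        · have h1 := dp_smul a (-b) (neg_pos.2 ht)
          rw [smul_neg, neg_smul, neg_neg] at h1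
          rw [h1]
          have h2 := dp_add a b (-b)
          rw [add_neg_cancel, dp_zero] at h2
          nlinarith
        · rw [ht, zero_smul, dp_zero, zero_mul]
        · rw [dp_smul a b ht])
    have hg3 : ∀ v, ‖g v‖ ≤ 1 * ‖v‖ := by
      intro v
      rw [Real.norm_eq_abs, one_mul, abs_le]
      constructor
      · have := (hg2 (-v)).trans (dp_le_norm a (-v))
        rw [map_neg, norm_neg] at this
        linarith
      · exact (hg2 v).trans (dp_le_norm a v)
    refine ⟨g.mkContinuous 1 hg3, fun u => ?_, ?_, ?_⟩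
    · exact (hg2 u).trans (dp_le_norm a u)
    · apply le_antisymm
      · exact (hg2 a).trans (dp_self a).le
      · have := (hg2 (-a)).trans (dp_neg_self a).le
        rw [map_neg] at this
        have h3 : ‖a‖ ≤ g a := by linarith
        exact h3
    · have h1 := hg1 ⟨b, Submodule.mem_span_singleton_self b⟩
      exact h1.trans (LinearPMap.mkSpanSingleton'_apply_self b (dp a b) _ _)

/-- there is a norming functional realising the midpoint choice -/
theorem exists_mid (a b : Y) : ∃ ψ : Y →L[ℝ] ℝ, (∀ u, ψ u ≤ ‖u‖) ∧ ψ a = ‖a‖ ∧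
    ψ b = (dp a b - dp a (-b)) / 2 := by
  obtain ⟨ψ, h1, h2, h3⟩ := exists_dp a b
  obtain ⟨φ, h4, h5, h6⟩ := exists_dp a (-b)
  refine ⟨(2⁻¹ : ℝ) • (ψ + φ), fun u => ?_, ?_, ?_⟩
  · have := h1 u
    have := h4 u
    simp only [smul_apply, add_apply, smul_eq_mul]
    linarith
  · simp only [smul_apply, add_apply, smul_eq_mul]
    rw [h2, h5]
    ring
  · simp only [smul_apply, add_apply, smul_eq_mul]
    rw [map_neg] at h6
    rw [← h3, ← h6]
    ring

theorem dp_neg_neg (a b : Y) : dp (-a) (-b) = dp a b := by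
  unfold dp
  have : ∀ k : ℕ, -a + ((k : ℝ) + 1)⁻¹ • -b = -(a + ((k : ℝ) + 1)⁻¹ • b) := by
    intro k
    module
  simp only [this, norm_neg]

theorem dp_add_self (a b : Y) (s : ℝ) : dp a (b + s • a) = dp a b + s * ‖a‖ := by
  have key : ∀ (b : Y) (s : ℝ), dp a (b + s • a) ≤ dp a b + s * ‖a‖ := by
    intro b s
    obtain ⟨ψ, h1, h2, h3⟩ := exists_dp a (b + s • a)
    rw [← h3, map_add, map_smul, h2, smul_eq_mul]
    have := le_dp (b := b) h1 h2
    linarith
  apply le_antisymm (key b s)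
  have h := key (b + s • a) (-s)
  have e : b + s • a + -s • a = b := by module
  rw [e] at h
  linarith

variable {F : X → Y}

/-- the dagger inequality -/
theorem dagger (hF : HMap F) {x w : X} (hx : Good F x) (hJ : 0 < J x w) (hw : ND w) (v : X) :
    J w v + cc F x w * J x v ≤ ‖fderiv ℝ F x v‖ := by
  have hw0 := ne_zero_of_J_pos hJ
  have he := ex_pos hx.nd hJ
  obtain ⟨ψ, h1, h2, h3⟩ := exists_mid (F x - F (opp x w)) (F x)
  have hn : ‖x‖ = ‖opp x w‖ := (norm_opp hw0).symm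
  have hs : x - opp x w = ex x w • w := by simp [opp]
  rw [hF.norm_sub x (opp x w) hn] at h2
  have hnd : ND (x - opp x w) := by rw [hs]; exact hw.smul he.ne'
  have h4 := hF.pullback hx hn hnd h1 h2 v
  rw [hs, J_smul_pos w he] at h4
  have h5 : cc F x w = (ψ (F x) - J w x) / ‖x‖ := by rw [cc, h3]
  rw [h5, ← h4]
  exact h1 _

/-- antisymmetry of `cc` under the chord involution -/
theorem cc_opp (hF : HMap F) {x w : X} (hx : ND x) (hJ : 0 < J x w) (hw : ND w) :
    cc F (opp x w) (-w) = - cc F x w := by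
  have hw0 := ne_zero_of_J_pos hJ
  have he := ex_pos hx hJ
  have hn : ‖opp x w‖ = ‖x‖ := norm_opp hw0
  have hs : x - opp x w = ex x w • w := by simp [opp]
  have ha : ‖F x - F (opp x w)‖ = ex x w * ‖w‖ := by
    rw [hF.norm_sub x (opp x w) hn.symm, hs, norm_smul, Real.norm_eq_abs, abs_of_pos he]
  unfold cc
  rw [opp_opp hx hJ, hn, J_neg]
  set y := opp x w with hy
  set a := F x - F y with hadef
  have e1 : F y - F x = -a := by rw [hadef]; abel
  have e2 : dp (-a) (F y) = dp a (-F x) + ‖a‖ := by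
    rw [← neg_neg (F y), dp_neg_neg]
    have : -F y = -F x + (1 : ℝ) • a := by rw [hadef]; module
    rw [this, dp_add_self, one_mul]
  have e3 : dp (-a) (-F y) = dp a (F x) - ‖a‖ := by
    rw [dp_neg_neg]
    have : F y = F x + (-1 : ℝ) • a := by rw [hadef]; module
    rw [this, dp_add_self]
    ring
  have e4 : J w y = J w x - ex x w * ‖w‖ := by
    rw [hy, opp, map_sub, map_smul, J_self hw, smul_eq_mul]
  rw [e1, e2, e3, neg_apply, e4, ha]
  ring

theorem abs_cc_le (hF : HMap F) (x w : X) : |cc F x w| ≤ 3 := by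
  obtain ⟨ψ, h1, -, h3⟩ := exists_mid (F x - F (opp x w)) (F x)
  have h5 : cc F x w = (ψ (F x) - J w x) / ‖x‖ := by rw [cc, h3]
  have hψ : |ψ (F x)| ≤ ‖x‖ := by
    rw [abs_le]
    have h6 := h1 (F x)
    have h7 := h1 (-F x)
    rw [norm_neg, map_neg, hF.norm_map] at h7
    rw [hF.norm_map] at h6
    exact ⟨by linarith, h6⟩
  have hJ : |J w x| ≤ ‖x‖ := by
    rw [abs_le]
    have h6 := J_le w x
    have h7 := J_le w (-x)
    rw [norm_neg, map_neg] at h7
    exact ⟨by linarith, h6⟩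
  rw [h5, abs_div, abs_norm]
  by_cases hx : ‖x‖ = 0
  · rw [hx, div_zero]; norm_num
  · have hx' : 0 < ‖x‖ := lt_of_le_of_ne (norm_nonneg x) (Ne.symm hx)
    rw [div_le_iff₀ hx']
    have := abs_sub (ψ (F x)) (J w x)
    linarith

end Vale.Agent.P084.T
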