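import Vale.Agent.P084.T.Key

/-!
# Auxiliary facts for the flux identity: lines, slabs, integrability
-/

namespace Vale.Agent.P084.T

open MeasureTheory Filter Topology Set

section line
variable {X Y : Type*} [NormedAddCommGroup X] [NormedSpace ℝ X]
    [NormedAddCommGroup Y] [NormedSpace ℝ Y] {F : X → Y}

theorem norm_ge_of_J {x : X} (hx : ND x) (w : X) (s : ℝ) :
    ‖x‖ + s * J x w ≤ ‖x + s • w‖ := by
  have h := J_le x (x + s • w)
  rw [map_add, J_self hx, map_smul, smul_eq_mul] at h
  exact h

theorem hasDerivAt_norm_line' {x w : X} {t : ℝ} (h : ND (x + t • w)) :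
    HasDerivAt (fun s : ℝ => ‖x + s • w‖) (J (x + t • w) w) t := by
  have h2 : HasFDerivAt (fun y : X => ‖y‖) (J (x + t • w)) (x + t • w) :=
    DifferentiableAt.hasFDerivAt h
  have h3 : HasDerivAt (fun s : ℝ => x + s • w) w t := by
    have := ((hasDerivAt_id t).smul_const w).const_add x
    simpa using this
  exact h2.comp_hasDerivAt t h3

theorem lipschitz_norm_line (x w : X) : LipschitzWith ‖w‖₊ (fun s : ℝ => ‖x + s • w‖) := by
  refine LipschitzWith.of_dist_le_mul fun s t => ?_
  rw [Real.dist_eq]
  calc |‖x + s • w‖ - ‖x + t • w‖| ≤ ‖(x + s • w) - (x + t • w)‖ := abs_norm_sub_norm_le _ _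
    _ = ‖(s - t) • w‖ := by congr 1; module
    _ = ‖w‖ * dist s t := by rw [norm_smul, Real.dist_eq, Real.norm_eq_abs, mul_comm]
    _ = ↑‖w‖₊ * dist s t := by rw [coe_nnnorm]

theorem volume_image_null {K : NNReal} {h : ℝ → ℝ} (hh : LipschitzWith K h) {B : Set ℝ}
    (hB : volume B = 0) : volume (h '' B) = 0 := by
  have h1 := hh.hausdorffMeasure_image_le (d := 1) zero_le_one B
  rw [hausdorffMeasure_real] at h1
  rw [hB, mul_zero] at h1
  exact le_antisymm h1 bot_le

theorem strictMono_line {x w : X} {t s : ℝ} (h : ND (x + t • w)) (hJ : 0 < J (x + t • w) w)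
    (hts : t < s) : ‖x + t • w‖ < ‖x + s • w‖ := by
  have h1 := norm_ge_of_J h w (s - t)
  have e : x + t • w + (s - t) • w = x + s • w := by module
  rw [e] at h1
  have : 0 < (s - t) * J (x + t • w) w := mul_pos (by linarith) hJ
  linarith

theorem strictAnti_line {x w : X} {t s : ℝ} (h : ND (x + t • w)) (hJ : 0 < J (x + t • w) (-w))
    (hts : s < t) : ‖x + t • w‖ < ‖x + s • w‖ := by
  have h1 := norm_ge_of_J h w (s - t)
  have e : x + t • w + (s - t) • w = x + s • w := by module
  rw [e] at h1
  rw [map_neg] at hJ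
  have : 0 < (t - s) * (-J (x + t • w) w) := mul_pos (by linarith) hJ
  linarith

end line

section slab
variable {X : Type*} [NormedAddCommGroup X] [NormedSpace ℝ X] [FiniteDimensional ℝ X]
  [MeasurableSpace X] [BorelSpace X]

omit [FiniteDimensional ℝ X] [MeasurableSpace X] [BorelSpace X] in
theorem exists_coord {w : X} (hw : w ≠ 0) : ∃ l : X →L[ℝ] ℝ, l w = 1 := by
  obtain ⟨g, hg⟩ := SeparatingDual.exists_eq_one (R := ℝ) hw
  exact ⟨g, hg⟩

theorem exists_slab (μ : Measure X) [μ.IsAddHaarMeasure] {w : X} (hw : w ≠ 0) :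
    ∃ S : Set X, MeasurableSet S ∧ ∀ A : X → ℝ, Measurable A → Integrable A μ →
      ∫ x, A x ∂μ = ∫ x in S, (∫ t : ℝ, A (x + t • w)) ∂μ := by
  obtain ⟨l, hl⟩ := exists_coord hw
  have : ProperSpace X := FiniteDimensional.proper_real X
  set S : Set X := {x | l x ∈ Ico (0 : ℝ) 1} with hS
  have hSm : MeasurableSet S := l.continuous.measurable measurableSet_Ico
  refine ⟨S, hSm, fun A hA hI => ?_⟩
  -- the two functions on the product
  set G : X × ℝ → ℝ := fun q => A q.1 * S.indicator (fun _ => (1 : ℝ)) (q.1 - q.2 • w) with hG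
  set G' : X × ℝ → ℝ := fun q => A (q.1 + q.2 • w) * S.indicator (fun _ => (1 : ℝ)) q.1 with hG'
  have hind : Measurable (S.indicator (fun _ => (1 : ℝ))) := measurable_const.indicator hSm
  have hGm : Measurable G := by
    apply (hA.comp measurable_fst).mul
    exact hind.comp (measurable_fst.sub (measurable_snd.smul_const w))
  have hG'm : Measurable G' := by
    apply Measurable.mul
    · exact hA.comp (measurable_fst.add (measurable_snd.smul_const w))
    · exact hind.comp measurable_fst
  have hlen : ∀ x : X, (fun t : ℝ => S.indicator (fun _ => (1 : ℝ)) (x - t • w)) =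
      (Ioc (l x - 1) (l x)).indicator (fun _ => (1 : ℝ)) := by
    intro x
    funext t
    have : (x - t • w ∈ S) ↔ t ∈ Ioc (l x - 1) (l x) := by
      simp only [hS, mem_ofPred_eq, map_sub, map_smul, hl, smul_eq_mul, mul_one, mem_Ico, mem_Ioc]
      constructor
      · rintro ⟨h1, h2⟩; constructor <;> linarith
      · rintro ⟨h1, h2⟩; constructor <;> linarith
    by_cases ht : x - t • w ∈ S
    · rw [indicator_of_mem ht, indicator_of_mem (this.1 ht)]
    · rw [indicator_of_notMem ht, indicator_of_notMem (fun h => ht (this.2 h))]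
  have hint1 : ∀ x : X, ∫ t : ℝ, S.indicator (fun _ => (1 : ℝ)) (x - t • w) = 1 := by
    intro x
    rw [hlen x, integral_indicator measurableSet_Ioc]
    simp
  have hint2 : ∀ x : X, Integrable (fun t : ℝ => S.indicator (fun _ => (1 : ℝ)) (x - t • w)) := by
    intro x
    rw [hlen x]
    exact (integrable_indicator_iff measurableSet_Ioc).2 (by simp)
  have hnn : ∀ y : X, ‖S.indicator (fun _ => (1 : ℝ)) y‖ = S.indicator (fun _ => (1 : ℝ)) y := by
    intro y
    rw [Real.norm_eq_abs, abs_of_nonneg (indicator_nonneg (fun _ _ => zero_le_one) y)]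
  have hGint : Integrable G (μ.prod volume) := by
    rw [integrable_prod_iff hGm.aestronglyMeasurable]
    refine ⟨Eventually.of_forall fun x => (hint2 x).const_mul (A x), ?_⟩
    have : (fun x : X => ∫ t : ℝ, ‖G (x, t)‖) = fun x => ‖A x‖ := by
      funext x
      simp only [hG, norm_mul, hnn]
      rw [integral_const_mul, hint1, mul_one]
    rw [this]
    exact hI.norm
  have hsec : ∀ t : ℝ, (∫ x, G (x, t) ∂μ) = ∫ x, G' (x, t) ∂μ := by
    intro t
    rw [← integral_add_right_eq_self (fun x => G (x, t)) (t • w)]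
    simp only [hG, hG', add_sub_cancel_right]
  have hsecn : ∀ t : ℝ, (∫ x, ‖G (x, t)‖ ∂μ) = ∫ x, ‖G' (x, t)‖ ∂μ := by
    intro t
    rw [← integral_add_right_eq_self (fun x => ‖G (x, t)‖) (t • w)]
    simp only [hG, hG', add_sub_cancel_right]
  have hG'int : Integrable G' (μ.prod volume) := by
    rw [integrable_prod_iff' hG'm.aestronglyMeasurable]
    constructor
    · refine Eventually.of_forall fun t => ?_
      have h1 : Integrable (fun x => A (x + t • w)) μ := hI.comp_add_right (t • w)
      refine Integrable.mono' h1.norm ?_ (Eventually.of_forall fun x => ?_)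
      · exact (hG'm.comp (measurable_id.prodMk measurable_const)).aestronglyMeasurable
      · simp only [hG', norm_mul, hnn]
        have : S.indicator (fun _ => (1 : ℝ)) x ≤ 1 := indicator_le_self' (fun _ _ => zero_le_one) x
        calc ‖A (x + t • w)‖ * S.indicator (fun _ => (1 : ℝ)) x ≤ ‖A (x + t • w)‖ * 1 :=
              mul_le_mul_of_nonneg_left this (norm_nonneg _)
          _ = ‖A (x + t • w)‖ := mul_one _
    · have h2 := ((integrable_prod_iff' hGm.aestronglyMeasurable).1 hGint).2
      exact h2.congr (Eventually.of_forall fun t => hsecn t)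
  calc ∫ x, A x ∂μ = ∫ x, (∫ t : ℝ, G (x, t)) ∂μ := by
        refine integral_congr_ae (Eventually.of_forall fun x => ?_)
        simp only [hG]
        rw [integral_const_mul, hint1, mul_one]
    _ = ∫ t : ℝ, (∫ x, G (x, t) ∂μ) := integral_integral_swap hGint
    _ = ∫ t : ℝ, (∫ x, G' (x, t) ∂μ) := by simp only [hsec]
    _ = ∫ x, (∫ t : ℝ, G' (x, t)) ∂μ := (integral_integral_swap hG'int).symm
    _ = ∫ x in S, (∫ t : ℝ, A (x + t • w)) ∂μ := by
        rw [← integral_indicator hSm]
        refine integral_congr_ae (Eventually.of_forall fun x => ?_)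
        simp only [hG']
        rw [integral_mul_const]
        by_cases hx : x ∈ S
        · rw [indicator_of_mem hx, indicator_of_mem hx, mul_one]
        · rw [indicator_of_notMem hx, indicator_of_notMem hx, mul_zero]

end slab

end Vale.Agent.P084.T
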