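import Vale.Agent.P084.T.Chord
import Vale.Agent.P084.T.FluxAux

/-!
# Module G2: measurability and the flux identity
-/

namespace Vale.Agent.P084.T

open MeasureTheory Filter Topology Set

section line
variable {X Y : Type*} [NormedAddCommGroup X] [NormedSpace ℝ X]
    [NormedAddCommGroup Y] [NormedSpace ℝ Y] {F : X → Y}

/-- on one line: the entry point with the same norm as an exit point is the chord's other end -/
theorem opp_eq_of_line {x w : X} (hw : w ≠ 0) {t s : ℝ}
    (ht : ND (x + t • w)) (hJt : 0 < J (x + t • w) w)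
    (hs : ND (x + s • w)) (hJs : 0 < J (x + s • w) (-w))
    (hn : ‖x + s • w‖ = ‖x + t • w‖) : opp (x + t • w) w = x + s • w := by
  have e : ∀ r : ℝ, x + t • w - r • w = x + (t - r) • w := fun r => by module
  set r := ex (x + t • w) w with hr
  have hpos : 0 < r := ex_pos ht hJt
  have hno : ‖opp (x + t • w) w‖ = ‖x + t • w‖ := norm_opp hw
  have hopp : opp (x + t • w) w = x + (t - r) • w := by rw [opp, ← hr, e]
  rw [hopp] at hno ⊢
  -- s = t - r
  have h1 : s ≤ t - r := by
    by_contra hlt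
    have := strictAnti_line hs hJs (not_le.1 hlt)
    linarith
  have h2 : s ≤ t := by linarith
  have h3 : t - r ≤ s := by
    have hbdd : BddAbove {q : ℝ | 0 ≤ q ∧ ‖x + t • w - q • w‖ ≤ ‖x + t • w‖} := by
      refine ⟨2 * ‖x + t • w‖ / ‖w‖, ?_⟩
      rintro q ⟨hq0, hq⟩
      have hwp : 0 < ‖w‖ := norm_pos_iff.2 hw
      rw [le_div_iff₀ hwp]
      have h4 : ‖q • w‖ = q * ‖w‖ := by rw [norm_smul, Real.norm_eq_abs, abs_of_nonneg hq0]
      have h5 : q • w = (x + t • w) - (x + t • w - q • w) := by abel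
      have h6 := norm_sub_le (x + t • w) (x + t • w - q • w)
      rw [← h5, h4] at h6
      linarith
    have : t - s ≤ r := by
      rw [hr, ex]
      refine le_csSup hbdd ⟨by linarith, ?_⟩
      rw [e, sub_sub_cancel]
      exact hn.le
    linarith
  rw [le_antisymm h1 h3]

/-- the flux identity on one line -/
theorem line_flux (hF : HMap F) (x : X) {w : X} (hw : w ≠ 0) (hwd : ND w)
    (hm : MeasurableSet {t : ℝ | Good F (x + t • w)})
    (hmJ : Measurable fun t : ℝ => J (x + t • w) w)
    (hae : ∀ᵐ t : ℝ, Good F (x + t • w)) :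
    ∫ t in {t : ℝ | 0 < J (x + t • w) w},
      cc F (x + t • w) w * J (x + t • w) w * Real.exp (-‖x + t • w‖) =
    - ∫ t in {t : ℝ | 0 < J (x + t • w) (-w)},
      cc F (x + t • w) (-w) * J (x + t • w) (-w) * Real.exp (-‖x + t • w‖) := by
  set h : ℝ → ℝ := fun t => ‖x + t • w‖ with hh
  set Gd : Set ℝ := {t : ℝ | Good F (x + t • w)} with hGd
  set P : Set ℝ := Gd ∩ {t : ℝ | 0 < J (x + t • w) w} with hP
  set Q : Set ℝ := Gd ∩ {t : ℝ | 0 < J (x + t • w) (-w)} with hQ
  have hmJ' : Measurable fun t : ℝ => J (x + t • w) (-w) := by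
    simp only [map_neg]
    exact hmJ.neg
  have hPm : MeasurableSet P := hm.inter (measurableSet_lt measurable_const hmJ)
  have hQm : MeasurableSet Q := hm.inter (measurableSet_lt measurable_const hmJ')
  have hnull : volume Gdᶜ = 0 := hae
  have haeGd : Gd =ᵐ[volume] (univ : Set ℝ) := by
    rw [eventuallyEq_univ]
    exact hae
  have hPae : ({t : ℝ | 0 < J (x + t • w) w} : Set ℝ) =ᵐ[volume] P := by
    have := haeGd.symm.inter (ae_eq_refl ({t : ℝ | 0 < J (x + t • w) w} : Set ℝ))
    rwa [univ_inter] at this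
  have hQae : ({t : ℝ | 0 < J (x + t • w) (-w)} : Set ℝ) =ᵐ[volume] Q := by
    have := haeGd.symm.inter (ae_eq_refl ({t : ℝ | 0 < J (x + t • w) (-w)} : Set ℝ))
    rwa [univ_inter] at this
  rw [setIntegral_congr_set hPae, setIntegral_congr_set hQae]
  have hcont : Continuous h := (lipschitz_norm_line x w).continuous
  have hPinj : InjOn h P := by
    intro t ht s hs hts
    rcases lt_trichotomy t s with hlt | heq | hgt
    · exact absurd hts (strictMono_line ht.1.nd ht.2 hlt).ne
    · exact heq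
    · exact absurd hts (strictMono_line hs.1.nd hs.2 hgt).ne'
  have hQinj : InjOn h Q := by
    intro t ht s hs hts
    rcases lt_trichotomy t s with hlt | heq | hgt
    · exact absurd hts (strictAnti_line hs.1.nd hs.2 hlt).ne'
    · exact heq
    · exact absurd hts (strictAnti_line ht.1.nd ht.2 hgt).ne
  have hPd : ∀ t ∈ P, HasDerivWithinAt h (J (x + t • w) w) P t := fun t ht =>
    (hasDerivAt_norm_line' ht.1.nd).hasDerivWithinAt
  have hQd : ∀ t ∈ Q, HasDerivWithinAt h (J (x + t • w) w) Q t := fun t ht =>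
    (hasDerivAt_norm_line' ht.1.nd).hasDerivWithinAt
  set τ := Function.invFunOn h P with hτ
  set σ := Function.invFunOn h Q with hσ
  set g₁ : ℝ → ℝ := fun r => cc F (x + τ r • w) w * Real.exp (-r) with hg₁
  set g₂ : ℝ → ℝ := fun r => cc F (x + σ r • w) (-w) * Real.exp (-r) with hg₂
  have hτP : ∀ t ∈ P, τ (h t) = t := fun t ht => hPinj.leftInvOn_invFunOn ht
  have hσQ : ∀ t ∈ Q, σ (h t) = t := fun t ht => hQinj.leftInvOn_invFunOn ht
  have i1 : ∫ t in P, cc F (x + t • w) w * J (x + t • w) w * Real.exp (-‖x + t • w‖) =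
      ∫ r in h '' P, g₁ r := by
    rw [integral_image_eq_integral_abs_deriv_smul hPm hPd hPinj g₁]
    refine setIntegral_congr_fun hPm fun t ht => ?_
    have h1 : 0 < J (x + t • w) w := ht.2
    simp only [hg₁, hτP t ht, smul_eq_mul, abs_of_pos h1]
    simp only [hh]
    ring
  have i2 : ∫ t in Q, cc F (x + t • w) (-w) * J (x + t • w) (-w) * Real.exp (-‖x + t • w‖) =
      ∫ r in h '' Q, g₂ r := by
    rw [integral_image_eq_integral_abs_deriv_smul hQm hQd hQinj g₂]
    refine setIntegral_congr_fun hQm fun t ht => ?_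
    have h1 : 0 < J (x + t • w) (-w) := ht.2
    have h2 : J (x + t • w) w < 0 := by rw [map_neg] at h1; linarith
    simp only [hg₂, hσQ t ht, smul_eq_mul, abs_of_neg h2, map_neg]
    simp only [hh]
    ring
  rw [i1, i2]
  -- the key relation between the two branches
  have hkey : ∀ t ∈ P, ∀ s ∈ Q, h s = h t → cc F (x + s • w) (-w) = - cc F (x + t • w) w := by
    intro t ht s hs hst
    have hopp := opp_eq_of_line hw ht.1.nd ht.2 hs.1.nd hs.2 hst
    have h3 : cc F (opp (x + t • w) w) (-w) = - cc F (x + t • w) w := by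
      first
      | exact cc_opp hF ht.1.nd ht.2 hwd
      | exact cc_opp hF ht.1 ht.2 hwd (by rw [hopp]; exact hs.1)
    rw [hopp] at h3
    exact h3
  have hPQ : h '' P \ h '' Q ⊆ h '' Gdᶜ := by
    rintro r ⟨⟨t, ht, rfl⟩, hr⟩
    have hno : ‖opp (x + t • w) w‖ = ‖x + t • w‖ := norm_opp hw
    set e := ex (x + t • w) w with he
    have hopp : opp (x + t • w) w = x + (t - e) • w := by
      rw [opp, ← he]; module
    refine ⟨t - e, ?_, ?_⟩
    · intro hgd
      apply hr
      refine ⟨t - e, ⟨hgd, ?_⟩, ?_⟩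
      · have h4 : ND (opp (x + t • w) w) := by rw [hopp]; exact Good.nd hgd
        have h5 := J_opp_neg ht.1.nd ht.2 h4
        rw [hopp] at h5
        exact h5
      · simp only [hh]; rw [← hopp, hno]
    · simp only [hh]; rw [← hopp, hno]
  have hQP : h '' Q \ h '' P ⊆ h '' Gdᶜ := by
    rintro r ⟨⟨t, ht, rfl⟩, hr⟩
    have hno : ‖opp (x + t • w) (-w)‖ = ‖x + t • w‖ := norm_opp (neg_ne_zero.2 hw)
    set e := ex (x + t • w) (-w) with he
    have hopp : opp (x + t • w) (-w) = x + (t + e) • w := by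
      rw [opp, ← he]; module
    refine ⟨t + e, ?_, ?_⟩
    · intro hgd
      apply hr
      refine ⟨t + e, ⟨hgd, ?_⟩, ?_⟩
      · have h4 : ND (opp (x + t • w) (-w)) := by rw [hopp]; exact Good.nd hgd
        have h5 := J_opp_neg ht.1.nd ht.2 h4
        rw [hopp, neg_neg] at h5
        exact h5
      · simp only [hh]; rw [← hopp, hno]
    · simp only [hh]; rw [← hopp, hno]
  have hnull' : volume (h '' Gdᶜ) = 0 := volume_image_null (lipschitz_norm_line x w) hnull
  have hPQae : h '' P =ᵐ[volume] (h '' P ∩ h '' Q : Set ℝ) := by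
    rw [ae_eq_set]
    constructor
    · refine measure_mono_null (fun z hz => hPQ ⟨hz.1, fun h2 => hz.2 ⟨hz.1, h2⟩⟩) hnull'
    · have : (h '' P ∩ h '' Q) \ h '' P = (∅ : Set ℝ) := by
        ext z; exact ⟨fun hz => (hz.2 hz.1.1).elim, fun hz => hz.elim⟩
      rw [this]; exact measure_empty
  have hQPae : h '' Q =ᵐ[volume] (h '' P ∩ h '' Q : Set ℝ) := by
    rw [ae_eq_set]
    constructor
    · refine measure_mono_null (fun z hz => hQP ⟨hz.1, fun h2 => hz.2 ⟨h2, hz.1⟩⟩) hnull'
    · have : (h '' P ∩ h '' Q) \ h '' Q = (∅ : Set ℝ) := by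
        ext z; exact ⟨fun hz => (hz.2 hz.1.2).elim, fun hz => hz.elim⟩
      rw [this]; exact measure_empty
  have hPim : MeasurableSet (h '' P) := hPm.image_of_continuousOn_injOn hcont.continuousOn hPinj
  have hQim : MeasurableSet (h '' Q) := hQm.image_of_continuousOn_injOn hcont.continuousOn hQinj
  rw [setIntegral_congr_set hPQae, setIntegral_congr_set hQPae, ← integral_neg]
  refine setIntegral_congr_fun (hPim.inter hQim) ?_
  rintro r ⟨⟨t, ht, rfl⟩, ⟨s, hs, hst⟩⟩
  have h6 := hkey t ht s hs hst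
  simp only [hg₁, hg₂]
  rw [hτP t ht, ← hst, hσQ s hs, h6, hst]
  ring

end line

section measure
variable {X Y : Type*} [NormedAddCommGroup X] [NormedSpace ℝ X]
    [NormedAddCommGroup Y] [NormedSpace ℝ Y] {F : X → Y}
variable [FiniteDimensional ℝ X] [MeasurableSpace X] [BorelSpace X]
  [FiniteDimensional ℝ Y] [MeasurableSpace Y] [BorelSpace Y]

theorem integrable_exp_neg_normF (μ : Measure X) [μ.IsAddHaarMeasure] [Nontrivial X] :
    Integrable (fun x : X => Real.exp (-‖x‖)) μ := by
  have h := (integrable_fun_norm_addHaar (E := X) μ (f := fun r : ℝ => Real.exp (-r))).2 ?_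
  · exact h
  · have hd : 0 < Module.finrank ℝ X := Module.finrank_pos
    have h1 := Real.GammaIntegral_convergent (s := (Module.finrank ℝ X : ℝ)) (by exact_mod_cast hd)
    refine h1.congr_fun (fun y hy => ?_) measurableSet_Ioi
    have hy' : (0 : ℝ) < y := hy
    have h2 : ((Module.finrank ℝ X : ℝ) - 1) = ((Module.finrank ℝ X - 1 : ℕ) : ℝ) := by
      rw [Nat.cast_sub hd]; simp
    simp only [smul_eq_mul]
    rw [h2, Real.rpow_natCast, mul_comm]

omit [FiniteDimensional ℝ Y] [MeasurableSpace Y] [BorelSpace Y] in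
theorem measurable_J : Measurable (fun q : X × X => J q.1 q.2) := by
  have hp : ProperSpace X := FiniteDimensional.proper_real X
  have h1 : Measurable (fun q : X × X => ((J q.1 : X →L[ℝ] ℝ), q.2)) :=
    ((measurable_fderiv ℝ (fun y : X => ‖y‖)).comp measurable_fst).prodMk measurable_snd
  exact (ContinuousLinearMap.measurable_apply₂ (𝕜 := ℝ) (E := X) (F := ℝ)).comp h1

omit [FiniteDimensional ℝ Y] in
theorem measurable_dp_comp [SecondCountableTopology Y] {Ω : Type*} [MeasurableSpace Ω]
    {f g : Ω → Y} (hf : Measurable f) (hg : Measurable g) :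
    Measurable (fun q => dp (f q) (g q)) := by
  unfold dp
  refine Measurable.iInf fun k => ?_
  have h1 : Measurable (fun q => f q + ((k : ℝ) + 1)⁻¹ • g q) := hf.add (hg.const_smul _)
  exact (h1.norm.sub hf.norm).const_mul _

omit [FiniteDimensional ℝ X] [MeasurableSpace X] [BorelSpace X] in
theorem bddAbove_chord (x : X) {w : X} (hw : w ≠ 0) :
    BddAbove {q : ℝ | 0 ≤ q ∧ ‖x - q • w‖ ≤ ‖x‖} := by
  refine ⟨2 * ‖x‖ / ‖w‖, ?_⟩
  rintro q ⟨hq0, hq⟩
  have hwp : 0 < ‖w‖ := norm_pos_iff.2 hw
  rw [le_div_iff₀ hwp]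
  have h4 : ‖q • w‖ = q * ‖w‖ := by rw [norm_smul, Real.norm_eq_abs, abs_of_nonneg hq0]
  have h5 : q • w = x - (x - q • w) := by abel
  have h6 := norm_sub_le x (x - q • w)
  rw [← h5, h4] at h6
  linarith

omit [FiniteDimensional ℝ X] [MeasurableSpace X] [BorelSpace X] in
theorem le_ex_iff (x : X) {w : X} (hw : w ≠ 0) {t : ℝ} (ht : 0 < t) :
    t ≤ ex x w ↔ ‖x - t • w‖ ≤ ‖x‖ := by
  have hb := bddAbove_chord x hw
  constructor
  · intro h
    have hc : IsClosed {q : ℝ | 0 ≤ q ∧ ‖x - q • w‖ ≤ ‖x‖} := by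
      apply IsClosed.inter (isClosed_le continuous_const continuous_id)
      have hcn : Continuous (fun q : ℝ => ‖x - q • w‖) := by fun_prop
      exact isClosed_le hcn continuous_const
    have hne : {q : ℝ | 0 ≤ q ∧ ‖x - q • w‖ ≤ ‖x‖}.Nonempty := ⟨0, le_rfl, by simp⟩
    have hmem := hc.csSup_mem hne hb
    change 0 ≤ ex x w ∧ ‖x - ex x w • w‖ ≤ ‖x‖ at hmem
    set e := ex x w with he
    have hepos : 0 < e := lt_of_lt_of_le ht h
    have e1 : x - t • w = (1 - t / e) • x + (t / e) • (x - e • w) := by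
      rw [smul_sub, smul_smul, div_mul_cancel₀ _ hepos.ne']
      module
    have h1 : 0 ≤ t / e := by positivity
    have h2 : t / e ≤ 1 := (div_le_one hepos).2 h
    calc ‖x - t • w‖ ≤ ‖(1 - t / e) • x‖ + ‖(t / e) • (x - e • w)‖ := by
          rw [e1]; exact norm_add_le _ _
      _ = (1 - t / e) * ‖x‖ + (t / e) * ‖x - e • w‖ := by
          rw [norm_smul, norm_smul, Real.norm_eq_abs, Real.norm_eq_abs, abs_of_nonneg h1,
            abs_of_nonneg (by linarith)]
      _ ≤ (1 - t / e) * ‖x‖ + (t / e) * ‖x‖ := by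
          have := mul_le_mul_of_nonneg_left hmem.2 h1
          linarith
      _ = ‖x‖ := by ring
  · intro h
    exact le_csSup hb ⟨ht.le, h⟩

omit [FiniteDimensional ℝ X] [MeasurableSpace X] [BorelSpace X] in
theorem ex_zero (x : X) : ex x 0 = 0 := by
  have h1 : {q : ℝ | 0 ≤ q ∧ ‖x - q • (0 : X)‖ ≤ ‖x‖} = Ici 0 := by
    ext q; simp
  rw [ex, h1]
  exact Real.sSup_of_not_bddAbove (not_bddAbove_Ici _)

theorem measurable_ex : Measurable (fun q : X × X => ex q.1 q.2) := by
  have hp : ProperSpace X := FiniteDimensional.proper_real X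
  refine measurable_of_Ici fun t => ?_
  rcases le_or_gt t 0 with ht | ht
  · have : (fun q : X × X => ex q.1 q.2) ⁻¹' Ici t = univ := by
      ext q; simp [ht.trans (ex_nonneg q.1 q.2)]
    rw [this]
    exact MeasurableSet.univ
  · have : (fun q : X × X => ex q.1 q.2) ⁻¹' Ici t =
        {q : X × X | q.2 ≠ 0} ∩ {q : X × X | ‖q.1 - t • q.2‖ ≤ ‖q.1‖} := by
      ext q
      constructor
      · intro hq
        have hq' : t ≤ ex q.1 q.2 := hq
        have h2 : q.2 ≠ 0 := by
          intro h0
          rw [h0, ex_zero] at hq'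
          linarith
        exact ⟨h2, (le_ex_iff q.1 h2 ht).1 hq'⟩
      · rintro ⟨h2, h3⟩
        exact (le_ex_iff q.1 h2 ht).2 h3
    rw [this]
    refine MeasurableSet.inter ?_ ?_
    · exact measurable_snd (measurableSet_singleton (0 : X)).compl
    · exact measurableSet_le (by fun_prop) (by fun_prop)

theorem measurable_opp : Measurable (fun q : X × X => opp q.1 q.2) := by
  have hp : ProperSpace X := FiniteDimensional.proper_real X
  have h0 : Measurable (fun q : X × X => ex q.1 q.2 • q.2) := measurable_ex.smul measurable_snd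
  exact measurable_fst.sub h0

theorem measurable_Fopp (hF : HMap F) :
    Measurable (fun q : X × X => F q.1 - F (opp q.1 q.2)) := by
  have hpY : ProperSpace Y := FiniteDimensional.proper_real Y
  have hFm : Measurable F := hF.continuous.measurable
  have h1 : Measurable (fun q : X × X => F (opp q.1 q.2)) := hFm.comp measurable_opp
  have h2 : Measurable (fun q : X × X => F q.1) := hFm.comp measurable_fst
  exact h2.sub h1

theorem measurable_cc (hF : HMap F) : Measurable (fun q : X × X => cc F q.1 q.2) := by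
  have hp : ProperSpace X := FiniteDimensional.proper_real X
  have hpY : ProperSpace Y := FiniteDimensional.proper_real Y
  have hFm : Measurable F := hF.continuous.measurable
  have hF1 : Measurable (fun q : X × X => F q.1) := hFm.comp measurable_fst
  have hF2 : Measurable (fun q : X × X => - F q.1) := hF1.neg
  have h2 := measurable_Fopp (X := X) hF
  have h3 : Measurable (fun q : X × X => dp (F q.1 - F (opp q.1 q.2)) (F q.1)) :=
    measurable_dp_comp h2 hF1
  have h4 : Measurable (fun q : X × X => dp (F q.1 - F (opp q.1 q.2)) (-F q.1)) :=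
    measurable_dp_comp h2 hF2
  have h5 : Measurable (fun q : X × X => J q.2 q.1) :=
    Measurable.comp (g := fun q : X × X => J q.1 q.2) measurable_J measurable_swap
  have h6 : Measurable (fun q : X × X => ‖q.1‖) := measurable_fst.norm
  have h7 : Measurable (fun q : X × X => dp (F q.1 - F (opp q.1 q.2)) (F q.1) -
      dp (F q.1 - F (opp q.1 q.2)) (-F q.1)) := h3.sub h4
  have h8 : Measurable (fun q : X × X => (dp (F q.1 - F (opp q.1 q.2)) (F q.1) -
      dp (F q.1 - F (opp q.1 q.2)) (-F q.1)) / 2) := h7.div_const 2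
  have h9 : Measurable (fun q : X × X => ((dp (F q.1 - F (opp q.1 q.2)) (F q.1) -
      dp (F q.1 - F (opp q.1 q.2)) (-F q.1)) / 2 - J q.2 q.1) / ‖q.1‖) := (h8.sub h5).div h6
  exact h9

omit [MeasurableSpace Y] [BorelSpace Y] in
theorem measurableSet_good : MeasurableSet {x : X | Good F x} := by
  have hcY : CompleteSpace Y := FiniteDimensional.complete ℝ Y
  have h1 : {x : X | Good F x} = {x : X | x ≠ 0} ∩ {x : X | ND x} ∩
      {x : X | DifferentiableAt ℝ F x} := by
    ext x
    exact ⟨fun h => ⟨⟨h.ne, h.nd⟩, h.df⟩, fun h => ⟨h.1.1, h.1.2, h.2⟩⟩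
  rw [h1]
  refine MeasurableSet.inter (MeasurableSet.inter ?_ ?_) ?_
  · exact (measurableSet_singleton (0 : X)).compl
  · exact measurableSet_of_differentiableAt ℝ (fun y : X => ‖y‖)
  · exact measurableSet_of_differentiableAt ℝ F

omit [MeasurableSpace Y] [BorelSpace Y] in
theorem ae_good (hF : HMap F) (μ : Measure X) [μ.IsAddHaarMeasure] [Nontrivial X] :
    ∀ᵐ x ∂μ, Good F x := by
  have h1 : ∀ᵐ x ∂μ, ND x := ae_differentiableAt_norm
  have h2 : ∀ᵐ x ∂μ, DifferentiableAt ℝ F x := hF.lipschitz.ae_differentiableAt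
  have h3 : ∀ᵐ x ∂μ, x ≠ (0 : X) := compl_mem_ae_iff.2 (measure_singleton (0 : X))
  filter_upwards [h1, h2, h3] with x h1 h2 h3
  exact ⟨h3, h1, h2⟩

omit [MeasurableSpace Y] [BorelSpace Y] in
/-- almost every line consists of good points almost everywhere -/
theorem ae_ae_good (hF : HMap F) (μ : Measure X) [μ.IsAddHaarMeasure] [Nontrivial X] (w : X) :
    ∀ᵐ x ∂μ, ∀ᵐ t : ℝ, Good F (x + t • w) := by
  have hp : ProperSpace X := FiniteDimensional.proper_real X
  have hm : MeasurableSet {q : X × ℝ | Good F (q.1 + q.2 • w)} :=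
    (measurable_fst.add (measurable_snd.smul_const w)) (measurableSet_good (F := F))
  have h1 : ∀ᵐ q ∂(μ.prod (volume : Measure ℝ)), Good F (q.1 + q.2 • w) := by
    have h2 : (μ.prod (volume : Measure ℝ)) {q : X × ℝ | Good F (q.1 + q.2 • w)}ᶜ = 0 := by
      rw [Measure.prod_apply_symm hm.compl]
      have : ∀ t : ℝ, μ ((fun x => (x, t)) ⁻¹' {q : X × ℝ | Good F (q.1 + q.2 • w)}ᶜ) = 0 := by
        intro t
        have h3 := (measurePreserving_add_right μ (t • w)).quasiMeasurePreserving.ae (ae_good hF μ)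
        exact h3
      simp only [this, lintegral_zero]
    exact h2
  exact Measure.ae_ae_of_ae_prod h1

theorem integrable_norm_mul_exp (μ : Measure X) [μ.IsAddHaarMeasure] [Nontrivial X] :
    Integrable (fun x : X => ‖x‖ * Real.exp (-‖x‖)) μ := by
  have h := (integrable_fun_norm_addHaar (E := X) μ (f := fun r : ℝ => r * Real.exp (-r))).2 ?_
  · exact h
  · have hd : 0 < Module.finrank ℝ X := Module.finrank_pos
    have h1 := Real.GammaIntegral_convergent (s := (Module.finrank ℝ X : ℝ) + 1) (by positivity)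
    refine h1.congr_fun (fun y hy => ?_) measurableSet_Ioi
    have hy' : (0 : ℝ) < y := hy
    obtain ⟨n, hn⟩ : ∃ n, Module.finrank ℝ X = n + 1 := ⟨Module.finrank ℝ X - 1, by omega⟩
    simp only [smul_eq_mul]
    rw [add_sub_cancel_right, Real.rpow_natCast, hn, Nat.add_sub_cancel, pow_succ]
    ring

omit [FiniteDimensional ℝ X] [MeasurableSpace X] [BorelSpace X] in
theorem abs_J_le (x u : X) : |J x u| ≤ ‖u‖ := by
  have h1 := J_le x u
  have h2 := J_le x (-u)
  rw [map_neg, norm_neg] at h2
  exact abs_le.2 ⟨by linarith, h1⟩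

/-- the integrand of the flux identity -/
noncomputable def fluxFun (F : X → Y) (u x : X) : ℝ :=
  {x | 0 < J x u}.indicator (fun x => cc F x u * J x u * Real.exp (-‖x‖)) x

theorem measurable_J_left (u : X) : Measurable (fun x : X => J x u) :=
  measurable_J.comp (measurable_id.prodMk measurable_const)

theorem measurableSet_pos (u : X) : MeasurableSet {x : X | 0 < J x u} :=
  measurableSet_lt measurable_const (measurable_J_left u)

theorem measurable_fluxFun (hF : HMap F) (u : X) : Measurable (fluxFun F u) := by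
  have h0 : Measurable (fun x : X => ((x, u) : X × X)) := measurable_id.prodMk measurable_const
  have h1 : Measurable ((fun q : X × X => cc F q.1 q.2) ∘ fun x : X => ((x, u) : X × X)) :=
    (measurable_cc hF).comp h0
  have h2 := measurable_J_left u
  have h3 : Measurable (fun x : X => Real.exp (-‖x‖)) :=
    Real.measurable_exp.comp measurable_norm.neg
  exact ((h1.mul h2).mul h3).indicator (measurableSet_pos u)

omit [FiniteDimensional ℝ Y] [MeasurableSpace Y] [BorelSpace Y] [FiniteDimensional ℝ X]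
  [MeasurableSpace X] [BorelSpace X] in
theorem abs_fluxFun_le (hF : HMap F) (u x : X) :
    |fluxFun F u x| ≤ 3 * ‖u‖ * Real.exp (-‖x‖) := by
  unfold fluxFun
  by_cases hx : x ∈ {x : X | 0 < J x u}
  · rw [indicator_of_mem hx, abs_mul, abs_mul, abs_of_pos (Real.exp_pos _)]
    have h1 := abs_cc_le hF x u
    have h2 := abs_J_le x u
    have h3 := mul_le_mul h1 h2 (abs_nonneg _) (by norm_num)
    exact mul_le_mul_of_nonneg_right h3 (Real.exp_pos _).le
  · rw [indicator_of_notMem hx, abs_zero]
    positivity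

theorem integrable_fluxFun (hF : HMap F) (μ : Measure X) [μ.IsAddHaarMeasure] [Nontrivial X]
    (u : X) : Integrable (fluxFun F u) μ := by
  refine Integrable.mono' ((integrable_exp_neg_normF μ).const_mul (3 * ‖u‖))
    (measurable_fluxFun hF u).aestronglyMeasurable (Eventually.of_forall fun x => ?_)
  rw [Real.norm_eq_abs]
  exact abs_fluxFun_le hF u x

omit [FiniteDimensional ℝ Y] [MeasurableSpace Y] [BorelSpace Y] in
theorem setIntegral_fluxFun (μ : Measure X) (u : X) :
    ∫ x in {x | 0 < J x u}, cc F x u * J x u * Real.exp (-‖x‖) ∂μ = ∫ x, fluxFun F u x ∂μ :=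
  (integral_indicator (measurableSet_pos u)).symm

/-- flux identity for a fixed direction -/
theorem flux (hF : HMap F) (μ : Measure X) [μ.IsAddHaarMeasure] [Nontrivial X] {w : X}
    (hw : w ≠ 0) (hwd : ND w) :
    ∫ x in {x | 0 < J x w}, cc F x w * J x w * Real.exp (-‖x‖) ∂μ +
    ∫ x in {x | 0 < J x (-w)}, cc F x (-w) * J x (-w) * Real.exp (-‖x‖) ∂μ = 0 := by
  rw [setIntegral_fluxFun, setIntegral_fluxFun]
  obtain ⟨S, hS, hslab⟩ := exists_slab μ hw
  rw [hslab _ (measurable_fluxFun hF w) (integrable_fluxFun hF μ w),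
    hslab _ (measurable_fluxFun hF (-w)) (integrable_fluxFun hF μ (-w))]
  have key : ∀ᵐ x ∂μ, (∫ t : ℝ, fluxFun F w (x + t • w)) =
      - ∫ t : ℝ, fluxFun F (-w) (x + t • w) := by
    filter_upwards [ae_ae_good hF μ w] with x hx
    have hline : Measurable (fun t : ℝ => x + t • w) := by fun_prop
    have hm : MeasurableSet {t : ℝ | Good F (x + t • w)} := hline (measurableSet_good (F := F))
    have hmJ : Measurable fun t : ℝ => J (x + t • w) w := (measurable_J_left w).comp hline
    have h1 := line_flux hF x hw hwd hm hmJ hx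
    have e : ∀ u : X, (∫ t : ℝ, fluxFun F u (x + t • w)) =
        ∫ t in {t : ℝ | 0 < J (x + t • w) u},
          cc F (x + t • w) u * J (x + t • w) u * Real.exp (-‖x + t • w‖) := by
      intro u
      have hms : MeasurableSet {t : ℝ | 0 < J (x + t • w) u} := hline (measurableSet_pos u)
      rw [← integral_indicator hms]
      rfl
    rw [e, e]
    exact h1
  rw [integral_congr_ae (ae_restrict_of_ae key), integral_neg, neg_add_cancel]

/-- the double integral vanishes -/
theorem flux_total (hF : HMap F) (μ : Measure X) [μ.IsAddHaarMeasure] [Nontrivial X] :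
    ∫ x, (∫ w in {w | 0 < J x w}, cc F x w * J x w * Real.exp (-‖w‖) ∂μ) *
      Real.exp (-‖x‖) ∂μ = 0 := by
  set K : X × X → ℝ := fun q => fluxFun F q.2 q.1 * Real.exp (-‖q.2‖) with hK
  have hpos : MeasurableSet {q : X × X | 0 < J q.1 q.2} :=
    measurableSet_lt measurable_const measurable_J
  have hKm : Measurable K := by
    have h1 : Measurable (fun q : X × X => fluxFun F q.2 q.1) := by
      have h2 : (fun q : X × X => fluxFun F q.2 q.1) = {q : X × X | 0 < J q.1 q.2}.indicator
          (fun q => cc F q.1 q.2 * J q.1 q.2 * Real.exp (-‖q.1‖)) := rfl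
      rw [h2]
      refine Measurable.indicator ?_ hpos
      exact ((measurable_cc hF).mul measurable_J).mul
        (Real.measurable_exp.comp measurable_fst.norm.neg)
    exact h1.mul (Real.measurable_exp.comp measurable_snd.norm.neg)
  have hKi : Integrable K (μ.prod μ) := by
    have h1 : Integrable (fun q : X × X => (3 * Real.exp (-‖q.1‖)) *
        (‖q.2‖ * Real.exp (-‖q.2‖))) (μ.prod μ) :=
      ((integrable_exp_neg_normF μ).const_mul 3).mul_prod (integrable_norm_mul_exp μ)
    refine Integrable.mono' h1 hKm.aestronglyMeasurable (Eventually.of_forall fun q => ?_)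
    rw [Real.norm_eq_abs, hK]
    simp only
    rw [abs_mul, abs_of_pos (Real.exp_pos (-‖q.2‖))]
    have h2 := mul_le_mul_of_nonneg_right (abs_fluxFun_le hF q.2 q.1) (Real.exp_pos (-‖q.2‖)).le
    calc |fluxFun F q.2 q.1| * Real.exp (-‖q.2‖)
        ≤ 3 * ‖q.2‖ * Real.exp (-‖q.1‖) * Real.exp (-‖q.2‖) := h2
      _ = 3 * Real.exp (-‖q.1‖) * (‖q.2‖ * Real.exp (-‖q.2‖)) := by ring
  have e1 : ∀ x : X, (∫ w in {w | 0 < J x w}, cc F x w * J x w * Real.exp (-‖w‖) ∂μ) *
      Real.exp (-‖x‖) = ∫ w, K (x, w) ∂μ := by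
    intro x
    have hms : MeasurableSet {w : X | 0 < J x w} :=
      measurableSet_lt measurable_const (J x).measurable
    rw [← integral_mul_const, ← integral_indicator hms]
    refine integral_congr_ae (Eventually.of_forall fun w => ?_)
    simp only [hK, fluxFun]
    by_cases hw : 0 < J x w
    · rw [indicator_of_mem (s := {w : X | 0 < J x w}) (by exact hw),
        indicator_of_mem (s := {x : X | 0 < J x w}) (by exact hw)]
      ring
    · rw [indicator_of_notMem (s := {w : X | 0 < J x w}) (by exact hw),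
        indicator_of_notMem (s := {x : X | 0 < J x w}) (by exact hw), zero_mul]
  have e2 : ∀ w : X, (∫ x, K (x, w) ∂μ) = (∫ x, fluxFun F w x ∂μ) * Real.exp (-‖w‖) := by
    intro w
    simp only [hK]
    rw [integral_mul_const]
  set Φ : X → ℝ := fun w => (∫ x, fluxFun F w x ∂μ) * Real.exp (-‖w‖) with hΦ
  have e3 : ∫ x, (∫ w in {w | 0 < J x w}, cc F x w * J x w * Real.exp (-‖w‖) ∂μ) *
      Real.exp (-‖x‖) ∂μ = ∫ w, Φ w ∂μ := by
    calc _ = ∫ x, (∫ w, K (x, w) ∂μ) ∂μ := by simp only [e1]
      _ = ∫ w, (∫ x, K (x, w) ∂μ) ∂μ := integral_integral_swap hKi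
      _ = ∫ w, Φ w ∂μ := by simp only [e2, hΦ]
  rw [e3]
  have hodd : ∀ᵐ w ∂μ, Φ (-w) = - Φ w := by
    filter_upwards [ae_good hF μ] with w hw
    have h1 := flux hF μ hw.ne hw.nd
    rw [setIntegral_fluxFun, setIntegral_fluxFun] at h1
    simp only [hΦ, norm_neg]
    have h2 : ∫ x, fluxFun F (-w) x ∂μ = - ∫ x, fluxFun F w x ∂μ := by linarith
    rw [h2]
    ring
  have h1 : ∫ w, Φ (-w) ∂μ = ∫ w, Φ w ∂μ := integral_neg_eq_self Φ μ
  rw [integral_congr_ae hodd, integral_neg] at h1
  linarith

end measure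

end Vale.Agent.P084.T
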