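import Mathlib

/-!
# Module K: Lipschitz maps with contractive derivative almost everywhere are contractions
-/

namespace Vale.Agent.P084.T

open MeasureTheory Filter Topology Set

theorem abs_sub_le_of_ae_deriv {g : ℝ → ℝ} {K : NNReal} (hg : LipschitzWith K g) {C : ℝ}
    (h : ∀ᵐ t : ℝ, ‖deriv g t‖ ≤ C) : |g 1 - g 0| ≤ C := by
  have h1 : ∫ t in (0 : ℝ)..1, deriv g t = g 1 - g 0 :=
    (hg.lipschitzOnWith (s := uIcc 0 1)).absolutelyContinuousOnInterval.integral_deriv_eq_sub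
  rw [← h1]
  have h2 := intervalIntegral.norm_integral_le_of_norm_le_const_ae (a := 0) (b := 1) (C := C)
    (f := deriv g) (h.mono fun t ht _ => ht)
  simpa using h2

theorem lipschitz_one_of_ae {X Y : Type*} [NormedAddCommGroup X] [NormedSpace ℝ X]
    [FiniteDimensional ℝ X] [MeasurableSpace X] [BorelSpace X]
    [NormedAddCommGroup Y] [NormedSpace ℝ Y] [FiniteDimensional ℝ Y]
    (μ : Measure X) [μ.IsAddHaarMeasure] {F : X → Y} {K : NNReal} (hF : LipschitzWith K F)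
    (h : ∀ᵐ x ∂μ, ∀ v, ‖fderiv ℝ F x v‖ ≤ ‖v‖) (x y : X) : ‖F x - F y‖ ≤ ‖x - y‖ := by
  obtain ⟨v, hv⟩ : ∃ v : X, v = x - y := ⟨_, rfl⟩
  -- the good set
  have hG : ∀ᵐ z ∂μ, z ∈ {z : X | DifferentiableAt ℝ F z ∧ ∀ v, ‖fderiv ℝ F z v‖ ≤ ‖v‖} := by
    filter_upwards [hF.ae_differentiableAt (μ := μ), h] with z h1 h2
    exact ⟨h1, h2⟩
  obtain ⟨N, hN⟩ : ∃ N : Set X, N = toMeasurable μ
      {z : X | DifferentiableAt ℝ F z ∧ ∀ v, ‖fderiv ℝ F z v‖ ≤ ‖v‖}ᶜ := ⟨_, rfl⟩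
  have hN0 : μ N = 0 := by
    rw [hN, measure_toMeasurable]
    exact hG
  have hs : MeasurableSet Nᶜ := by
    rw [hN]
    exact (measurableSet_toMeasurable _ _).compl
  have hsG : Nᶜ ⊆ {z : X | DifferentiableAt ℝ F z ∧ ∀ v, ‖fderiv ℝ F z v‖ ≤ ‖v‖} := by
    rw [compl_subset_comm, hN]
    exact subset_toMeasurable _ _
  have hae : ∀ᵐ z ∂μ, z ∈ Nᶜ := by
    rw [ae_iff]
    simpa using hN0
  have h3 : ∀ᵐ z ∂μ, ∀ᵐ t : ℝ, z + (LinearMap.toSpanSingleton ℝ X v) t ∈ Nᶜ :=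
    (ae_ae_add_linearMap_mem_iff (LinearMap.toSpanSingleton ℝ X v) volume μ hs).2 hae
  have h4 : ∀ᵐ z ∂μ, ‖F (z + v) - F z‖ ≤ ‖v‖ := by
    filter_upwards [h3] with z hz
    obtain ⟨φ, hφ1, hφ2⟩ := exists_dual_vector'' ℝ (F (z + v) - F z)
    have hg : LipschitzWith (‖φ‖₊ * (K * ‖v‖₊)) (fun t : ℝ => φ (F (z + t • v))) := by
      refine φ.lipschitz.comp (hF.comp ?_)
      refine LipschitzWith.of_dist_le_mul fun s t => ?_
      rw [dist_add_left, dist_eq_norm, ← sub_smul, norm_smul, dist_eq_norm, mul_comm]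
      rfl
    have h5 : ∀ᵐ t : ℝ, ‖deriv (fun t : ℝ => φ (F (z + t • v))) t‖ ≤ ‖v‖ := by
      filter_upwards [hz] with t ht
      have ht' : z + t • v ∈ Nᶜ := by simpa using ht
      obtain ⟨hd, hb⟩ := hsG ht'
      have e1 : HasDerivAt (fun t : ℝ => z + t • v) v t := by
        simpa using ((hasDerivAt_id t).smul_const v).const_add z
      have e2 : HasDerivAt (fun t : ℝ => φ (F (z + t • v))) (φ (fderiv ℝ F (z + t • v) v)) t :=
        φ.hasFDerivAt.comp_hasDerivAt t (hd.hasFDerivAt.comp_hasDerivAt t e1)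
      rw [e2.deriv]
      calc ‖φ (fderiv ℝ F (z + t • v) v)‖ ≤ ‖φ‖ * ‖fderiv ℝ F (z + t • v) v‖ := φ.le_opNorm _
        _ ≤ 1 * ‖v‖ := mul_le_mul hφ1 (hb v) (norm_nonneg _) zero_le_one
        _ = ‖v‖ := one_mul _
    have h6 := abs_sub_le_of_ae_deriv hg h5
    rw [one_smul, zero_smul, add_zero, ← map_sub, hφ2] at h6
    simpa using h6
  have h5 : Dense {z : X | ‖F (z + v) - F z‖ ≤ ‖v‖} := Measure.dense_of_ae h4
  have h6 : IsClosed {z : X | ‖F (z + v) - F z‖ ≤ ‖v‖} := by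
    have hc : Continuous F := hF.continuous
    exact isClosed_le (by fun_prop) continuous_const
  have h7 : y ∈ {z : X | ‖F (z + v) - F z‖ ≤ ‖v‖} := by
    rw [← h6.closure_eq]
    exact h5 y
  have h8 : y + v = x := by rw [hv]; abel
  simpa [h8, hv] using h7

/-- a norm-nonincreasing bijection with norm-nonincreasing inverse and `F 0 = 0` is linear -/
theorem exists_linear {X Y : Type*} [NormedAddCommGroup X] [NormedSpace ℝ X]
    [NormedAddCommGroup Y] [NormedSpace ℝ Y] {F : X → Y} {G : Y → X}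
    (hGF : ∀ x, G (F x) = x) (hFG : ∀ y, F (G y) = y) (h0 : F 0 = 0)
    (h1 : ∀ x y, ‖F x - F y‖ ≤ ‖x - y‖) (h2 : ∀ x y, ‖G x - G y‖ ≤ ‖x - y‖) :
    ∃ T : X ≃ₗᵢ[ℝ] Y, ∀ x, T x = F x := by
  let Φ : X ≃ᵢ Y :=
    { toFun := F
      invFun := G
      left_inv := hGF
      right_inv := hFG
      isometry_toFun := by
        refine Isometry.of_dist_eq fun x y => ?_
        rw [dist_eq_norm, dist_eq_norm]
        refine le_antisymm (h1 x y) ?_
        have := h2 (F x) (F y)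
        rwa [hGF, hGF] at this }
  have hΦ0 : Φ 0 = 0 := h0
  exact ⟨Φ.toRealLinearIsometryEquivOfMapZero hΦ0, fun x => rfl⟩

end Vale.Agent.P084.T
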