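import Vale.Agent.P084.T.Key

/-!
# Module I: the orbit argument
-/

namespace Vale.Agent.P084.T

open Filter Topology Set

section common
variable {X : Type*} [NormedAddCommGroup X] [NormedSpace ℝ X]

/-- one half of the common norming functional lemma -/
theorem common_norming_aux {a b u : X} {κ : ℝ} (hκ : 0 ≤ κ) (hu : b = κ • a + u)
    (hab : ‖a‖ = ‖b‖)
    (h : ∀ ε > 0, ∃ t : ℝ, 0 < t ∧ t ≤ 1 ∧ |‖a + t • (-u)‖ - ‖b + t • (-u)‖| ≤ ε * t) :
    ∃ φ : X →L[ℝ] ℝ, (∀ v, φ v ≤ ‖v‖) ∧ φ a = ‖a‖ ∧ φ b = ‖b‖ := by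
  obtain ⟨φ, hφ, hφa⟩ := exists_norming a
  refine ⟨φ, hφ, hφa, le_antisymm (hφ b) ?_⟩
  have key : ‖b‖ - φ u ≤ κ * ‖a‖ := by
    apply le_of_forall_pos_le_add
    intro ε hε
    obtain ⟨t, ht0, ht1, ht⟩ := h ε hε
    have h1 : ‖a‖ - t * φ u ≤ ‖a + t • (-u)‖ := by
      have := hφ (a + t • (-u))
      rw [map_add, map_smul, map_neg, hφa, smul_eq_mul] at this
      linarith
    have h2 : ‖b + t • (-u)‖ ≤ (1 - t) * ‖b‖ + t * (κ * ‖a‖) := by
      have e1 : b + t • (-u) = (1 - t) • b + t • (κ • a) := by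
        have : κ • a = b - u := by rw [hu]; abel
        rw [this]; module
      rw [e1]
      refine (norm_add_le _ _).trans ?_
      rw [norm_smul, norm_smul, norm_smul, Real.norm_of_nonneg (by linarith : (0:ℝ) ≤ 1 - t),
        Real.norm_of_nonneg ht0.le, Real.norm_of_nonneg hκ]
    have h3 := (abs_le.1 ht).2
    have h4 : t * (‖b‖ - φ u) ≤ t * (κ * ‖a‖ + ε) := by
      rw [hab] at h1 ⊢
      rw [hab] at h2
      nlinarith
    exact le_of_mul_le_mul_left h4 ht0
  have h5 : φ b = κ * ‖a‖ + φ u := by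
    rw [hu, map_add, map_smul, hφa, smul_eq_mul]
  linarith

/-- If two vectors of equal norm, on the nonnegative side of `ℓ`, have norms with the same
one-sided derivatives along `ker ℓ`, then they have a common norming functional. -/
theorem common_norming (ℓ : X →L[ℝ] ℝ) {a b : X} (hab : ‖a‖ = ‖b‖) (ha : 0 ≤ ℓ a)
    (hb : 0 ≤ ℓ b)
    (h : ∀ v, ℓ v = 0 → ∀ ε > 0, ∃ t : ℝ, 0 < t ∧ t ≤ 1 ∧
      |‖a + t • v‖ - ‖b + t • v‖| ≤ ε * t) :
    ∃ φ : X →L[ℝ] ℝ, (∀ v, φ v ≤ ‖v‖) ∧ φ a = ‖a‖ ∧ φ b = ‖b‖ := by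
  rcases hb.eq_or_lt with hb0 | hb0
  · -- `ℓ b = 0`
    apply common_norming_aux (le_refl 0) (u := b) (by simp) hab
    exact h (-b) (by rw [map_neg, ← hb0, neg_zero])
  · rcases ha.eq_or_lt with ha0 | ha0
    · obtain ⟨φ, h1, h2, h3⟩ := common_norming_aux (a := b) (b := a) (le_refl 0) (u := a)
        (by simp) hab.symm (by
          intro ε hε
          obtain ⟨t, ht0, ht1, ht⟩ := h (-a) (by rw [map_neg, ← ha0, neg_zero]) ε hε
          exact ⟨t, ht0, ht1, by rw [abs_sub_comm]; exact ht⟩)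
      exact ⟨φ, h1, h3, h2⟩
    · apply common_norming_aux (κ := ℓ b / ℓ a) (by positivity) (u := b - (ℓ b / ℓ a) • a)
        (by abel) hab
      apply h
      rw [map_neg, map_sub, map_smul, smul_eq_mul, div_mul_cancel₀ _ ha0.ne', sub_self, neg_zero]

theorem norm_add_of_common_norming (ℓ : X →L[ℝ] ℝ) {a b : X} (hab : ‖a‖ = ‖b‖) (ha : 0 ≤ ℓ a)
    (hb : 0 ≤ ℓ b)
    (h : ∀ v, ℓ v = 0 → ∀ ε > 0, ∃ t : ℝ, 0 < t ∧ t ≤ 1 ∧
      |‖a + t • v‖ - ‖b + t • v‖| ≤ ε * t) : ‖a + b‖ = 2 * ‖a‖ := by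
  obtain ⟨φ, h1, h2, h3⟩ := common_norming ℓ hab ha hb h
  apply le_antisymm
  · have := norm_add_le a b
    linarith
  · have := h1 (a + b)
    rw [map_add, h2, h3] at this
    linarith

end common

/-- the abstract orbit argument -/
theorem orbit_fixed {X : Type*} [NormedAddCommGroup X] [NormedSpace ℝ X] {S : Set X}
    (g : S ≃ S) (hg : ∀ a b : S, ‖(g a : X) - g b‖ = ‖(a : X) - b‖)
    (hS : Bornology.IsBounded S) (x : S)
    (h : ∀ y : S, ‖((x : X) - y) + ((g x : X) - g y)‖ = 2 * ‖(x : X) - y‖) : g x = x := by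
  obtain ⟨C, hC⟩ := hS.exists_norm_le
  obtain ⟨δ, hδ⟩ : ∃ δ : ℝ, δ = ‖(g x : X) - x‖ := ⟨_, rfl⟩
  -- common norming functionals
  have hcom : ∀ y : S, ∃ φ : X →L[ℝ] ℝ, (∀ v, φ v ≤ ‖v‖) ∧ φ ((x : X) - y) = ‖(x : X) - y‖ ∧
      φ ((g x : X) - g y) = ‖(x : X) - y‖ := by
    intro y
    obtain ⟨φ, hφ, hφs⟩ := exists_norming (((x : X) - y) + ((g x : X) - g y))
    rw [h y, map_add] at hφs
    have h1 := hφ ((x : X) - y)
    have h2 := hφ ((g x : X) - g y)
    rw [hg] at h2
    exact ⟨φ, hφ, by linarith, by linarith⟩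
  have hFy : ∀ m : ℕ, g (g.symm^[m + 1] x) = g.symm^[m] x := by
    intro m
    rw [Function.iterate_succ_apply', Equiv.apply_symm_apply]
  have main : ∀ m : ℕ, ‖(g x : X) - g.symm^[m] x‖ = (m + 1) * δ ∧
      ‖(x : X) - g.symm^[m] x‖ = m * δ := by
    intro m
    induction m with
    | zero => simp [hδ]
    | succ m ih =>
      obtain ⟨ih1, ih2⟩ := ih
      have h1 : ‖(x : X) - g.symm^[m + 1] x‖ = (m + 1) * δ := by
        rw [← ih1, ← hFy m, hg]
      obtain ⟨φ, hφ, hφ1, hφ2⟩ := hcom (g.symm^[m + 1] x)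
      rw [hFy m, h1] at hφ2
      rw [h1] at hφ1
      have h2 : φ ((g x : X) - g.symm^[m] x) = φ ((g x : X) - x) + φ ((x : X) - g.symm^[m] x) := by
        rw [← map_add]; congr 1; abel
      have h3 := hφ ((x : X) - g.symm^[m] x)
      rw [ih2] at h3
      have h4 : δ ≤ φ ((g x : X) - x) := by
        rw [hφ2] at h2
        linarith
      have h5 : φ ((g x : X) - g.symm^[m + 1] x)
          = φ ((g x : X) - x) + φ ((x : X) - g.symm^[m + 1] x) := by
        rw [← map_add]; congr 1; abel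
      have h6 := hφ ((g x : X) - g.symm^[m + 1] x)
      have h7 : ‖(g x : X) - g.symm^[m + 1] x‖ ≤ ‖(g x : X) - x‖ + ‖(x : X) - g.symm^[m + 1] x‖ := by
        have := norm_add_le ((g x : X) - x) ((x : X) - g.symm^[m + 1] x)
        rwa [sub_add_sub_cancel] at this
      push_cast
      constructor
      · rw [h1, ← hδ] at h7
        rw [hφ1] at h5
        apply le_antisymm
        · linarith
        · linarith
      · exact h1
  have hδ0 : 0 ≤ δ := by rw [hδ]; exact norm_nonneg _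
  rcases hδ0.eq_or_lt with h0 | hpos
  · apply Subtype.ext
    rw [hδ] at h0
    exact sub_eq_zero.1 (norm_eq_zero.1 h0.symm)
  · exfalso
    obtain ⟨m, hm⟩ := exists_nat_gt ((2 * C) / δ)
    rw [div_lt_iff₀ hpos] at hm
    have h1 := (main m).2
    have h2 : ‖(x : X) - g.symm^[m] x‖ ≤ ‖(x : X)‖ + ‖((g.symm^[m] x : S) : X)‖ := norm_sub_le _ _
    have h3 := hC _ x.2
    have h4 := hC _ (g.symm^[m] x).2
    linarith

variable {X Y : Type*} [NormedAddCommGroup X] [NormedSpace ℝ X]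
    [NormedAddCommGroup Y] [NormedSpace ℝ Y] {F : X → Y}

/-- If the tangential derivative of `F` at a good point `x` extends to a linear isometry `U` of
`X` onto `Y` with `J x (U⁻¹ (F x)) = ‖x‖`, then `F x = U x`. -/
theorem HMap.eq_of_tangent (hF : HMap F) (hb : Function.Bijective F) {x : X} (hx : Good F x)
    (U : X ≃ₗᵢ[ℝ] Y) (hU : ∀ v, J x v = 0 → U v = fderiv ℝ F x v)
    (hU' : J x (U.symm (F x)) = ‖x‖) : F x = U x := by
  by_cases hx0 : x = 0
  · rw [hx0, hF.zero, map_zero]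
  have hxn : 0 < ‖x‖ := norm_pos_iff.2 hx0
  obtain ⟨r, hr⟩ : ∃ r : ℝ, r = ‖x‖ := ⟨_, rfl⟩
  rw [← hr] at hxn
  obtain ⟨G, hGF, hFG⟩ := Function.bijective_iff_has_inverse.1 hb
  have hJ : HasFDerivAt (fun y : X => ‖y‖) (J x) x := DifferentiableAt.hasFDerivAt hx.nd
  have hT : HasFDerivAt F (fderiv ℝ F x) x := hx.df.hasFDerivAt
  have hJx : J x x = r := by rw [hr]; exact J_self hx.nd
  let F' : X → X := fun y => U.symm (F y)
  let G' : X → X := fun y => G (U y)
  have hF'n : ∀ y, ‖F' y‖ = ‖y‖ := fun y => by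
    simp only [F', LinearIsometryEquiv.norm_map, hF.norm_map]
  have hG'n : ∀ y, ‖G' y‖ = ‖y‖ := fun y => by
    simp only [G']
    rw [← hF.norm_map, hFG, LinearIsometryEquiv.norm_map]
  have hF'G : ∀ y, F' (G' y) = y := fun y => by
    simp only [F', G', hFG (U y), LinearIsometryEquiv.symm_apply_apply]
  have hG'F : ∀ y, G' (F' y) = y := fun y => by
    simp only [F', G', LinearIsometryEquiv.apply_symm_apply, hGF y]
  have hF'd : ∀ y z, ‖y‖ = ‖z‖ → ‖F' y - F' z‖ = ‖y - z‖ := fun y z hyz => by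
    simp only [F', ← map_sub, LinearIsometryEquiv.norm_map]
    exact hF.norm_sub y z hyz
  let S : Set X := {y | ‖y‖ = r}
  let g : S ≃ S :=
    { toFun := fun y => ⟨F' y, (hF'n y).trans y.2⟩
      invFun := fun y => ⟨G' y, (hG'n y).trans y.2⟩
      left_inv := fun y => Subtype.ext (hG'F y)
      right_inv := fun y => Subtype.ext (hF'G y) }
  have hSb : Bornology.IsBounded S := by
    rw [isBounded_iff_forall_norm_le]
    exact ⟨r, fun y hy => le_of_eq hy⟩
  -- the tangential estimate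
  have htan : ∀ v, J x v = 0 → ∀ ε > 0, ∃ t : ℝ, 0 < t ∧ t ≤ 1 ∧ ∃ x', ‖x'‖ = r ∧
      ‖x' - (x + t • v)‖ ≤ ε * t ∧ ‖F' x' - (F' x + t • v)‖ ≤ ε * t := by
    intro v hv ε hε
    have hUT : U.symm (fderiv ℝ F x v) = v := by
      rw [← hU v hv, LinearIsometryEquiv.symm_apply_apply]
    set η : ℝ := (ε / 4) / (‖v‖ + 1) with hη
    have hη0 : 0 < η := by positivity
    have hηv : η * ‖v‖ ≤ ε / 4 := by
      rw [hη, div_mul_eq_mul_div, div_le_iff₀ (by positivity)]
      nlinarith [norm_nonneg v]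
    have hline : Tendsto (fun t : ℝ => t • v) (𝓝[>] 0) (𝓝 0) := by
      have : Tendsto (fun t : ℝ => t • v) (𝓝 0) (𝓝 ((0 : ℝ) • v)) :=
        (continuous_id.smul continuous_const).tendsto 0
      rw [zero_smul] at this
      exact this.mono_left nhdsWithin_le_nhds
    have e1 := hline.eventually ((hasFDerivAt_iff_isLittleO_nhds_zero.1 hJ).def hη0)
    have e2 := hline.eventually ((hasFDerivAt_iff_isLittleO_nhds_zero.1 hT).def hη0)
    have hcn : Continuous fun t : ℝ => ‖x + t • v‖ := by fun_prop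
    have e3 : ∀ᶠ t : ℝ in 𝓝[>] 0, 0 < ‖x + t • v‖ := by
      have : ∀ᶠ t : ℝ in 𝓝 0, 0 < ‖x + t • v‖ := by
        apply hcn.continuousAt.eventually
        apply lt_mem_nhds
        simp only [zero_smul, add_zero, ← hr]
        exact hxn
      exact this.filter_mono nhdsWithin_le_nhds
    have e4 : ∀ᶠ t : ℝ in 𝓝[>] 0, t < 1 :=
      (eventually_lt_nhds (by norm_num : (0 : ℝ) < 1)).filter_mono nhdsWithin_le_nhds
    have e5 : ∀ᶠ t : ℝ in 𝓝[>] 0, 0 < t := eventually_mem_nhdsWithin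
    obtain ⟨t, h1, h2, h3, h4, h5⟩ := (e1.and (e2.and (e3.and (e4.and e5)))).exists
    obtain ⟨q, hq⟩ : ∃ q : ℝ, q = ‖x + t • v‖ := ⟨_, rfl⟩
    have hq0 : 0 < q := by rw [hq]; exact h3
    have hrq : |r - q| ≤ ε / 4 * t := by
      have h6 := h1
      rw [map_smul, hv, smul_zero, sub_zero, Real.norm_eq_abs, norm_smul,
        Real.norm_of_nonneg h5.le, ← hq, ← hr, abs_sub_comm] at h6
      calc _ ≤ η * (t * ‖v‖) := h6
        _ = (η * ‖v‖) * t := by ring
        _ ≤ ε / 4 * t := by gcongr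
    have hdiff : ∀ p : X, ‖p‖ = q → ‖(r / q) • p - p‖ ≤ ε / 4 * t := by
      intro p hp
      have h7 : (r / q) • p - p = ((r - q) / q) • p := by
        rw [sub_div, div_self hq0.ne', sub_smul, one_smul]
      rw [h7, norm_smul, hp, Real.norm_eq_abs, abs_div, abs_of_pos hq0, div_mul_cancel₀ _ hq0.ne']
      exact hrq
    refine ⟨t, h5, h4.le, (r / q) • (x + t • v), ?_, ?_, ?_⟩
    · rw [norm_smul, ← hq, Real.norm_of_nonneg (by positivity), div_mul_cancel₀ _ hq0.ne']
    · refine (hdiff _ hq.symm).trans ?_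
      gcongr
      linarith
    · have h6 : ‖F' (x + t • v) - (F' x + t • v)‖ ≤ ε / 4 * t := by
        have h7 : F' (x + t • v) - (F' x + t • v)
            = U.symm (F (x + t • v) - F x - fderiv ℝ F x (t • v)) := by
          simp only [F']
          rw [map_sub, map_sub, map_smul (fderiv ℝ F x), map_smul U.symm, hUT]
          abel
        rw [h7, LinearIsometryEquiv.norm_map]
        calc _ ≤ η * ‖t • v‖ := h2
          _ = (η * ‖v‖) * t := by rw [norm_smul, Real.norm_of_nonneg h5.le]; ring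
          _ ≤ ε / 4 * t := by gcongr
      have h8 : F' ((r / q) • (x + t • v)) = (r / q) • F' (x + t • v) := by
        simp only [F']
        rw [hF.smul _ _ (by positivity), map_smul]
      have h9 := hdiff (F' (x + t • v)) (by rw [hF'n, hq])
      rw [h8]
      calc _ = ‖((r / q) • F' (x + t • v) - F' (x + t • v))
            + (F' (x + t • v) - (F' x + t • v))‖ := by congr 1; abel
        _ ≤ ε / 4 * t + ε / 4 * t := (norm_add_le _ _).trans (add_le_add h9 h6)
        _ ≤ ε * t := by nlinarith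
  have hfix : g ⟨x, hr.symm⟩ = ⟨x, hr.symm⟩ := by
    apply orbit_fixed g (fun a b => hF'd a b (a.2.trans b.2.symm)) hSb
    rintro ⟨y, hy⟩
    have hy' : ‖y‖ = r := hy
    change ‖(x - y) + (F' x - F' y)‖ = 2 * ‖x - y‖
    have hiso := hF'd x y (by rw [← hr, hy'])
    apply norm_add_of_common_norming (J x) hiso.symm
    · rw [map_sub, hJx]
      have := J_le x y
      linarith
    · have h1 : J x (F' x) = r := by rw [hr]; exact hU'
      have h2 := J_le x (F' y)
      rw [hF'n, hy'] at h2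
      rw [map_sub, h1]
      linarith
    · intro v hv ε hε
      obtain ⟨t, ht0, ht1, x', hx', h1, h2⟩ := htan v hv (ε / 2) (by linarith)
      refine ⟨t, ht0, ht1, ?_⟩
      have h3 := hF'd x' y (by rw [hx', hy'])
      have h4 : |‖x - y + t • v‖ - ‖x' - y‖| ≤ ε / 2 * t := by
        refine (abs_norm_sub_norm_le _ _).trans ?_
        rw [norm_sub_rev]
        have : x' - y - (x - y + t • v) = x' - (x + t • v) := by abel
        rw [this]; exact h1
      have h5 : |‖F' x - F' y + t • v‖ - ‖F' x' - F' y‖| ≤ ε / 2 * t := by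
        refine (abs_norm_sub_norm_le _ _).trans ?_
        rw [norm_sub_rev]
        have : F' x' - F' y - (F' x - F' y + t • v) = F' x' - (F' x + t • v) := by abel
        rw [this]; exact h2
      rw [h3] at h5
      have h6 := abs_le.1 h4
      have h7 := abs_le.1 h5
      rw [abs_le]
      constructor <;> linarith [h6.1, h6.2, h7.1, h7.2]
  have hfin : F' x = x := congrArg Subtype.val hfix
  have := congrArg U hfin
  simpa only [F', LinearIsometryEquiv.apply_symm_apply] using this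

end Vale.Agent.P084.T
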