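import Vale.Agent.P084.T.Basic
import Vale.Agent.P084.CStart

/-!
# Module M: from a surjective isometry of unit spheres to a homogeneous map
-/

namespace Vale.Agent.P084.T

open Filter Topology Metric

theorem start {X Y : Type*} [NormedAddCommGroup X] [NormedSpace ℝ X]
    [NormedAddCommGroup Y] [NormedSpace ℝ Y] (f : sphere (0 : X) 1 → sphere (0 : Y) 1)
    (hf : Isometry f) (hs : Function.Surjective f) :
    ∃ (F : X → Y) (G : Y → X), HMap F ∧ (∀ x, G (F x) = x) ∧ (∀ y, F (G y) = y) ∧
      ∀ x : sphere (0 : X) 1, F x = f x := by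
  have hcoe : ∀ x : sphere (0 : X) 1, hExt f x = f x := by
    intro x
    have := hExt_smul f zero_le_one x
    simpa using this
  obtain ⟨g, hg1, hg2⟩ := Function.bijective_iff_has_inverse.1 ⟨hf.injective, hs⟩
  have hF : HMap (hExt f) := by
    refine ⟨?_, ?_, ?_⟩
    · intro x
      by_cases hx : x = 0
      · rw [hx, hExt_zero, norm_zero, norm_zero]
      · obtain ⟨u, hu⟩ := exists_polar x hx
        have e1 : hExt f x = ‖x‖ • (f u : Y) := by
          conv_lhs => rw [hu]
          exact hExt_smul f (norm_nonneg _) u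
        rw [e1, norm_smul]
        simp
    · intro t x ht
      by_cases hx : x = 0
      · rw [hx, smul_zero, hExt_zero, smul_zero]
      · obtain ⟨u, hu⟩ := exists_polar x hx
        rw [hu, smul_smul, hExt_smul f (mul_nonneg ht (norm_nonneg _)),
          hExt_smul f (norm_nonneg _), smul_smul]
    · intro x y hxy
      by_cases hx : x = 0
      · have hy : y = 0 := by
          rw [← norm_eq_zero, ← hxy, hx, norm_zero]
        rw [hx, hy]
        simp
      · have hy : y ≠ 0 := by
          intro h0
          rw [h0, norm_zero, norm_eq_zero] at hxy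
          exact hx hxy
        obtain ⟨u, hu⟩ := exists_polar x hx
        obtain ⟨v, hv⟩ := exists_polar y hy
        have e1 : hExt f x = ‖x‖ • (f u : Y) := by
          conv_lhs => rw [hu]
          exact hExt_smul f (norm_nonneg _) u
        have e2 : hExt f y = ‖x‖ • (f v : Y) := by
          conv_lhs => rw [hv]
          rw [hExt_smul f (norm_nonneg _), hxy]
        have e3 : x - y = ‖x‖ • ((u : X) - v) := by
          rw [smul_sub, ← hu, hxy, ← hv]
        rw [e1, e2, e3, ← smul_sub, norm_smul, norm_smul]
        congr 1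
        rw [← dist_eq_norm, ← dist_eq_norm, ← Subtype.dist_eq, ← Subtype.dist_eq, hf.dist_eq]
  refine ⟨hExt f, hExt g, hF, ?_, ?_, hcoe⟩
  · intro x
    by_cases hx : x = 0
    · rw [hx, hExt_zero, hExt_zero]
    · obtain ⟨u, hu⟩ := exists_polar x hx
      have e1 : hExt f x = ‖x‖ • (f u : Y) := by
        conv_lhs => rw [hu]
        exact hExt_smul f (norm_nonneg _) u
      rw [e1, hExt_smul g (norm_nonneg _), hg1, ← hu]
  · intro y
    by_cases hy : y = 0
    · rw [hy, hExt_zero, hExt_zero]
    · obtain ⟨v, hv⟩ := exists_polar y hy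
      have e1 : hExt g y = ‖y‖ • (g v : X) := by
        conv_lhs => rw [hv]
        exact hExt_smul g (norm_nonneg _) v
      rw [e1, hExt_smul f (norm_nonneg _), hg2, ← hv]

end Vale.Agent.P084.T
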