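import Vale.Agent.P084.T.NormPair
import Vale.Agent.P084.T.Flux
import Vale.Agent.P084.T.Area
import Vale.Agent.P084.T.Orbit
import Vale.Agent.P084.T.LipIso
import Vale.Agent.P084.T.Start
import Vale.Agent.P084.T.Integ

/-!
# Module L: assembly
-/

namespace Vale.Agent.P084.T

open MeasureTheory Filter Topology Set Metric

variable {X Y : Type*} [NormedAddCommGroup X] [NormedSpace ℝ X] [FiniteDimensional ℝ X]
    [NormedAddCommGroup Y] [NormedSpace ℝ Y] {F : X → Y}

section
variable [MeasurableSpace X] [BorelSpace X]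

/-- an even integrable function has half of its integral over a half space -/
theorem integral_half (μ : Measure X) [μ.IsAddHaarMeasure] {g : X → ℝ} (hg : Integrable g μ)
    (heven : ∀ w, g (-w) = g w) {j : X →L[ℝ] ℝ} (hj : j ≠ 0) :
    ∫ w in {w | 0 < j w}, g w ∂μ = (∫ w, g w ∂μ) / 2 := by
  have hm1 : MeasurableSet {w : X | 0 < j w} := measurableSet_lt measurable_const (by fun_prop)
  have hm2 : MeasurableSet {w : X | j w < 0} := measurableSet_lt (by fun_prop) measurable_const
  have h1 : ∫ w in {w | 0 < j w}, g w ∂μ = ∫ w in {w | j w < 0}, g w ∂μ := by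
    rw [← integral_indicator hm1, ← integral_indicator hm2,
      ← integral_neg_eq_self (fun w => indicator {w | j w < 0} g w) μ]
    congr 1
    funext w
    by_cases hw : 0 < j w
    · rw [indicator_of_mem (by simpa using hw), indicator_of_mem (by simpa using hw), heven]
    · rw [indicator_of_notMem (by simpa using hw), indicator_of_notMem (by simpa using hw)]
  have h0 : μ {w : X | j w = 0} = 0 := by
    have h2 : LinearMap.ker (j : X →ₗ[ℝ] ℝ) ≠ ⊤ := by
      intro h3
      apply hj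
      ext v
      have : v ∈ LinearMap.ker (j : X →ₗ[ℝ] ℝ) := by rw [h3]; trivial
      simpa using this
    have h4 := Measure.addHaar_submodule μ _ h2
    have h5 : ((LinearMap.ker (j : X →ₗ[ℝ] ℝ) : Submodule ℝ X) : Set X) = {w : X | j w = 0} := by
      ext v
      simp
    rwa [h5] at h4
  have h3 : ∫ w, g w ∂μ = ∫ w in {w | 0 < j w}, g w ∂μ + ∫ w in {w | j w < 0}, g w ∂μ := by
    rw [← setIntegral_union _ hm2 hg.integrableOn hg.integrableOn]
    · symm
      rw [← setIntegral_univ (f := g) (μ := μ)]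
      apply setIntegral_congr_set
      rw [ae_eq_univ]
      refine measure_mono_null ?_ h0
      intro w hw
      simp only [mem_compl_iff, mem_union, Set.mem_ofPred_eq, not_or, not_lt] at hw ⊢
      exact le_antisymm hw.1 hw.2
    · rw [Set.disjoint_left]
      intro w hw hw2
      simp only [Set.mem_ofPred_eq] at hw hw2
      linarith
  rw [h3, h1]
  ring

theorem ae_nd (μ : Measure X) [μ.IsAddHaarMeasure] : ∀ᵐ x : X ∂μ, ND x :=
  (lipschitzWith_one_norm (E := X)).ae_differentiableAt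

theorem measurable_Jfun : Measurable (J : X → X →L[ℝ] ℝ) := measurable_fderiv ℝ _

theorem J_ne_zero {x : X} (hx : x ≠ 0) (hnd : ND x) : J x ≠ 0 := by
  intro h
  have := J_self hnd
  rw [h] at this
  exact hx (norm_eq_zero.1 this.symm)

theorem measurable_slice {Z : Type*} [MeasurableSpace Z] {g : Z × Z → ℝ} (hg : Measurable g)
    (x : Z) : Measurable (fun w => g (x, w)) :=
  hg.comp (measurable_const.prodMk measurable_id)

theorem HMap.measurable_cc_right [FiniteDimensional ℝ Y] (hF : HMap F) (x : X) :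
    Measurable (fun w => cc F x w) := by
  let _ : MeasurableSpace Y := borel Y
  have : BorelSpace Y := ⟨rfl⟩
  have h2 : Measurable (fun q : X × X => cc F q.1 q.2) := measurable_cc hF
  exact measurable_slice h2 x

theorem HMap.pairData [FiniteDimensional ℝ Y] (hF : HMap F) (μ : Measure X) [μ.IsAddHaarMeasure]
    {x : X} (hx : Good F x) :
    PairData μ (J x) (‖x‖⁻¹ • x) (fun v => ‖fderiv ℝ F x v‖) J (fun w => cc F x w) := by
  have hn : ‖x‖ ≠ 0 := norm_ne_zero_iff.2 hx.ne
  refine
    { je := ?_, ne := ?_, jle := J_le x, n1cont := by fun_prop, n1smul := ?_, n1add := ?_,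
      n1e := ?_, n1eq := fun v hv => hF.norm_fderiv hx hv, jle1 := fun v => hF.J_le_norm hx v,
      pmeas := measurable_Jfun, pnorm := J_le, pself := ?_,
      cmeas := hF.measurable_cc_right x, cbdd := ⟨3, fun w => abs_cc_le hF x w⟩, dagger := ?_ }
  · rw [map_smul, J_self hx.nd, smul_eq_mul, inv_mul_cancel₀ hn]
  · rw [norm_smul, norm_inv, norm_norm, inv_mul_cancel₀ hn]
  · intro t v
    rw [map_smul, norm_smul, Real.norm_eq_abs]
  · intro u v
    rw [map_add]
    exact norm_add_le _ _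
  · rw [map_smul, hF.fderiv_self hx, norm_smul, norm_inv, norm_norm, hF.norm_map,
      inv_mul_cancel₀ hn]
  · filter_upwards [ae_nd μ] with w hw using J_self hw
  · filter_upwards [ae_nd μ] with w hw hJ v
    exact dagger hF hx hJ hw v

theorem half0 (μ : Measure X) [μ.IsAddHaarMeasure] {j : X →L[ℝ] ℝ} (hj : j ≠ 0) :
    ∫ w in {w | 0 < j w}, Real.exp (-‖w‖) ∂μ = (∫ w, Real.exp (-‖w‖) ∂μ) / 2 :=
  integral_half μ (integrable_exp_norm μ) (fun w => by rw [norm_neg]) hj

theorem HMap.half1 (hF : HMap F) (μ : Measure X) [μ.IsAddHaarMeasure] {x : X} (hx : Good F x) :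
    ∫ w in {w | 0 < J x w}, Real.exp (-‖fderiv ℝ F x w‖) ∂μ =
      (∫ w, Real.exp (-‖fderiv ℝ F x w‖) ∂μ) / 2 :=
  integral_half μ (hF.integrable_exp μ hx).1 (fun w => by rw [map_neg, norm_neg])
    (J_ne_zero hx.ne hx.nd)

/-- the pointwise inequality -/
theorem HMap.pointwise_le [FiniteDimensional ℝ Y] (hF : HMap F)
    (μ : Measure X) [μ.IsAddHaarMeasure] {x : X} (hx : Good F x) :
    ∫ w in {w | 0 < J x w}, cc F x w * J x w * Real.exp (-‖w‖) ∂μ ≤
      ((∫ w, Real.exp (-‖w‖) ∂μ) / 2) * ((∫ w, Real.exp (-‖w‖) ∂μ) /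
        (∫ w, Real.exp (-‖fderiv ℝ F x w‖) ∂μ) - 1) := by
  have h := norm_pair_le μ (hF.pairData μ hx)
  rw [half0 μ (J_ne_zero hx.ne hx.nd), hF.half1 μ hx] at h
  rwa [div_div_div_cancel_right₀ (by norm_num : (2 : ℝ) ≠ 0)] at h

theorem measurable_left [FiniteDimensional ℝ Y] (hF : HMap F) (μ : Measure X)
    [μ.IsAddHaarMeasure] :
    Measurable fun x => ∫ w in {w | 0 < J x w}, cc F x w * J x w * Real.exp (-‖w‖) ∂μ := by
  let _ : MeasurableSpace Y := borel Y
  have : BorelSpace Y := ⟨rfl⟩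
  have h1 : Measurable (fun q : X × X => cc F q.1 q.2 * J q.1 q.2 * Real.exp (-‖q.2‖)) :=
    ((measurable_cc hF).mul measurable_J).mul (by fun_prop)
  have hS : MeasurableSet {q : X × X | 0 < J q.1 q.2} :=
    measurableSet_lt measurable_const measurable_J
  have h2 := StronglyMeasurable.integral_prod_right' (ν := μ) (h1.indicator hS).stronglyMeasurable
  have h3 : (fun x => ∫ w in {w | 0 < J x w}, cc F x w * J x w * Real.exp (-‖w‖) ∂μ) =
      fun x => ∫ w, ({q : X × X | 0 < J q.1 q.2}.indicator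
        (fun q : X × X => cc F q.1 q.2 * J q.1 q.2 * Real.exp (-‖q.2‖))) (x, w) ∂μ := by
    funext x
    have hm1 : MeasurableSet {w : X | 0 < J x w} := measurableSet_lt measurable_const (by fun_prop)
    rw [← integral_indicator hm1]
    rfl
  rw [h3]
  exact h2.measurable

theorem bound_left (hF : HMap F) (μ : Measure X) [μ.IsAddHaarMeasure] (x : X) :
    |∫ w in {w | 0 < J x w}, cc F x w * J x w * Real.exp (-‖w‖) ∂μ| ≤
      3 * ∫ w, ‖w‖ * Real.exp (-‖w‖) ∂μ := by
  have h0 := integrable_norm_exp_norm μ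
  have h1 : |∫ w in {w | 0 < J x w}, cc F x w * J x w * Real.exp (-‖w‖) ∂μ| ≤
      ∫ w in {w | 0 < J x w}, 3 * (‖w‖ * Real.exp (-‖w‖)) ∂μ := by
    rw [← Real.norm_eq_abs]
    refine norm_integral_le_of_norm_le (h0.const_mul 3).integrableOn ?_
    refine Eventually.of_forall fun w => ?_
    rw [Real.norm_eq_abs, abs_mul, abs_mul, Real.abs_exp, ← mul_assoc]
    have h2 : |J x w| ≤ ‖w‖ := by
      rw [abs_le]
      have := J_le x w
      have h3 := J_le x (-w)
      rw [map_neg, norm_neg] at h3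
      constructor <;> linarith
    have h3 := abs_cc_le hF x w
    gcongr
  refine h1.trans ?_
  rw [← integral_const_mul]
  refine setIntegral_le_integral (h0.const_mul 3) (Eventually.of_forall fun w => ?_)
  simp only [Pi.zero_apply]
  positivity

/-- equality for almost every `x` -/
theorem HMap.pointwise_eq [Nontrivial X] [FiniteDimensional ℝ Y] (hF : HMap F)
    (hb : Function.Bijective F) (μ : Measure X) [μ.IsAddHaarMeasure] :
    ∀ᵐ x ∂μ, ∫ w in {w | 0 < J x w}, cc F x w * J x w * Real.exp (-‖w‖) ∂μ =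
      ((∫ w, Real.exp (-‖w‖) ∂μ) / 2) * ((∫ w, Real.exp (-‖w‖) ∂μ) /
        (∫ w, Real.exp (-‖fderiv ℝ F x w‖) ∂μ) - 1) := by
  let _ : MeasurableSpace Y := borel Y
  have : BorelSpace Y := ⟨rfl⟩
  set I := ∫ w, Real.exp (-‖w‖) ∂μ with hI
  set A : X → ℝ := fun x => ∫ w in {w | 0 < J x w}, cc F x w * J x w * Real.exp (-‖w‖) ∂μ with hA
  set V : X → ℝ := fun x => ∫ w, Real.exp (-‖fderiv ℝ F x w‖) ∂μ with hV
  have hgood := ae_good hF μ
  obtain ⟨hi1, hi2⟩ := hF.area_average hb μ
  have hiI : Integrable (fun x : X => Real.exp (-‖x‖)) μ := integrable_exp_norm μ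
  have hiR : Integrable (fun x => (I / 2) * (I / V x - 1) * Real.exp (-‖x‖)) μ := by
    have h1 := ((hi1.const_mul I).sub hiI).const_mul (I / 2)
    refine h1.congr (Eventually.of_forall fun x => ?_)
    simp only [Pi.sub_apply, hV]
    ring
  have hR : ∫ x, (I / 2) * (I / V x - 1) * Real.exp (-‖x‖) ∂μ = 0 := by
    have h1 : ∫ x, (I / 2) * (I / V x - 1) * Real.exp (-‖x‖) ∂μ =
        ∫ x, (I / 2) * (I * (Real.exp (-‖x‖) / V x) - Real.exp (-‖x‖)) ∂μ := by
      congr 1
      funext x
      ring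
    rw [h1, integral_const_mul, integral_sub (hi1.const_mul I) hiI, integral_const_mul, hi2]
    simp [hI]
  have hiL : Integrable (fun x => A x * Real.exp (-‖x‖)) μ := by
    refine Integrable.bdd_mul (c := 3 * ∫ w, ‖w‖ * Real.exp (-‖w‖) ∂μ) hiI
      (measurable_left hF μ).aestronglyMeasurable (Eventually.of_forall fun x => ?_)
    rw [Real.norm_eq_abs]
    exact bound_left hF μ x
  have hL : ∫ x, A x * Real.exp (-‖x‖) ∂μ = 0 := flux_total hF μ
  have hD : ∫ x, ((I / 2) * (I / V x - 1) * Real.exp (-‖x‖) - A x * Real.exp (-‖x‖)) ∂μ = 0 := by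
    rw [integral_sub hiR hiL, hR, hL, sub_zero]
  have hnn : 0 ≤ᵐ[μ] fun x => (I / 2) * (I / V x - 1) * Real.exp (-‖x‖) -
      A x * Real.exp (-‖x‖) := by
    filter_upwards [hgood] with x hx
    have := hF.pointwise_le μ hx
    simp only [Pi.zero_apply]
    rw [← sub_mul]
    refine mul_nonneg ?_ (Real.exp_pos _).le
    rw [sub_nonneg]
    exact this
  have h5 := (integral_eq_zero_iff_of_nonneg_ae hnn (hiR.sub hiL)).1 hD
  filter_upwards [h5] with x hx
  simp only [Pi.zero_apply] at hx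
  rw [← sub_mul] at hx
  have h6 := (mul_eq_zero.1 hx).resolve_right (Real.exp_pos _).ne'
  simp only [hA, hV] at h6
  linarith

/-- the derivative is a linear isometry almost everywhere -/
theorem HMap.ae_isometry [Nontrivial X] (hF : HMap F)
    (hb : Function.Bijective F) (μ : Measure X) [μ.IsAddHaarMeasure] :
    ∀ᵐ x ∂μ, ∀ v, ‖fderiv ℝ F x v‖ = ‖v‖ := by
  have : FiniteDimensional ℝ Y := hF.finiteDimensional hb
  let _ : MeasurableSpace Y := borel Y
  have : BorelSpace Y := ⟨rfl⟩
  filter_upwards [ae_good hF μ, hF.pointwise_eq hb μ] with x hx heq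
  have hj := J_ne_zero hx.ne hx.nd
  obtain ⟨u, hu, hN⟩ := norm_pair_eq μ (hF.pairData μ hx) (by
    rw [half0 μ hj, hF.half1 μ hx, div_div_div_cancel_right₀ (by norm_num : (2 : ℝ) ≠ 0)]
    exact heq)
  -- the isometry
  set T := fderiv ℝ F x with hT
  have hinj := hF.fderiv_injective hx
  let L : X →ₗ[ℝ] Y := (T : X →ₗ[ℝ] Y).comp
    (LinearMap.id - ((J x : X →ₗ[ℝ] ℝ).smulRight u))
  have hL : ∀ v, L v = T (v - J x v • u) := fun v => rfl
  have hLn : ∀ v, ‖L v‖ = ‖v‖ := by
    intro v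
    rw [hL, hN]
    congr 1
    rw [map_sub, map_smul, hu, smul_zero, sub_zero, sub_add_cancel]
  let Li : X →ₗᵢ[ℝ] Y := ⟨L, hLn⟩
  have hfr := hF.finrank_eq hb
  let U : X ≃ₗᵢ[ℝ] Y := Li.toLinearIsometryEquiv hfr.symm
  have hU : ∀ v, U v = T (v - J x v • u) := fun v => rfl
  have h1 : ∀ v, J x v = 0 → U v = T v := by
    intro v hv
    rw [hU, hv, zero_smul, sub_zero]
  have h2 : U (x + ‖x‖ • u) = F x := by
    rw [hU, map_add, map_smul, hu, smul_zero, add_zero, J_self hx.nd, add_sub_cancel_right,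
      hT, hF.fderiv_self hx]
  have h3 : J x (U.symm (F x)) = ‖x‖ := by
    rw [← h2, U.symm_apply_apply, map_add, map_smul, hu, smul_zero, add_zero, J_self hx.nd]
  have h4 := hF.eq_of_tangent hb hx U h1 h3
  have h5 : x + ‖x‖ • u = x := by
    apply U.injective
    rw [h2, h4]
  have h6 : u = 0 := by
    have : ‖x‖ • u = 0 := by simpa using h5
    exact (smul_eq_zero.1 this).resolve_left (norm_ne_zero_iff.2 hx.ne)
  intro v
  rw [hN, h6, smul_zero, add_zero]

end

theorem main (f : sphere (0 : X) 1 → sphere (0 : Y) 1) (hf : Isometry f)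
    (hs : Function.Surjective f) : ∃ T : X ≃ₗᵢ[ℝ] Y, ∀ x : sphere (0 : X) 1, T x = f x := by
  obtain ⟨F, G, hF, hGF, hFG, hFf⟩ := start f hf hs
  have hG : HMap G := hF.inverse hGF hFG
  have hbF : Function.Bijective F := ⟨Function.LeftInverse.injective hGF,
    Function.RightInverse.surjective hFG⟩
  have hbG : Function.Bijective G := ⟨Function.LeftInverse.injective hFG,
    Function.RightInverse.surjective hGF⟩
  rcases subsingleton_or_nontrivial X with hX | hX
  · have h0 : ∀ y : Y, y = 0 := by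
      intro y
      rw [← hFG y, Subsingleton.elim (G y) 0, hF.zero]
    have : Subsingleton Y := ⟨fun a b => by rw [h0 a, h0 b]⟩
    let Li : X →ₗᵢ[ℝ] Y := ⟨0, fun v => by rw [Subsingleton.elim v 0]; simp⟩
    refine ⟨⟨LinearEquiv.ofBijective Li.toLinearMap ⟨Li.injective, fun y =>
      ⟨0, Subsingleton.elim _ _⟩⟩, fun v => Li.norm_map v⟩, fun x => Subsingleton.elim _ _⟩
  · have : FiniteDimensional ℝ Y := hF.finiteDimensional hbF
    have : Nontrivial Y := hbF.1.nontrivial
    let _ : MeasurableSpace X := borel X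
    have : BorelSpace X := ⟨rfl⟩
    let _ : MeasurableSpace Y := borel Y
    have : BorelSpace Y := ⟨rfl⟩
    have h1 : ∀ x y, ‖F x - F y‖ ≤ ‖x - y‖ := by
      refine lipschitz_one_of_ae (Measure.addHaar : Measure X) hF.lipschitz ?_
      filter_upwards [hF.ae_isometry hbF Measure.addHaar] with x hx v
      exact (hx v).le
    have h2 : ∀ x y, ‖G x - G y‖ ≤ ‖x - y‖ := by
      refine lipschitz_one_of_ae (Measure.addHaar : Measure Y) hG.lipschitz ?_
      filter_upwards [hG.ae_isometry hbG Measure.addHaar] with x hx v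
      exact (hx v).le
    obtain ⟨T, hT⟩ := exists_linear hGF hFG hF.zero h1 h2
    exact ⟨T, fun x => by rw [hT, hFf]⟩

end Vale.Agent.P084.T
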