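import Vale.Agent.P084.T.Basic

/-!
# Module F: the first-order relations (1) and (2)
-/

namespace Vale.Agent.P084.T

open Filter Topology

variable {X Y : Type*} [NormedAddCommGroup X] [NormedSpace ℝ X]
    [NormedAddCommGroup Y] [NormedSpace ℝ Y] {F : X → Y}

/-- `x` is good: the norm and `F` are differentiable at `x` -/
structure Good (F : X → Y) (x : X) : Prop where
  ne : x ≠ 0
  nd : ND x
  df : DifferentiableAt ℝ F x

theorem HMap.hasFDerivAt_smul (hF : HMap F) {x : X} {T : X →L[ℝ] Y} (h : HasFDerivAt F T x)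
    {t : ℝ} (ht : 0 < t) : HasFDerivAt F T (t • x) := by
  have h1 : HasFDerivAt (fun z : X => t⁻¹ • z) (t⁻¹ • ContinuousLinearMap.id ℝ X) (t • x) :=
    (hasFDerivAt_id (t • x)).const_smul t⁻¹
  have h2 : t⁻¹ • t • x = x := by rw [smul_smul, inv_mul_cancel₀ ht.ne', one_smul]
  have h3 : HasFDerivAt F T (t⁻¹ • t • x) := by rw [h2]; exact h
  have h4 := (HasFDerivAt.comp (t • x) h3 h1).const_smul t
  have h5 : (fun z : X => t • (F ∘ fun z : X => t⁻¹ • z) z) = F := by
    funext z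
    simp only [Function.comp]
    rw [hF.smul _ _ (inv_nonneg.2 ht.le), smul_smul, mul_inv_cancel₀ ht.ne', one_smul]
  have h6 : t • T.comp (t⁻¹ • ContinuousLinearMap.id ℝ X) = T := by
    ext v
    simp [smul_smul, mul_inv_cancel₀ ht.ne']
  have h7 : HasFDerivAt (fun z : X => t • (F ∘ fun z : X => t⁻¹ • z) z)
      (t • T.comp (t⁻¹ • ContinuousLinearMap.id ℝ X)) (t • x) := h4
  rw [h5, h6] at h7
  exact h7

theorem Good.smul (hF : HMap F) {x : X} (h : Good F x) {t : ℝ} (ht : 0 < t) :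
    Good F (t • x) where
  ne := smul_ne_zero ht.ne' h.ne
  nd := h.nd.smul ht.ne'
  df := (hF.hasFDerivAt_smul h.df.hasFDerivAt ht).differentiableAt

theorem HMap.fderiv_smul (hF : HMap F) (x : X) {t : ℝ} (ht : 0 < t) :
    fderiv ℝ F (t • x) = fderiv ℝ F x := by
  by_cases h : DifferentiableAt ℝ F x
  · exact (hF.hasFDerivAt_smul h.hasFDerivAt ht).fderiv
  · rw [fderiv_zero_of_not_differentiableAt h, fderiv_zero_of_not_differentiableAt]
    intro h'
    apply h
    have h1 := (hF.hasFDerivAt_smul h'.hasFDerivAt (inv_pos.2 ht)).differentiableAt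
    rwa [smul_smul, inv_mul_cancel₀ ht.ne', one_smul] at h1

theorem HMap.fderiv_self (hF : HMap F) {x : X} (h : Good F x) : fderiv ℝ F x x = F x := by
  have h1 : HasDerivAt (fun t : ℝ => x + t • x) x 0 := by
    have := ((hasDerivAt_id (0 : ℝ)).smul_const x).const_add x
    simpa using this
  have h0 : x + (0 : ℝ) • x = x := by simp
  have h2 : HasFDerivAt F (fderiv ℝ F x) (x + (0 : ℝ) • x) := by
    rw [h0]; exact h.df.hasFDerivAt
  have h3 : HasDerivAt (fun t : ℝ => F (x + t • x)) (fderiv ℝ F x x) 0 :=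
    h2.comp_hasDerivAt (0 : ℝ) h1
  have h4 : HasDerivAt (fun t : ℝ => (1 + t) • F x) (F x) 0 := by
    have := ((hasDerivAt_id (0 : ℝ)).const_add (1 : ℝ)).smul_const (F x)
    simpa using this
  have h5 : (fun t : ℝ => F (x + t • x)) =ᶠ[𝓝 0] fun t : ℝ => (1 + t) • F x := by
    have : ∀ᶠ t : ℝ in 𝓝 0, -1 < t := lt_mem_nhds (by norm_num)
    filter_upwards [this] with t ht
    have e : x + t • x = (1 + t) • x := by module
    rw [e, hF.smul _ _ (by linarith)]
  exact h3.unique (h4.congr_of_eventuallyEq h5)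

/-- the curve on the sphere through `x` with velocity `v` -/
noncomputable def crv (x v : X) (t : ℝ) : X := (‖x‖ / ‖x + t • v‖) • (x + t • v)

theorem crv_zero {x : X} (hx0 : x ≠ 0) (v : X) : crv x v 0 = x := by
  simp [crv, div_self (norm_ne_zero_iff.2 hx0)]

theorem norm_crv {x : X} (v : X) {t : ℝ} (h : x + t • v ≠ 0) : ‖crv x v t‖ = ‖x‖ := by
  rw [crv, norm_smul, norm_div, norm_norm, norm_norm, div_mul_cancel₀ _ (norm_ne_zero_iff.2 h)]

theorem hasDerivAt_line (x v : X) : HasDerivAt (fun t : ℝ => x + t • v) v 0 := by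
  have := ((hasDerivAt_id (0 : ℝ)).smul_const v).const_add x
  simpa using this

theorem eventually_ne_zero {x : X} (hx0 : x ≠ 0) (v : X) : ∀ᶠ t : ℝ in 𝓝 0, x + t • v ≠ 0 := by
  have hc : ContinuousAt (fun t : ℝ => x + t • v) 0 := by fun_prop
  apply hc.eventually_ne
  simpa using hx0

theorem hasDerivAt_norm_line {x : X} (hx : ND x) (v : X) :
    HasDerivAt (fun t : ℝ => ‖x + t • v‖) (J x v) 0 := by
  have h0 : x + (0 : ℝ) • v = x := by simp
  have h2 : HasFDerivAt (fun y : X => ‖y‖) (J x) (x + (0 : ℝ) • v) := by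
    rw [h0]; exact DifferentiableAt.hasFDerivAt hx
  exact h2.comp_hasDerivAt (0 : ℝ) (hasDerivAt_line x v)

theorem hasDerivAt_crv {x v : X} (hx0 : x ≠ 0) (hx : ND x) (hv : J x v = 0) :
    HasDerivAt (crv x v) v 0 := by
  have h1 := hasDerivAt_norm_line hx v
  rw [hv] at h1
  have hne : ‖x + (0 : ℝ) • v‖ ≠ 0 := by simpa using hx0
  have h2 : HasDerivAt (fun t : ℝ => ‖x‖ / ‖x + t • v‖) 0 0 := by
    have := (hasDerivAt_const (0 : ℝ) ‖x‖).fun_div h1 hne
    simpa using this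
  have h3 := h2.smul (hasDerivAt_line x v)
  have h4 : (‖x‖ / ‖x + (0 : ℝ) • v‖) • v + (0 : ℝ) • (x + (0 : ℝ) • v) = v := by
    simp [div_self (norm_ne_zero_iff.2 hx0)]
  rw [h4] at h3
  exact h3

theorem hasDerivAt_F_crv {x v : X} (h : Good F x) (hv : J x v = 0) :
    HasDerivAt (fun t => F (crv x v t)) (fderiv ℝ F x v) 0 := by
  have h2 : HasFDerivAt F (fderiv ℝ F x) (crv x v 0) := by
    rw [crv_zero h.ne]; exact h.df.hasFDerivAt
  exact h2.comp_hasDerivAt (0 : ℝ) (hasDerivAt_crv h.ne h.nd hv)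

/-- the difference quotient of a function with derivative `d` -/
theorem tendsto_quot {Z : Type*} [NormedAddCommGroup Z] [NormedSpace ℝ Z] {f : ℝ → Z} {d : Z}
    (h : HasDerivAt f d 0) : Tendsto (fun t : ℝ => t⁻¹ • (f t - f 0)) (𝓝[>] 0) (𝓝 d) := by
  have h1 := hasDerivAt_iff_tendsto_slope_zero.1 h
  have h2 : Tendsto (fun t : ℝ => t⁻¹ • (f (0 + t) - f 0)) (𝓝[>] 0) (𝓝 d) :=
    h1.mono_left (nhdsWithin_mono _ (fun t ht => (Set.mem_Ioi.1 ht).ne'))
  simpa using h2

/-- (1) tangential isometry -/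
theorem HMap.norm_fderiv (hF : HMap F) {x : X} (h : Good F x) {v : X} (hv : J x v = 0) :
    ‖fderiv ℝ F x v‖ = ‖v‖ := by
  have h1 := (tendsto_quot (hasDerivAt_crv h.ne h.nd hv)).norm
  have h2 := (tendsto_quot (hasDerivAt_F_crv h hv)).norm
  refine tendsto_nhds_unique h2 (h1.congr' ?_)
  have hev := (eventually_ne_zero h.ne v).filter_mono (nhdsWithin_le_nhds (s := Set.Ioi 0))
  filter_upwards [hev] with t ht
  rw [norm_smul, norm_smul, crv_zero h.ne, hF.norm_sub _ _ (norm_crv v ht)]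

/-- (1) every norming functional of `F x` pulls back to `J x` -/
theorem HMap.norming_comp (hF : HMap F) {x : X} (h : Good F x) {ψ : Y →L[ℝ] ℝ}
    (hψ : ∀ u, ψ u ≤ ‖u‖) (hψx : ψ (F x) = ‖x‖) (v : X) :
    ψ (fderiv ℝ F x v) = J x v := by
  have h1 : HasFDerivAt (fun z : X => ‖z‖ - ψ (F z)) (J x - ψ.comp (fderiv ℝ F x)) x :=
    (DifferentiableAt.hasFDerivAt h.nd).sub (ψ.hasFDerivAt.comp x h.df.hasFDerivAt)
  have h2 : IsLocalMin (fun z : X => ‖z‖ - ψ (F z)) x := by
    refine Filter.Eventually.of_forall fun z => ?_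
    have := hψ (F z)
    rw [hF.norm_map] at this
    simp only
    rw [hψx]
    linarith
  have h3 := h2.hasFDerivAt_eq_zero h1
  have h4 := congrArg (fun L : X →L[ℝ] ℝ => L v) h3
  simp at h4
  linarith

/-- `J x ≤ N_x` -/
theorem HMap.J_le_norm (hF : HMap F) {x : X} (h : Good F x) (v : X) :
    J x v ≤ ‖fderiv ℝ F x v‖ := by
  obtain ⟨ψ, hψ, hψx⟩ := exists_norming (F x)
  rw [hF.norm_map] at hψx
  rw [← hF.norming_comp h hψ hψx v]
  exact hψ _

theorem HMap.fderiv_injective (hF : HMap F) {x : X} (h : Good F x) :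
    Function.Injective (fderiv ℝ F x) := by
  rw [injective_iff_map_eq_zero]
  intro v hv
  have h1 := hF.J_le_norm h v
  have h2 := hF.J_le_norm h (-v)
  rw [map_neg, map_neg, norm_neg, hv, norm_zero] at h2
  rw [hv, norm_zero] at h1
  have h3 : J x v = 0 := by linarith
  have h4 := hF.norm_fderiv h h3
  rw [hv, norm_zero] at h4
  exact norm_eq_zero.1 h4.symm

/-- directional derivative of the norm of `F x - F y` along tangent directions -/
theorem HMap.tangent_deriv (hF : HMap F) {x y : X} (h : Good F x) (hxy : ‖x‖ = ‖y‖)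
    {v : X} (hv : J x v = 0) :
    Tendsto (fun t : ℝ => (‖F x - F y + t • fderiv ℝ F x v‖ - ‖x - y + t • v‖) / t)
      (𝓝[>] 0) (𝓝 0) := by
  have h1 := tendsto_quot (hasDerivAt_crv h.ne h.nd hv)
  have h2 := tendsto_quot (hasDerivAt_F_crv h hv)
  have h3 : Tendsto (fun t : ℝ => ‖t⁻¹ • (F (crv x v t) - F (crv x v 0)) - fderiv ℝ F x v‖ +
      ‖t⁻¹ • (crv x v t - crv x v 0) - v‖) (𝓝[>] 0) (𝓝 0) := by
    have h4 := (tendsto_iff_norm_sub_tendsto_zero.1 h2).add (tendsto_iff_norm_sub_tendsto_zero.1 h1)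
    simpa using h4
  refine squeeze_zero_norm' ?_ h3
  have hev := (eventually_ne_zero h.ne v).filter_mono (nhdsWithin_le_nhds (s := Set.Ioi 0))
  filter_upwards [hev, self_mem_nhdsWithin] with t ht ht0
  have ht0' : (0 : ℝ) < t := ht0
  rw [crv_zero h.ne]
  have e1 : F x - F y + t • fderiv ℝ F x v =
      (F (crv x v t) - F y) - t • (t⁻¹ • (F (crv x v t) - F x) - fderiv ℝ F x v) := by
    rw [smul_sub, smul_smul, mul_inv_cancel₀ ht0'.ne', one_smul]
    abel
  have e2 : x - y + t • v = (crv x v t - y) - t • (t⁻¹ • (crv x v t - x) - v) := by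
    rw [smul_sub, smul_smul, mul_inv_cancel₀ ht0'.ne', one_smul]
    abel
  have e3 : ‖F (crv x v t) - F y‖ = ‖crv x v t - y‖ :=
    hF.norm_sub _ _ ((norm_crv v ht).trans hxy)
  rw [norm_div, Real.norm_eq_abs, Real.norm_eq_abs, abs_of_pos ht0', div_le_iff₀ ht0', e1, e2]
  set A := t⁻¹ • (F (crv x v t) - F x) - fderiv ℝ F x v
  set B := t⁻¹ • (crv x v t - x) - v
  have i1 := abs_norm_sub_norm_le (F (crv x v t) - F y - t • A) (F (crv x v t) - F y)
  have i2 := abs_norm_sub_norm_le (crv x v t - y) (crv x v t - y - t • B)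
  have e4 : F (crv x v t) - F y - t • A - (F (crv x v t) - F y) = -(t • A) := by abel
  have e5 : crv x v t - y - (crv x v t - y - t • B) = t • B := by abel
  rw [e4, norm_neg, norm_smul, Real.norm_eq_abs, abs_of_pos ht0'] at i1
  rw [e5, norm_smul, Real.norm_eq_abs t, abs_of_pos ht0'] at i2
  rw [e3] at i1
  calc |‖F (crv x v t) - F y - t • A‖ - ‖crv x v t - y - t • B‖|
      = |(‖F (crv x v t) - F y - t • A‖ - ‖crv x v t - y‖) +
        (‖crv x v t - y‖ - ‖crv x v t - y - t • B‖)| := by congr 1; ring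
    _ ≤ |‖F (crv x v t) - F y - t • A‖ - ‖crv x v t - y‖| +
        |‖crv x v t - y‖ - ‖crv x v t - y - t • B‖| := abs_add_le _ _
    _ ≤ t * ‖A‖ + t * ‖B‖ := add_le_add i1 i2
    _ = (‖A‖ + ‖B‖) * t := by ring

/-- (2) for one point: every norming functional of `F x - F y` pulls back under `T_x` to
`J (x - y)` plus a multiple of `J x`. -/
theorem HMap.pullback (hF : HMap F) {x y : X} (h : Good F x) (hxy : ‖x‖ = ‖y‖)
    (hw : ND (x - y)) {ψ : Y →L[ℝ] ℝ} (hψ : ∀ u, ψ u ≤ ‖u‖)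
    (hψ' : ψ (F x - F y) = ‖x - y‖) (v : X) :
    ψ (fderiv ℝ F x v) = J (x - y) v + ((ψ (F x) - J (x - y) x) / ‖x‖) * J x v := by
  have hx : 0 < ‖x‖ := norm_pos_iff.2 h.ne
  have hnx : HasFDerivAt (fun z : X => ‖z‖) (J x) x := DifferentiableAt.hasFDerivAt h.nd
  set r := ‖x‖ with hr
  -- inner map
  have hA : HasFDerivAt (fun z : X => r • z - ‖z‖ • y)
      (r • ContinuousLinearMap.id ℝ X - (J x).smulRight y) x :=
    ((hasFDerivAt_id x).const_smul r).sub (hnx.smul_const y)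
  have hB : HasFDerivAt (fun z : X => r • F z - ‖z‖ • F y)
      (r • fderiv ℝ F x - (J x).smulRight (F y)) x :=
    (h.df.hasFDerivAt.const_smul r).sub (hnx.smul_const (F y))
  have hAx : r • x - ‖x‖ • y = r • (x - y) := by rw [← hr, smul_sub]
  have hNw : HasFDerivAt (fun z : X => ‖z‖) (J (x - y)) (r • x - ‖x‖ • y) := by
    rw [hAx, ← J_smul_pos (x - y) hx]
    exact DifferentiableAt.hasFDerivAt (hw.smul hx.ne')
  have hN : HasFDerivAt (fun z : X => ‖r • z - ‖z‖ • y‖)
      ((J (x - y)).comp (r • ContinuousLinearMap.id ℝ X - (J x).smulRight y)) x :=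
    HasFDerivAt.comp x hNw hA
  have hP : HasFDerivAt (fun z : X => ψ (r • F z - ‖z‖ • F y))
      (ψ.comp (r • fderiv ℝ F x - (J x).smulRight (F y))) x :=
    HasFDerivAt.comp x ψ.hasFDerivAt hB
  have hmin : IsLocalMin (fun z : X => ‖r • z - ‖z‖ • y‖ - ψ (r • F z - ‖z‖ • F y)) x := by
    refine Filter.Eventually.of_forall fun z => ?_
    have h1 := hψ (r • F z - ‖z‖ • F y)
    have h2 := hF.cross_sub z y
    rw [← hxy] at h2
    rw [h2] at h1
    have h3 : ‖r • x - ‖x‖ • y‖ - ψ (r • F x - ‖x‖ • F y) = 0 := by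
      rw [hAx, ← hr, ← smul_sub, map_smul, hψ', norm_smul, norm_norm, smul_eq_mul, sub_self]
    simp only
    rw [h3]
    linarith
  have h3 := hmin.hasFDerivAt_eq_zero (hN.sub hP)
  have h4 := congrArg (fun L : X →L[ℝ] ℝ => L v) h3
  simp at h4
  have h5 : ψ (F y) = ψ (F x) - ‖x - y‖ := by rw [map_sub] at hψ'; linarith
  have h6 : J (x - y) y = J (x - y) x - ‖x - y‖ := by
    have := J_self hw
    rw [map_sub] at this
    linarith
  rw [h5, h6] at h4
  field_simp
  linarith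

/-- (2) the constants at the two end points agree -/
theorem HMap.const_eq {x y : X} (hw : ND (x - y)) {ψ : Y →L[ℝ] ℝ}
    (hψ' : ψ (F x - F y) = ‖x - y‖) :
    ψ (F x) - J (x - y) x = ψ (F y) - J (x - y) y := by
  have := J_self hw
  rw [map_sub] at this hψ'
  linarith

end Vale.Agent.P084.T
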