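import Vale.Agent.P084.T.Integ

/-!
# Module E, preparation: the splitting `X = ℝ e ⊕ ker j` and Haar measure
-/

namespace Vale.Agent.P084.T

open MeasureTheory Filter Topology Set

variable {X : Type*} [NormedAddCommGroup X] [NormedSpace ℝ X] [FiniteDimensional ℝ X]

/-- the kernel of `j` -/
abbrev KJ (j : X →L[ℝ] ℝ) : Submodule ℝ X := LinearMap.ker (j : X →ₗ[ℝ] ℝ)

omit [FiniteDimensional ℝ X] in
theorem j_coe {j : X →L[ℝ] ℝ} (z : KJ j) : j (z : X) = 0 := z.2

/-- the splitting as a linear equivalence -/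
noncomputable def splitL (j : X →L[ℝ] ℝ) (e : X) (he : j e = 1) : (ℝ × KJ j) ≃ₗ[ℝ] X where
  toFun q := q.1 • e + (q.2 : X)
  invFun w := (j w, ⟨w - j w • e, by simp [he]⟩)
  map_add' q r := by
    simp only [Prod.fst_add, Prod.snd_add, Submodule.coe_add]
    module
  map_smul' t q := by
    simp only [Prod.smul_fst, Prod.smul_snd, Submodule.coe_smul, RingHom.id_apply, smul_add,
      smul_smul, smul_eq_mul]
  left_inv q := by
    have h := j_coe q.2
    ext
    · simp [he, h]
    · simp [he, h]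
  right_inv w := by simp

noncomputable def splitC (j : X →L[ℝ] ℝ) (e : X) (he : j e = 1) : (ℝ × KJ j) ≃L[ℝ] X :=
  (splitL j e he).toContinuousLinearEquiv

theorem splitC_apply (j : X →L[ℝ] ℝ) (e : X) (he : j e = 1) (q : ℝ × KJ j) :
    splitC j e he q = q.1 • e + (q.2 : X) := rfl

variable [MeasurableSpace X] [BorelSpace X]

/-- Haar measure in the coordinates of the splitting -/
theorem exists_split (μ : Measure X) [μ.IsAddHaarMeasure] {j : X →L[ℝ] ℝ} {e : X}
    (he : j e = 1) : ∃ κ : ℝ, 0 < κ ∧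
      (∀ g : X → ℝ, ∫ w, g w ∂μ = κ * ∫ q : ℝ × KJ j, g (q.1 • e + (q.2 : X))
        ∂((volume : Measure ℝ).prod (Measure.addHaar : Measure (KJ j)))) ∧
      (∀ g : X → ℝ, Integrable g μ → Integrable (fun q : ℝ × KJ j => g (q.1 • e + (q.2 : X)))
        ((volume : Measure ℝ).prod (Measure.addHaar : Measure (KJ j)))) ∧
      (∀ p : X → Prop, (∀ᵐ w ∂μ, p w) → ∀ᵐ q : ℝ × KJ j
        ∂((volume : Measure ℝ).prod (Measure.addHaar : Measure (KJ j))),
        p (q.1 • e + (q.2 : X))) := by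
  set ρ := (volume : Measure ℝ).prod (Measure.addHaar : Measure (KJ j)) with hρ
  set Ψ := splitC j e he with hΨ
  have hemb : MeasurableEmbedding Ψ := Ψ.toHomeomorph.measurableEmbedding
  have hH : (ρ.map Ψ).IsAddHaarMeasure := Ψ.isAddHaarMeasure_map ρ
  have hk0 := Measure.addHaarScalarFactor_pos_of_isAddHaarMeasure μ (ρ.map Ψ)
  have hμ := Measure.isAddLeftInvariant_eq_smul μ (ρ.map Ψ)
  set k := Measure.addHaarScalarFactor μ (ρ.map Ψ) with hk
  refine ⟨k, hk0, ?_, ?_, ?_⟩
  · intro g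
    rw [hμ, integral_smul_nnreal_measure, hemb.integral_map]
    rfl
  · intro g hg
    rw [hμ] at hg
    have h1 : Integrable g (ρ.map Ψ) := by
      exact (integrable_smul_measure (μ := ρ.map Ψ) (f := g) (c := (k : ENNReal))
        (by simpa using hk0.ne') (by simp)).1 hg
    exact hemb.integrable_map_iff.1 h1
  · intro p hp
    rw [hμ] at hp
    have h1 : ∀ᵐ w ∂(ρ.map Ψ), p w := by
      exact (Measure.ae_ennreal_smul_measure_iff (c := (k : ENNReal)) (by simpa using hk0.ne')).1 hp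
    exact hemb.ae_map_iff.1 h1

end Vale.Agent.P084.T
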