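import Vale.Agent.P084.T.PLeq
import Vale.Agent.P084.T.AStep
import Vale.Agent.P084.T.Split

/-!
# Module E: the inequality for a pair of norms with a common hyperplane section
-/

namespace Vale.Agent.P084.T

open MeasureTheory Filter Topology Set

/-- Two norms `‖·‖` and `N1` on `X` which agree on `ker j`, with common support functional `j` at
`e` (`j e = 1`, `‖e‖ = 1 = N1 e`, `j ≤ ‖·‖`, `j ≤ N1`).  `p w` is a norming functional of `w`
(for a.e. `w`) and `c` is a bounded function with `p w v + c w * j v ≤ N1 v`. -/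
structure PairData {X : Type*} [NormedAddCommGroup X] [NormedSpace ℝ X]
    [MeasurableSpace X] (μ : Measure X) (j : X →L[ℝ] ℝ) (e : X) (N1 : X → ℝ)
    (p : X → X →L[ℝ] ℝ) (c : X → ℝ) : Prop where
  je : j e = 1
  ne : ‖e‖ = 1
  jle : ∀ v, j v ≤ ‖v‖
  n1cont : Continuous N1
  n1smul : ∀ (t : ℝ) v, N1 (t • v) = |t| * N1 v
  n1add : ∀ u v, N1 (u + v) ≤ N1 u + N1 v
  n1e : N1 e = 1
  n1eq : ∀ v, j v = 0 → N1 v = ‖v‖
  jle1 : ∀ v, j v ≤ N1 v
  pmeas : Measurable p
  pnorm : ∀ w v, p w v ≤ ‖v‖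
  pself : ∀ᵐ w ∂μ, p w w = ‖w‖
  cmeas : Measurable c
  cbdd : ∃ K, ∀ w, |c w| ≤ K
  dagger : ∀ᵐ w ∂μ, 0 < j w → ∀ v, p w v + c w * j v ≤ N1 v

section NN
variable {X : Type*} [NormedAddCommGroup X] [NormedSpace ℝ X] {j : X →L[ℝ] ℝ} {e : X} {N : X → ℝ}

/-- a norm `N` on `X` agreeing with `‖·‖` on `ker j`, with support functional `j` at `e` -/
structure NN (j : X →L[ℝ] ℝ) (e : X) (N : X → ℝ) : Prop where
  je : j e = 1
  cont : Continuous N
  smul : ∀ (t : ℝ) v, N (t • v) = |t| * N v
  add : ∀ u v, N (u + v) ≤ N u + N v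
  eN : N e = 1
  eq : ∀ v, j v = 0 → N v = ‖v‖
  jle : ∀ v, j v ≤ N v

theorem NN.upper (h : NN j e N) (a : ℝ) (z : KJ j) : N (a • e + (z : X)) ≤ |a| + ‖z‖ := by
  have h1 := h.add (a • e) z
  rw [h.smul, h.eN, mul_one, h.eq _ (j_coe z)] at h1
  exact h1

theorem NN.lower' (h : NN j e N) (a : ℝ) (z : KJ j) : ‖z‖ - |a| ≤ N (a • e + (z : X)) := by
  have h1 := h.add (a • e + (z : X)) ((-a) • e)
  have h2 : a • e + (z : X) + (-a) • e = z := by module
  rw [h.smul, h.eN, mul_one, abs_neg, h2, h.eq _ (j_coe z)] at h1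
  have : ‖z‖ = ‖(z : X)‖ := rfl
  linarith

theorem NN.lower (h : NN j e N) {a : ℝ} (ha : 0 ≤ a) (z : KJ j) :
    a / 2 + ‖z‖ / 4 ≤ N (a • e + (z : X)) := by
  have h1 := h.lower' a z
  have h2 := h.jle (a • e + (z : X))
  rw [map_add, map_smul, h.je, j_coe, abs_of_nonneg ha] at *
  simp only [smul_eq_mul] at h2
  linarith

theorem NN.contSlice (h : NN j e N) (a : ℝ) : Continuous (fun z : KJ j => N (a • e + (z : X))) :=
  h.cont.comp (by fun_prop)

theorem NN.linV (h : NN j e N) (a : ℝ) : LinV (fun z : KJ j => N (a • e + (z : X))) where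
  cont := h.contSlice a
  lower := ⟨1, |a|, one_pos, fun z => by rw [one_mul]; exact h.lower' a z⟩
  upper := ⟨1, |a|, one_pos, fun z => by
    have := h.upper a z
    linarith⟩

variable [FiniteDimensional ℝ X] [MeasurableSpace X] [BorelSpace X]

theorem NN.integrable (h : NN j e N) (a : ℝ) :
    Integrable (fun z : KJ j => Real.exp (-N (a • e + (z : X)))) Measure.addHaar := by
  have h1 := (integrable_exp_norm (Measure.addHaar : Measure (KJ j))).const_mul (Real.exp |a|)
  refine h1.mono' (h.contSlice a).neg.rexp.aestronglyMeasurable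
    (Eventually.of_forall fun z => ?_)
  rw [Real.norm_eq_abs, Real.abs_exp, ← Real.exp_add]
  apply Real.exp_le_exp.2
  linarith [h.lower' a z]

/-- slice integral -/
noncomputable def MM (j : X →L[ℝ] ℝ) (e : X) (N : X → ℝ) (a : ℝ) : ℝ :=
  ∫ z : KJ j, Real.exp (-N (a • e + (z : X))) ∂Measure.addHaar

theorem NN.MM_pos (h : NN j e N) (a : ℝ) : 0 < MM j e N a := integral_exp_pos (h.integrable a)

theorem NN.mdata (h : NN j e N) : MData (MM j e N) where
  cont := by
    apply Continuous.continuousOn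
    rw [continuous_iff_continuousAt]
    intro a0
    have h1 := (integrable_exp_norm (Measure.addHaar : Measure (KJ j))).const_mul
      (Real.exp (|a0| + 1))
    refine continuousAt_of_dominated (bound := fun z : KJ j => Real.exp (|a0| + 1) *
      Real.exp (-‖z‖)) ?_ ?_ h1 ?_
    · exact Eventually.of_forall fun a => (h.contSlice a).neg.rexp.aestronglyMeasurable
    · have : ∀ᶠ a in 𝓝 a0, |a - a0| < 1 := by
        have h2 : Tendsto (fun a => |a - a0|) (𝓝 a0) (𝓝 |a0 - a0|) := by
          apply Continuous.tendsto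
          fun_prop
        rw [sub_self, abs_zero] at h2
        exact h2.eventually (gt_mem_nhds one_pos)
      filter_upwards [this] with a ha
      refine Eventually.of_forall fun z => ?_
      rw [Real.norm_eq_abs, Real.abs_exp, ← Real.exp_add]
      apply Real.exp_le_exp.2
      have h3 : |a| ≤ |a0| + 1 := by
        have := abs_add_le (a - a0) a0
        rw [sub_add_cancel] at this
        linarith
      linarith [h.lower' a z]
    · refine Eventually.of_forall fun z => ?_
      apply Continuous.continuousAt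
      exact (h.cont.comp (by fun_prop)).neg.rexp
  pos a _ := h.MM_pos a
  upper := by
    have h1 : Integrable (fun z : KJ j => Real.exp (-(‖z‖ / 4))) Measure.addHaar := by
      have h2 := (integrable_exp_norm (Measure.addHaar : Measure (KJ j))).comp_smul
        (R := (1 / 4 : ℝ)) (by norm_num)
      refine h2.congr (Eventually.of_forall fun z => ?_)
      simp only
      rw [norm_smul]
      norm_num
      ring
    refine ⟨∫ z : KJ j, Real.exp (-(‖z‖ / 4)) ∂Measure.addHaar, 1 / 2, by norm_num, fun a ha => ?_⟩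
    rw [← integral_mul_const]
    refine integral_mono (h.integrable a) (h1.mul_const _) fun z => ?_
    simp only
    rw [← Real.exp_add]
    apply Real.exp_le_exp.2
    linarith [h.lower ha z]

end NN


section slice
variable {X : Type*} [NormedAddCommGroup X] [NormedSpace ℝ X] [FiniteDimensional ℝ X]
  [MeasurableSpace X] [BorelSpace X] {j : X →L[ℝ] ℝ} {e : X} {p : X → X →L[ℝ] ℝ}

theorem measurable_slicePt (j : X →L[ℝ] ℝ) (e : X) (a : ℝ) :
    Measurable (fun z : KJ j => a • e + (z : X)) :=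
  Continuous.measurable (by fun_prop)

/-- weighted slice integral -/
noncomputable def SL (j : X →L[ℝ] ℝ) (e : X) (g : X → ℝ) (a : ℝ) : ℝ :=
  ∫ z : KJ j, g (a • e + (z : X)) * Real.exp (-‖a • e + (z : X)‖) ∂Measure.addHaar

theorem SL_measurable {g : X → ℝ} (hg : Measurable g) : Measurable (SL j e g) := by
  have h1 : Measurable (fun q : ℝ × KJ j => g (q.1 • e + (q.2 : X)) *
      Real.exp (-‖q.1 • e + (q.2 : X)‖)) := by
    have h2 : Measurable (fun q : ℝ × KJ j => q.1 • e + (q.2 : X)) :=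
      Continuous.measurable (by fun_prop)
    exact (hg.comp h2).mul (by fun_prop)
  exact (StronglyMeasurable.integral_prod_right' (ν := (Measure.addHaar : Measure (KJ j)))
    h1.stronglyMeasurable).measurable

theorem SL_integrable (h0 : NN j e (fun v => ‖v‖)) {g : X → ℝ} (hg : Measurable g) {K : ℝ}
    (hK : ∀ w, |g w| ≤ K) (a : ℝ) :
    Integrable (fun z : KJ j => g (a • e + (z : X)) * Real.exp (-‖a • e + (z : X)‖))
      Measure.addHaar :=
  (h0.integrable a).bdd_mul (hg.comp (measurable_slicePt j e a)).aestronglyMeasurable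
    (Eventually.of_forall fun z => by rw [Real.norm_eq_abs]; exact hK _)

theorem SL_bound (h0 : NN j e (fun v => ‖v‖)) {g : X → ℝ} {K : ℝ}
    (hK : ∀ w, |g w| ≤ K) (a : ℝ) : |SL j e g a| ≤ K * MM j e (fun v => ‖v‖) a := by
  rw [← Real.norm_eq_abs, SL, MM, ← integral_const_mul]
  refine norm_integral_le_of_norm_le ((h0.integrable a).const_mul K)
    (Eventually.of_forall fun z => ?_)
  rw [Real.norm_eq_abs, abs_mul, Real.abs_exp]
  exact mul_le_mul_of_nonneg_right (hK _) (Real.exp_pos _).le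

/-- the data for Prekopa-Leindler on the slices `a` and `b` -/
structure SliceData (j : X →L[ℝ] ℝ) (e : X) (N : X → ℝ) (p : X → X →L[ℝ] ℝ) (C : X → ℝ)
    (a b : ℝ) : Prop where
  nn0 : NN j e (fun v => ‖v‖)
  nn1 : NN j e N
  pmeas : Measurable p
  pnorm : ∀ w v, p w v ≤ ‖v‖
  cmeas : Measurable C
  cbdd : ∃ K, ∀ w, |C w| ≤ K
  self : ∀ᵐ z : KJ j ∂Measure.addHaar, p (a • e + (z : X)) (a • e + (z : X)) = ‖a • e + (z : X)‖
  dag : ∀ᵐ z : KJ j ∂Measure.addHaar, ∀ y : KJ j,
    p (a • e + (z : X)) (b • e + (y : X)) + C (a • e + (z : X)) ≤ N (b • e + (y : X))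

theorem abs_p_le (hp : ∀ w v, p w v ≤ ‖v‖) (w v : X) : |p w v| ≤ ‖v‖ := by
  rw [abs_le]
  have h1 := hp w v
  have h2 := hp w (-v)
  rw [map_neg, norm_neg] at h2
  constructor <;> linarith

theorem measurable_p_apply (hp : Measurable p) (v : X) : Measurable (fun w => p w v) := by
  have h1 : Continuous (fun L : X →L[ℝ] ℝ => L v) := by fun_prop
  exact h1.measurable.comp hp

theorem SliceData.pmeas' {N : X → ℝ} {C : X → ℝ} {a b : ℝ} (h : SliceData j e N p C a b) :
    Measurable (fun z : KJ j => (p (a • e + (z : X))).comp (KJ j).subtypeL) := by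
  have h1 : Continuous (fun L : X →L[ℝ] ℝ => L.comp (KJ j).subtypeL) := by fun_prop
  exact h1.measurable.comp (h.pmeas.comp (measurable_slicePt j e a))

theorem SliceData.pbdd' {N : X → ℝ} {C : X → ℝ} {a b : ℝ} (h : SliceData j e N p C a b)
    (z : KJ j) : ‖(p (a • e + (z : X))).comp (KJ j).subtypeL‖ ≤ 1 := by
  refine ContinuousLinearMap.opNorm_le_bound _ zero_le_one fun v => ?_
  rw [one_mul, Real.norm_eq_abs]
  exact abs_p_le h.pnorm _ _

theorem SliceData.cmeas' {N : X → ℝ} {C : X → ℝ} {a b : ℝ} (h : SliceData j e N p C a b) :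
    Measurable (fun z : KJ j => C (a • e + (z : X)) + (b - a) * p (a • e + (z : X)) e) :=
  (h.cmeas.comp (measurable_slicePt j e a)).add
    (((measurable_p_apply h.pmeas e).comp (measurable_slicePt j e a)).const_mul _)

theorem SliceData.cbdd' {N : X → ℝ} {C : X → ℝ} {a b : ℝ} (h : SliceData j e N p C a b) :
    ∃ K, ∀ z : KJ j, |C (a • e + (z : X)) + (b - a) * p (a • e + (z : X)) e| ≤ K := by
  obtain ⟨K, hK⟩ := h.cbdd
  refine ⟨K + |b - a| * ‖e‖, fun z => ?_⟩
  refine (abs_add_le _ _).trans (add_le_add (hK _) ?_)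
  rw [abs_mul]
  exact mul_le_mul_of_nonneg_left (abs_p_le h.pnorm _ _) (abs_nonneg _)

theorem SliceData.s0 {N : X → ℝ} {C : X → ℝ} {a b : ℝ} (h : SliceData j e N p C a b) :
    ∀ᵐ z : KJ j ∂Measure.addHaar, ∀ y : KJ j, ‖a • e + (z : X)‖ +
      ((p (a • e + (z : X))).comp (KJ j).subtypeL) (y - z) ≤ ‖a • e + (y : X)‖ := by
  filter_upwards [h.self] with z hz y
  rw [← hz]
  have h1 := h.pnorm (a • e + (z : X)) (a • e + (y : X))
  have h2 : a • e + (y : X) = (a • e + (z : X)) + ((y - z : KJ j) : X) := by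
    push_cast
    module
  have h3 : p (a • e + (z : X)) (a • e + (y : X)) = p (a • e + (z : X)) (a • e + (z : X)) +
      p (a • e + (z : X)) ((y - z : KJ j) : X) := by
    conv_lhs => rw [h2]
    rw [map_add]
  rw [h3] at h1
  exact h1

theorem SliceData.s1 {N : X → ℝ} {C : X → ℝ} {a b : ℝ} (h : SliceData j e N p C a b) :
    ∀ᵐ z : KJ j ∂Measure.addHaar, ∀ y : KJ j, ‖a • e + (z : X)‖ +
      (C (a • e + (z : X)) + (b - a) * p (a • e + (z : X)) e) +
      ((p (a • e + (z : X))).comp (KJ j).subtypeL) (y - z) ≤ N (b • e + (y : X)) := by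
  filter_upwards [h.self, h.dag] with z hz hd y
  rw [← hz]
  refine le_trans (le_of_eq ?_) (hd y)
  have h2 : b • e + (y : X) = (a • e + (z : X)) + ((b - a) • e + ((y - z : KJ j) : X)) := by
    push_cast
    module
  have h3 : p (a • e + (z : X)) (b • e + (y : X)) = p (a • e + (z : X)) (a • e + (z : X)) +
      ((b - a) * p (a • e + (z : X)) e + p (a • e + (z : X)) ((y - z : KJ j) : X)) := by
    conv_lhs => rw [h2]
    simp only [map_add, map_smul, smul_eq_mul]
  rw [h3]
  have h4 : ((p (a • e + (z : X))).comp (KJ j).subtypeL) (y - z) =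
    p (a • e + (z : X)) ((y - z : KJ j) : X) := rfl
  rw [h4]
  ring

theorem SliceData.int_eq {N : X → ℝ} {C : X → ℝ} {a b : ℝ} (h : SliceData j e N p C a b) :
    ∫ z : KJ j, (C (a • e + (z : X)) + (b - a) * p (a • e + (z : X)) e) *
      Real.exp (-‖a • e + (z : X)‖) ∂Measure.addHaar =
    SL j e C a + (b - a) * SL j e (fun w => p w e) a := by
  obtain ⟨K, hK⟩ := h.cbdd
  have i1 := SL_integrable h.nn0 h.cmeas hK a
  have i2 := SL_integrable h.nn0 (measurable_p_apply h.pmeas e)
    (fun w => abs_p_le h.pnorm w e) a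
  rw [SL, SL, ← integral_const_mul, ← integral_add i1 (i2.const_mul _)]
  congr 1
  funext z
  ring

theorem SliceData.ineq {N : X → ℝ} {C : X → ℝ} {a b : ℝ} (h : SliceData j e N p C a b) :
    SL j e C a + (b - a) * SL j e (fun w => p w e) a ≤
      MM j e (fun v => ‖v‖) a * Real.log (MM j e (fun v => ‖v‖) a / MM j e N b) := by
  have := pl_ineq (Measure.addHaar : Measure (KJ j)) (h.nn0.linV a) (h.nn1.linV b) h.pmeas'
    ⟨1, h.pbdd'⟩ h.cmeas' h.cbdd' h.s0 h.s1
  rw [h.int_eq] at this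
  exact this

theorem SliceData.eq {N : X → ℝ} {C : X → ℝ} {a b : ℝ} (h : SliceData j e N p C a b)
    (heq : SL j e C a + (b - a) * SL j e (fun w => p w e) a =
      MM j e (fun v => ‖v‖) a * Real.log (MM j e (fun v => ‖v‖) a / MM j e N b)) :
    ∃ m : KJ j, ∀ z : KJ j, N (b • e + ((z + m : KJ j) : X)) = ‖a • e + (z : X)‖ +
      Real.log (MM j e (fun v => ‖v‖) a / MM j e N b) := by
  exact pl_eq (Measure.addHaar : Measure (KJ j)) (h.nn0.linV a) (h.nn1.linV b) h.pmeas'
    ⟨1, h.pbdd'⟩ h.cmeas' h.cbdd' h.s0 h.s1 (by rw [h.int_eq]; exact heq)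

end slice

section pair
variable {X : Type*} [NormedAddCommGroup X] [NormedSpace ℝ X] [FiniteDimensional ℝ X]
    [MeasurableSpace X] [BorelSpace X] {μ : Measure X}
    {j : X →L[ℝ] ℝ} {e : X} {N1 : X → ℝ} {p : X → X →L[ℝ] ℝ} {c : X → ℝ}

theorem PairData.nn0 (h : PairData μ j e N1 p c) : NN j e (fun v => ‖v‖) where
  je := h.je
  cont := continuous_norm
  smul t v := by rw [norm_smul, Real.norm_eq_abs]
  add := norm_add_le
  eN := h.ne
  eq _ _ := rfl
  jle := h.jle

theorem PairData.nn1 (h : PairData μ j e N1 p c) : NN j e N1 where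
  je := h.je
  cont := h.n1cont
  smul := h.n1smul
  add := h.n1add
  eN := h.n1e
  eq := h.n1eq
  jle := h.jle1

variable [μ.IsAddHaarMeasure]

/-- a.e. slice carries data for the comparison of `‖·‖` with itself and with `N1` -/
theorem PairData.ae_slice (h : PairData μ j e N1 p c) :
    ∀ᵐ a : ℝ, (∀ b : ℝ, SliceData j e (fun v => ‖v‖) p (fun _ => 0) a b) ∧
      (0 < a → ∀ b : ℝ, SliceData j e N1 p (fun w => b * c w) a b) := by
  obtain ⟨κ, hκ, -, -, hae⟩ := exists_split μ h.je
  have h1 := Measure.ae_ae_of_ae_prod (hae _ h.pself)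
  have h2 := Measure.ae_ae_of_ae_prod (hae _ h.dagger)
  obtain ⟨K, hK⟩ := h.cbdd
  filter_upwards [h1, h2] with a ha1 ha2
  refine ⟨fun b => ?_, fun ha b => ?_⟩
  · exact
      { nn0 := h.nn0, nn1 := h.nn0, pmeas := h.pmeas, pnorm := h.pnorm
        cmeas := measurable_const, cbdd := ⟨0, fun w => by simp⟩, self := ha1
        dag := by
          filter_upwards [ha1] with z hz y
          rw [add_zero]
          exact h.pnorm _ _ }
  · exact
      { nn0 := h.nn0, nn1 := h.nn1, pmeas := h.pmeas, pnorm := h.pnorm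
        cmeas := h.cmeas.const_mul b
        cbdd := ⟨|b| * K, fun w => by
          rw [abs_mul]
          exact mul_le_mul_of_nonneg_left (hK w) (abs_nonneg _)⟩
        self := ha1
        dag := by
          filter_upwards [ha2] with z hz y
          have e1 : j (a • e + (z : X)) = a := by
            rw [map_add, map_smul, h.je, j_coe, smul_eq_mul, mul_one, add_zero]
          have e2 : j (b • e + (y : X)) = b := by
            rw [map_add, map_smul, h.je, j_coe, smul_eq_mul, mul_one, add_zero]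
          have := hz (by rw [e1]; exact ha) (b • e + (y : X))
          rw [e2] at this
          linarith }

/-- integration over the half space -/
theorem exists_half (μ : Measure X) [μ.IsAddHaarMeasure] {j : X →L[ℝ] ℝ} {e : X}
    (he : j e = 1) : ∃ κ : ℝ, 0 < κ ∧ ∀ g : X → ℝ, Integrable g μ →
      ∫ w in {w | 0 < j w}, g w ∂μ =
        κ * ∫ a in Ioi (0 : ℝ), ∫ z : KJ j, g (a • e + (z : X)) ∂Measure.addHaar := by
  obtain ⟨κ, hκ, hint, hinteg, -⟩ := exists_split μ he
  refine ⟨κ, hκ, fun g hg => ?_⟩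
  have hm1 : MeasurableSet {w : X | 0 < j w} := measurableSet_lt measurable_const (by fun_prop)
  rw [← integral_indicator hm1, hint, integral_prod _ (hinteg _ (hg.indicator hm1)),
    ← integral_indicator measurableSet_Ioi]
  congr 2
  funext a
  have hj : ∀ z : KJ j, j (a • e + (z : X)) = a := fun z => by
    rw [map_add, map_smul, he, j_coe, smul_eq_mul, mul_one, add_zero]
  by_cases ha : 0 < a
  · rw [indicator_of_mem (by exact ha)]
    congr 1
    funext z
    rw [indicator_of_mem]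
    simp only [Set.mem_ofPred_eq, hj]
    exact ha
  · rw [indicator_of_notMem (by exact ha), integral_eq_zero_of_ae]
    refine Eventually.of_forall fun z => ?_
    simp only [Pi.zero_apply]
    rw [indicator_of_notMem]
    simp only [Set.mem_ofPred_eq, hj]
    exact ha

theorem PairData.integrable0 (h : PairData μ j e N1 p c) :
    Integrable (fun w => Real.exp (-‖w‖)) μ := integrable_exp_norm μ

/-- `N1` is bounded below by a multiple of the norm -/
theorem PairData.n1_lower (h : PairData μ j e N1 p c) (w : X) : ‖w‖ / 5 ≤ N1 w := by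
  have h1 := h.jle1 w
  have h2 := h.jle1 (-w)
  have hneg : N1 (-w) = N1 w := by
    have := h.n1smul (-1) w
    simpa using this
  rw [map_neg, hneg] at h2
  have habs : |j w| ≤ N1 w := abs_le.2 ⟨by linarith, h1⟩
  have h3 : j (w - j w • e) = 0 := by rw [map_sub, map_smul, h.je]; simp
  have h4 := h.n1add w ((-j w) • e)
  have h5 : w + (-j w) • e = w - j w • e := by module
  rw [h5, h.n1eq _ h3, h.n1smul, h.n1e, mul_one, abs_neg] at h4
  have h6 : ‖w‖ ≤ ‖w - j w • e‖ + ‖j w • e‖ := by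
    have := norm_add_le (w - j w • e) (j w • e)
    rwa [sub_add_cancel] at this
  rw [norm_smul, h.ne, mul_one, Real.norm_eq_abs] at h6
  linarith [abs_nonneg (j w)]

theorem PairData.integrable1 (h : PairData μ j e N1 p c) :
    Integrable (fun w => Real.exp (-N1 w)) μ := by
  have h1 := (integrable_exp_norm μ).comp_smul (R := (1 / 5 : ℝ)) (by norm_num)
  refine h1.mono' h.n1cont.neg.rexp.aestronglyMeasurable (Eventually.of_forall fun z => ?_)
  rw [Real.norm_eq_abs, Real.abs_exp]
  apply Real.exp_le_exp.2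
  have := h.n1_lower z
  rw [norm_smul]
  norm_num
  linarith

theorem PairData.integrable2 (h : PairData μ j e N1 p c) :
    Integrable (fun w => c w * j w * Real.exp (-‖w‖)) μ := by
  obtain ⟨K, hK⟩ := h.cbdd
  refine ((integrable_norm_exp_norm μ).const_mul K).mono'
    ((h.cmeas.mul (by fun_prop)).mul (by fun_prop)).aestronglyMeasurable
    (Eventually.of_forall fun w => ?_)
  rw [Real.norm_eq_abs, abs_mul, abs_mul, Real.abs_exp, ← mul_assoc]
  have h2 : |j w| ≤ ‖w‖ := by
    rw [abs_le]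
    have h3 := h.jle w
    have h4 := h.jle (-w)
    rw [map_neg, norm_neg] at h4
    constructor <;> linarith
  have h3 := hK w
  have h4 : 0 ≤ K := (abs_nonneg _).trans h3
  gcongr

theorem PairData.a_hyps (h : PairData μ j e N1 p c) :
    (∃ K, ∀ a, 0 < a → |SL j e c a| ≤ K * MM j e (fun v => ‖v‖) a) ∧
    (∃ K, ∀ a, 0 < a → |SL j e (fun w => p w e) a| ≤ K * MM j e (fun v => ‖v‖) a) ∧
    (∀ᵐ a, 0 < a → ∀ b, 0 < b → (b - a) * SL j e (fun w => p w e) a ≤
      MM j e (fun v => ‖v‖) a * Real.log (MM j e (fun v => ‖v‖) a / MM j e (fun v => ‖v‖) b)) ∧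
    (∀ᵐ a, 0 < a → ∀ b, 0 < b → b * SL j e c a + (b - a) * SL j e (fun w => p w e) a ≤
      MM j e (fun v => ‖v‖) a * Real.log (MM j e (fun v => ‖v‖) a / MM j e N1 b)) := by
  obtain ⟨K, hK⟩ := h.cbdd
  refine ⟨⟨K, fun a _ => SL_bound h.nn0 hK a⟩,
    ⟨‖e‖, fun a _ => SL_bound h.nn0 (fun w => abs_p_le h.pnorm w e) a⟩, ?_, ?_⟩
  · filter_upwards [h.ae_slice] with a ha _ b _
    have h1 := (ha.1 b).ineq
    have h2 : SL j e (fun _ => 0) a = 0 := by simp [SL]
    rw [h2, zero_add] at h1
    exact h1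
  · filter_upwards [h.ae_slice] with a ha ha0 b _
    have h1 := (ha.2 ha0 b).ineq
    have h2 : SL j e (fun w => b * c w) a = b * SL j e c a := by
      rw [SL, SL, ← integral_const_mul]
      congr 1
      funext z
      ring
    rw [h2] at h1
    exact h1

/-- the three integrals in slices -/
theorem PairData.slices (h : PairData μ j e N1 p c) : ∃ κ : ℝ, 0 < κ ∧
    (∫ w in {w | 0 < j w}, c w * j w * Real.exp (-‖w‖) ∂μ =
      κ * ∫ a in Ioi (0 : ℝ), a * SL j e c a) ∧
    (∫ w in {w | 0 < j w}, Real.exp (-‖w‖) ∂μ =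
      κ * ∫ a in Ioi (0 : ℝ), MM j e (fun v => ‖v‖) a) ∧
    (∫ w in {w | 0 < j w}, Real.exp (-N1 w) ∂μ = κ * ∫ a in Ioi (0 : ℝ), MM j e N1 a) := by
  obtain ⟨κ, hκ, hint⟩ := exists_half μ h.je
  refine ⟨κ, hκ, ?_, hint _ h.integrable0, hint _ h.integrable1⟩
  rw [hint _ h.integrable2]
  congr 2
  funext a
  rw [SL, ← integral_const_mul]
  congr 1
  funext z
  have hj : j (a • e + (z : X)) = a := by
    rw [map_add, map_smul, h.je, j_coe, smul_eq_mul, mul_one, add_zero]
  rw [hj]
  ring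

/-- the key inequality -/
theorem norm_pair_le {X : Type*} [NormedAddCommGroup X] [NormedSpace ℝ X] [FiniteDimensional ℝ X]
    [MeasurableSpace X] [BorelSpace X] (μ : Measure X) [μ.IsAddHaarMeasure]
    {j : X →L[ℝ] ℝ} {e : X} {N1 : X → ℝ} {p : X → X →L[ℝ] ℝ} {c : X → ℝ}
    (h : PairData μ j e N1 p c) :
    ∫ w in {w | 0 < j w}, c w * j w * Real.exp (-‖w‖) ∂μ ≤
      (∫ w in {w | 0 < j w}, Real.exp (-‖w‖) ∂μ) *
      ((∫ w in {w | 0 < j w}, Real.exp (-‖w‖) ∂μ) /
        (∫ w in {w | 0 < j w}, Real.exp (-N1 w) ∂μ) - 1) := by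
  obtain ⟨κ, hκ, e1, e2, e3⟩ := h.slices
  obtain ⟨b1, b2, b3, b4⟩ := h.a_hyps
  rw [e1, e2, e3, mul_div_mul_left _ _ hκ.ne', mul_assoc]
  refine mul_le_mul_of_nonneg_left ?_ hκ.le
  exact a_step h.nn0.mdata h.nn1.mdata (SL_measurable h.cmeas) b1
    (SL_measurable (measurable_p_apply h.pmeas e)) b2 b3 b4

/-- equality in the key inequality: `N1` is `‖·‖` composed with a shear. -/
theorem norm_pair_eq {X : Type*} [NormedAddCommGroup X] [NormedSpace ℝ X] [FiniteDimensional ℝ X]
    [MeasurableSpace X] [BorelSpace X] (μ : Measure X) [μ.IsAddHaarMeasure]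
    {j : X →L[ℝ] ℝ} {e : X} {N1 : X → ℝ} {p : X → X →L[ℝ] ℝ} {c : X → ℝ}
    (h : PairData μ j e N1 p c)
    (heq : ∫ w in {w | 0 < j w}, c w * j w * Real.exp (-‖w‖) ∂μ =
      (∫ w in {w | 0 < j w}, Real.exp (-‖w‖) ∂μ) *
      ((∫ w in {w | 0 < j w}, Real.exp (-‖w‖) ∂μ) /
        (∫ w in {w | 0 < j w}, Real.exp (-N1 w) ∂μ) - 1)) :
    ∃ u : X, j u = 0 ∧ ∀ v, N1 v = ‖v + j v • u‖ := by
  obtain ⟨κ, hκ, e1, e2, e3⟩ := h.slices
  obtain ⟨b1, b2, b3, b4⟩ := h.a_hyps
  rw [e1, e2, e3, mul_div_mul_left _ _ hκ.ne', mul_assoc] at heq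
  obtain ⟨r, hr, hM, hae⟩ := a_step_eq h.nn0.mdata h.nn1.mdata (SL_measurable h.cmeas) b1
    (SL_measurable (measurable_p_apply h.pmeas e)) b2 b3 b4 (mul_left_cancel₀ hκ.ne' heq)
  -- pick a good slice
  obtain ⟨a, ha, ha1, ha2⟩ : ∃ a : ℝ, 0 < a ∧
      ((r * a) * SL j e c a + (r * a - a) * SL j e (fun w => p w e) a =
        MM j e (fun v => ‖v‖) a * Real.log (MM j e (fun v => ‖v‖) a / MM j e N1 (r * a))) ∧
      (∀ b : ℝ, SliceData j e N1 p (fun w => b * c w) a b) := by
    have h1 : ∀ᵐ a : ℝ ∂(volume.restrict (Ioi (0 : ℝ))), 0 < a ∧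
      ((r * a) * SL j e c a + (r * a - a) * SL j e (fun w => p w e) a =
        MM j e (fun v => ‖v‖) a * Real.log (MM j e (fun v => ‖v‖) a / MM j e N1 (r * a))) ∧
      (∀ b : ℝ, SliceData j e N1 p (fun w => b * c w) a b) := by
      rw [ae_restrict_iff' measurableSet_Ioi]
      filter_upwards [hae, h.ae_slice] with a ha1 ha2 ha
      exact ⟨ha, ha1 ha, ha2.2 ha⟩
    have : NeBot (ae (volume.restrict (Ioi (0 : ℝ)))) := by
      rw [ae_neBot]
      intro h0
      have := congrArg (fun m : Measure ℝ => m univ) h0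
      simp at this
    exact h1.exists
  have hC : SL j e (fun w => (r * a) * c w) a = (r * a) * SL j e c a := by
    rw [SL, SL, ← integral_const_mul]
    congr 1
    funext z
    ring
  obtain ⟨m, hm⟩ := (ha2 (r * a)).eq (by rw [hC]; exact ha1)
  rw [hM a ha, div_self (h.nn0.MM_pos a).ne', Real.log_one] at hm
  simp only [add_zero] at hm
  have hja : ∀ (t : ℝ) (z : KJ j), j (t • e + (z : X)) = t := fun t z => by
    rw [map_add, map_smul, h.je, j_coe, smul_eq_mul, mul_one, add_zero]
  -- `r = 1`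
  have hr1 : r = 1 := by
    apply le_antisymm
    · have h1 := hm 0
      have h2 := h.jle1 ((r * a) • e + ((0 + m : KJ j) : X))
      rw [h1, hja] at h2
      have h3 : ‖a • e + ((0 : KJ j) : X)‖ = a := by
        rw [Submodule.coe_zero, add_zero, norm_smul, h.ne, mul_one, Real.norm_eq_abs,
          abs_of_pos ha]
      rw [h3] at h2
      by_contra hcon
      push Not at hcon
      nlinarith
    · have h1 := hm (-m)
      have h2 := h.jle (a • e + ((-m : KJ j) : X))
      rw [← h1, hja, neg_add_cancel, Submodule.coe_zero, add_zero, h.n1smul, h.n1e, mul_one,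
        abs_of_pos (mul_pos hr ha)] at h2
      by_contra hcon
      push Not at hcon
      nlinarith
  rw [hr1, one_mul] at hm
  refine ⟨(-a⁻¹) • (m : X), by rw [map_smul, j_coe, smul_zero], fun v => ?_⟩
  by_cases hv : j v = 0
  · rw [h.n1eq v hv, hv, zero_smul, add_zero]
  · -- write `v = (j v / a) • (a • e + z)`
    set t := j v with ht
    have hz0 : j ((a / t) • (v - t • e)) = 0 := by
      rw [map_smul, map_sub, map_smul, h.je, ← ht, smul_eq_mul, smul_eq_mul, mul_one, sub_self,
        mul_zero]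
    let z : KJ j := ⟨(a / t) • (v - t • e), hz0⟩
    have hzc : (z : X) = (a / t) • (v - t • e) := rfl
    have h1 := hm (z - m)
    rw [sub_add_cancel] at h1
    have h2 : v = (t / a) • (a • e + (z : X)) := by
      rw [hzc, smul_add, smul_smul, smul_smul, div_mul_cancel₀ _ ha.ne',
        div_mul_div_cancel₀ ha.ne', div_self hv, one_smul]
      abel
    have h3 : N1 v = |t / a| * N1 (a • e + (z : X)) := by
      conv_lhs => rw [h2]
      rw [h.n1smul]
    have h4 : v + t • (-a⁻¹) • (m : X) = (t / a) • (a • e + ((z - m : KJ j) : X)) := by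
      conv_lhs => rw [h2]
      rw [Submodule.coe_sub]
      have : t • (-a⁻¹) • (m : X) = (t / a) • (-(m : X)) := by
        rw [smul_smul, smul_neg, ← neg_smul]
        congr 1
        ring
      rw [this, ← smul_add]
      congr 1
      abel
    rw [h3, h1, h4, norm_smul, Real.norm_eq_abs]

end pair

end Vale.Agent.P084.T
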