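import Mathlib

namespace Vale.Agent.P084.T

open MeasureTheory Filter Topology

theorem integrable_mul_exp_neg {H : ℝ → ℝ} (hc : Continuous H) {α β : ℝ} (hα : 0 < α)
    (hl : ∀ t, α * |t| - β ≤ H t) (m : ℕ) :
    Integrable (fun t : ℝ => |t| ^ m * Real.exp (-H t)) := by
  have h1 : Integrable (fun t : ℝ => (1 + ‖t‖) ^ (-((2 : ℕ) : ℝ))) :=
    integrable_one_add_norm (by simp)
  set k := 2 + m with hk
  refine Integrable.mono' (h1.const_mul (Real.exp (β + α) * ((k.factorial : ℝ) / α ^ k)))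
    (by fun_prop) ?_
  refine Eventually.of_forall fun w => ?_
  have hw : 0 ≤ |w| := abs_nonneg w
  rw [Real.norm_eq_abs, abs_of_nonneg (by positivity)]
  rw [Real.rpow_neg (by positivity), Real.rpow_natCast, Real.norm_eq_abs]
  have h2 := Real.pow_div_factorial_le_exp (α * (1 + |w|)) (by positivity) k
  have h3 : Real.exp (-H w) ≤ Real.exp (β + α) * (Real.exp (α * (1 + |w|)))⁻¹ := by
    rw [← Real.exp_neg, ← Real.exp_add]
    apply Real.exp_le_exp.2
    nlinarith [hl w]
  have hf : (0 : ℝ) < k.factorial := by positivity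
  have h4 : (Real.exp (α * (1 + |w|)))⁻¹ ≤ ((α * (1 + |w|)) ^ k / k.factorial)⁻¹ :=
    inv_anti₀ (by positivity) h2
  have h5 : |w| ^ m ≤ (1 + |w|) ^ m := by gcongr; linarith
  calc |w| ^ m * Real.exp (-H w)
      ≤ (1 + |w|) ^ m * (Real.exp (β + α) * ((α * (1 + |w|)) ^ k / k.factorial)⁻¹) := by
        gcongr
        exact h3.trans (by gcongr)
    _ = Real.exp (β + α) * ((k.factorial : ℝ) / α ^ k) * ((1 + |w|) ^ 2)⁻¹ := by
        rw [hk, mul_pow, pow_add (1 + |w|) 2 m]
        field_simp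

theorem tendsto_lin_mul_exp_neg {H : ℝ → ℝ} {α β : ℝ} (hα : 0 < α)
    (hl : ∀ t, α * |t| - β ≤ H t) {G : ℝ → ℝ} {A B : ℝ} (hG : ∀ t, |G t| ≤ A * |t| + B)
    {l : Filter ℝ} (hlt : Tendsto (fun t : ℝ => |t|) l atTop) :
    Tendsto (fun t => G t * Real.exp (-H t)) l (𝓝 0) := by
  have h1 : Tendsto (fun x : ℝ => (A * x + B) * Real.exp (β - α * x)) atTop (𝓝 0) := by
    have h2 : Tendsto (fun x : ℝ => (α * x) ^ 1 * Real.exp (-(α * x))) atTop (𝓝 0) :=
      (Real.tendsto_pow_mul_exp_neg_atTop_nhds_zero 1).comp (tendsto_id.const_mul_atTop hα)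
    have h3 : Tendsto (fun x : ℝ => (α * x) ^ 0 * Real.exp (-(α * x))) atTop (𝓝 0) :=
      (Real.tendsto_pow_mul_exp_neg_atTop_nhds_zero 0).comp (tendsto_id.const_mul_atTop hα)
    have h4 := (h2.const_mul (A / α * Real.exp β)).add (h3.const_mul (B * Real.exp β))
    simp only [mul_zero, add_zero] at h4
    refine h4.congr fun x => ?_
    rw [sub_eq_add_neg, Real.exp_add]
    field_simp
  have h5 := h1.comp hlt
  rw [tendsto_zero_iff_abs_tendsto_zero]
  refine squeeze_zero (fun t => abs_nonneg _) (fun t => ?_) h5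
  simp only [Function.comp_apply]
  rw [abs_mul, abs_of_pos (Real.exp_pos _)]
  have h6 : 0 ≤ A * |t| + B := (abs_nonneg _).trans (hG t)
  have h7 : Real.exp (-H t) ≤ Real.exp (β - α * |t|) := Real.exp_le_exp.2 (by linarith [hl t])
  exact mul_le_mul (hG t) h7 (Real.exp_pos _).le h6

theorem lipschitz_of_subgrad {H P : ℝ → ℝ} (hc : Continuous H) {K : ℝ} (hP : ∀ t, |P t| ≤ K)
    (hs : ∀ᵐ t, ∀ s, H t + P t * (s - t) ≤ H s) : ∀ t s, |H t - H s| ≤ K * |t - s| := by
  have key : ∀ t s, H t - H s ≤ K * |t - s| := by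
    intro t s
    have hd : Dense {t : ℝ | ∀ s, H t + P t * (s - t) ≤ H s} := by
      exact Measure.dense_of_ae hs
    have hcl : IsClosed {t : ℝ | H t - H s ≤ K * |t - s|} :=
      isClosed_le (by fun_prop) (by fun_prop)
    have hsub : {t : ℝ | ∀ s, H t + P t * (s - t) ≤ H s} ⊆ {t : ℝ | H t - H s ≤ K * |t - s|} := by
      intro u hu
      have h1 := hu s
      have h2 : -(P u * (s - u)) ≤ K * |u - s| := by
        calc -(P u * (s - u)) ≤ |P u * (s - u)| := neg_le_abs _
          _ = |P u| * |u - s| := by rw [abs_mul, abs_sub_comm s u]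
          _ ≤ K * |u - s| := mul_le_mul_of_nonneg_right (hP u) (abs_nonneg _)
      simp only [Set.mem_ofPred_eq]
      linarith
    have := hcl.closure_subset_iff.2 hsub (hd t)
    exact this
  intro t s
  rw [abs_le]
  constructor
  · have := key s t
    rw [abs_sub_comm s t] at this
    linarith
  · exact key t s

theorem ae_hasDerivAt_of_subgrad {H P : ℝ → ℝ} (hc : Continuous H) {K : ℝ} (hP : ∀ t, |P t| ≤ K)
    (hs : ∀ᵐ t, ∀ s, H t + P t * (s - t) ≤ H s) : ∀ᵐ t, HasDerivAt H (P t) t := by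
  have hK : 0 ≤ K := (abs_nonneg _).trans (hP 0)
  have hlip : LipschitzWith ⟨K, hK⟩ H := LipschitzWith.of_dist_le_mul fun x y => by
    rw [Real.dist_eq, Real.dist_eq]
    exact lipschitz_of_subgrad hc hP hs x y
  filter_upwards [hs, hlip.ae_differentiableAt_real] with t h1 h2
  have h3 : HasDerivAt (fun s => H s - P t * (s - t)) (deriv H t - P t * 1) t :=
    h2.hasDerivAt.sub (((hasDerivAt_id t).sub_const t).const_mul (P t))
  have h4 : IsLocalMin (fun s => H s - P t * (s - t)) t := by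
    refine Eventually.of_forall fun s => ?_
    simp only [sub_self, mul_zero, sub_zero]
    linarith [h1 s]
  have h5 := h4.hasDerivAt_eq_zero h3
  have h6 : deriv H t = P t := by linarith
  rw [← h6]
  exact h2.hasDerivAt

/-- the defect density -/
noncomputable def defect (H0 H1 S : ℝ → ℝ) (V0 V1 : ℝ) (t : ℝ) : ℝ :=
  (V1 / V0 * Real.exp (H1 (S t) - H0 t) - 1 - Real.log (V1 / V0) - (H1 (S t) - H0 t)) *
    Real.exp (-H0 t)

theorem defect_nonneg {H0 H1 S : ℝ → ℝ} {V0 V1 : ℝ} (h0 : 0 < V0) (h1 : 0 < V1) (t : ℝ) :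
    0 ≤ defect H0 H1 S V0 V1 t := by
  unfold defect
  apply mul_nonneg _ (Real.exp_pos _).le
  have h2 : 0 < V1 / V0 := by positivity
  have h3 := Real.log_le_sub_one_of_pos (mul_pos h2 (Real.exp_pos (H1 (S t) - H0 t)))
  rw [Real.log_mul h2.ne' (Real.exp_pos _).ne', Real.log_exp] at h3
  linarith

theorem core_interval {H0 H1 P C S : ℝ → ℝ} {V0 V1 : ℝ}
    (hc0 : Continuous H0) (hc1 : Continuous H1) {β0 : ℝ} (hl0 : ∀ t, -β0 ≤ H0 t)
    {K : ℝ} (hPb : ∀ t, |P t| ≤ K)
    (hC : Measurable C) {KC : ℝ} (hCb : ∀ t, |C t| ≤ KC)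
    (hs0 : ∀ᵐ t, ∀ s, H0 t + P t * (s - t) ≤ H0 s)
    (hs1 : ∀ᵐ t, ∀ s, H0 t + C t + P t * (s - t) ≤ H1 s)
    (hSc : Continuous S)
    (hS : ∀ t, HasDerivAt S (V1 / V0 * Real.exp (H1 (S t) - H0 t)) t) {R : ℝ} (hR : 0 ≤ R) :
    (∫ t in (-R)..R, defect H0 H1 S V0 V1 t) + (∫ t in (-R)..R, C t * Real.exp (-H0 t)) ≤
      ((S R - R) * Real.exp (-H0 R) - (S (-R) - -R) * Real.exp (-H0 (-R))) +
      Real.log (V0 / V1) * ∫ t in (-R)..R, Real.exp (-H0 t) := by
  have hRR : -R ≤ R := by linarith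
  have hK : 0 ≤ K := (abs_nonneg _).trans (hPb 0)
  set g1 : ℝ → ℝ := fun t => S t - t with hg1
  set g2 : ℝ → ℝ := fun t => Real.exp (-H0 t) with hg2
  have hd1 : ∀ t, HasDerivAt g1 (V1 / V0 * Real.exp (H1 (S t) - H0 t) - 1) t := fun t =>
    (hS t).sub (hasDerivAt_id t)
  have hcd : Continuous fun t => V1 / V0 * Real.exp (H1 (S t) - H0 t) - 1 := by fun_prop
  have hac1 : AbsolutelyContinuousOnInterval g1 (-R) R := by
    obtain ⟨M, hM⟩ := (isCompact_uIcc (a := -R) (b := R)).exists_bound_of_continuousOn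
      hcd.continuousOn
    have hM0 : 0 ≤ M := (norm_nonneg _).trans (hM _ Set.left_mem_uIcc)
    have : LipschitzOnWith M.toNNReal g1 (Set.uIcc (-R) R) :=
      (convex_uIcc _ _).lipschitzOnWith_of_nnnorm_hasDerivWithin_le
        (fun t _ => (hd1 t).hasDerivWithinAt) (fun t ht => by
          rw [← NNReal.coe_le_coe, Real.coe_toNNReal _ hM0]
          exact hM t ht)
    exact this.absolutelyContinuousOnInterval
  have hL0 := lipschitz_of_subgrad hc0 hPb hs0
  have hac2 : AbsolutelyContinuousOnInterval g2 (-R) R := by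
    have hlip : LipschitzWith ⟨Real.exp β0 * K, by positivity⟩ g2 := by
      refine LipschitzWith.of_dist_le_mul fun x y => ?_
      rw [Real.dist_eq, Real.dist_eq]
      change |Real.exp (-H0 x) - Real.exp (-H0 y)| ≤ Real.exp β0 * K * |x - y|
      have key : ∀ x y : ℝ, Real.exp (-H0 x) - Real.exp (-H0 y) ≤ Real.exp β0 * K * |x - y| := by
        intro x y
        have h1 : Real.exp (-H0 x) - Real.exp (-H0 y) ≤ Real.exp (-H0 x) * (H0 y - H0 x) := by
          have h2 : Real.exp (-H0 y) = Real.exp (-H0 x) * Real.exp (H0 x - H0 y) := by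
            rw [← Real.exp_add]; congr 1; ring
          rw [h2]
          have h3 := Real.add_one_le_exp (H0 x - H0 y)
          nlinarith [Real.exp_pos (-H0 x)]
        have h4 : H0 y - H0 x ≤ K * |x - y| := by
          have := (abs_le.1 (hL0 x y)).1
          linarith
        have h5 : Real.exp (-H0 x) ≤ Real.exp β0 := Real.exp_le_exp.2 (by linarith [hl0 x])
        calc Real.exp (-H0 x) - Real.exp (-H0 y) ≤ Real.exp (-H0 x) * (H0 y - H0 x) := h1
          _ ≤ Real.exp (-H0 x) * (K * |x - y|) :=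
              mul_le_mul_of_nonneg_left h4 (Real.exp_pos _).le
          _ ≤ Real.exp β0 * (K * |x - y|) :=
              mul_le_mul_of_nonneg_right h5 (by positivity)
          _ = Real.exp β0 * K * |x - y| := by ring
      rw [abs_le]
      constructor
      · have := key y x
        rw [abs_sub_comm y x] at this
        linarith
      · exact key x y
    exact (hlip.lipschitzOnWith (s := Set.uIcc (-R) R)).absolutelyContinuousOnInterval
  have hac : AbsolutelyContinuousOnInterval (fun t => g1 t * g2 t) (-R) R := hac1.fun_mul hac2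
  have hftc := hac.integral_deriv_eq_sub
  have hdint := hac.intervalIntegrable_deriv
  have hder : ∀ᵐ t, deriv (fun t => g1 t * g2 t) t =
      (V1 / V0 * Real.exp (H1 (S t) - H0 t) - 1 - P t * (S t - t)) * Real.exp (-H0 t) := by
    filter_upwards [ae_hasDerivAt_of_subgrad hc0 hPb hs0] with t ht
    have h1 : HasDerivAt g2 (Real.exp (-H0 t) * (-P t)) t := ht.neg.exp
    have h2 : HasDerivAt (fun t => g1 t * g2 t)
        ((V1 / V0 * Real.exp (H1 (S t) - H0 t) - 1) * g2 t +
          g1 t * (Real.exp (-H0 t) * (-P t))) t := (hd1 t).mul h1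
    rw [h2.deriv]
    simp only [hg1, hg2]
    ring
  have hdefc : Continuous (defect H0 H1 S V0 V1) := by unfold defect; fun_prop
  have hCint : IntervalIntegrable (fun t => C t * Real.exp (-H0 t)) volume (-R) R := by
    have h1 : IntervalIntegrable C volume (-R) R := by
      refine (intervalIntegrable_const (c := KC)).mono_fun hC.aestronglyMeasurable ?_
      refine Eventually.of_forall fun t => ?_
      change ‖C t‖ ≤ ‖KC‖
      rw [Real.norm_eq_abs, Real.norm_eq_abs]
      exact (hCb t).trans (le_abs_self _)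
    exact h1.mul_continuousOn (by fun_prop)
  have hEint : IntervalIntegrable (fun t => Real.exp (-H0 t)) volume (-R) R :=
    (by fun_prop : Continuous fun t => Real.exp (-H0 t)).intervalIntegrable _ _
  rw [← intervalIntegral.integral_add (hdefc.intervalIntegrable _ _) hCint]
  have hfin : ((S R - R) * Real.exp (-H0 R) - (S (-R) - -R) * Real.exp (-H0 (-R))) =
      ∫ t in (-R)..R, deriv (fun t => g1 t * g2 t) t := hftc.symm
  rw [hfin, ← intervalIntegral.integral_const_mul,
    ← intervalIntegral.integral_add hdint (hEint.const_mul _)]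
  apply intervalIntegral.integral_mono_ae hRR ((hdefc.intervalIntegrable _ _).add hCint)
    (hdint.add (hEint.const_mul _))
  filter_upwards [hder, hs1] with t ht1 ht2
  rw [ht1]
  have h1 := ht2 (S t)
  unfold defect
  have h2 : Real.log (V0 / V1) = -Real.log (V1 / V0) := by
    rw [← Real.log_inv, inv_div]
  rw [h2]
  have h3 : (V1 / V0 * Real.exp (H1 (S t) - H0 t) - 1 - Real.log (V1 / V0) - (H1 (S t) - H0 t)) *
      Real.exp (-H0 t) + C t * Real.exp (-H0 t) =
      (V1 / V0 * Real.exp (H1 (S t) - H0 t) - 1 - Real.log (V1 / V0) - (H1 (S t) - H0 t) + C t) *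
      Real.exp (-H0 t) := by ring
  have h4 : (V1 / V0 * Real.exp (H1 (S t) - H0 t) - 1 - P t * (S t - t)) * Real.exp (-H0 t) +
      -Real.log (V1 / V0) * Real.exp (-H0 t) =
      (V1 / V0 * Real.exp (H1 (S t) - H0 t) - 1 - P t * (S t - t) - Real.log (V1 / V0)) *
      Real.exp (-H0 t) := by ring
  rw [h3, h4]
  apply mul_le_mul_of_nonneg_right _ (Real.exp_pos _).le
  linarith

theorem core_limit {H0 C S : ℝ → ℝ} {V1 : ℝ}
    (hc0 : Continuous H0) {α β : ℝ} (hα : 0 < α) (hl : ∀ t, α * |t| - β ≤ H0 t)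
    (hC : Measurable C) {KC : ℝ} (hCb : ∀ t, |C t| ≤ KC)
    {A B : ℝ} (hSb : ∀ t, |S t| ≤ A * |t| + B) :
    Tendsto (fun R : ℝ => (((S R - R) * Real.exp (-H0 R) - (S (-R) - -R) * Real.exp (-H0 (-R))) +
      Real.log ((∫ t, Real.exp (-H0 t)) / V1) * ∫ t in (-R)..R, Real.exp (-H0 t)) -
        ∫ t in (-R)..R, C t * Real.exp (-H0 t)) atTop
      (𝓝 ((∫ t, Real.exp (-H0 t)) * Real.log ((∫ t, Real.exp (-H0 t)) / V1) -
        ∫ t, C t * Real.exp (-H0 t))) := by
  have hint : Integrable (fun t => Real.exp (-H0 t)) := by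
    simpa using integrable_mul_exp_neg hc0 hα hl 0
  have hCint : Integrable (fun t => C t * Real.exp (-H0 t)) := by
    refine (hint.const_mul KC).mono' (hC.aestronglyMeasurable.mul
      (by fun_prop : Continuous fun t => Real.exp (-H0 t)).aestronglyMeasurable) ?_
    refine Eventually.of_forall fun t => ?_
    rw [Real.norm_eq_abs, abs_mul, abs_of_pos (Real.exp_pos _)]
    exact mul_le_mul_of_nonneg_right (hCb t) (Real.exp_pos _).le
  have hg : ∀ t, |S t - t| ≤ (A + 1) * |t| + B := by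
    intro t
    calc |S t - t| ≤ |S t| + |t| := by
          have := abs_add_le (S t) (-t)
          rwa [abs_neg, ← sub_eq_add_neg] at this
      _ ≤ (A + 1) * |t| + B := by linarith [hSb t]
  have t1 : Tendsto (fun R : ℝ => (S R - R) * Real.exp (-H0 R)) atTop (𝓝 0) :=
    tendsto_lin_mul_exp_neg hα hl hg tendsto_abs_atTop_atTop
  have t2 : Tendsto (fun R : ℝ => (S R - R) * Real.exp (-H0 R)) atBot (𝓝 0) :=
    tendsto_lin_mul_exp_neg hα hl hg tendsto_abs_atBot_atTop
  have t2' : Tendsto (fun R : ℝ => (S (-R) - -R) * Real.exp (-H0 (-R))) atTop (𝓝 0) :=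
    t2.comp tendsto_neg_atTop_atBot
  have t3 : Tendsto (fun R : ℝ => ∫ t in (-R)..R, Real.exp (-H0 t)) atTop
      (𝓝 (∫ t, Real.exp (-H0 t))) :=
    intervalIntegral_tendsto_integral hint tendsto_neg_atTop_atBot tendsto_id
  have t4 : Tendsto (fun R : ℝ => ∫ t in (-R)..R, C t * Real.exp (-H0 t)) atTop
      (𝓝 (∫ t, C t * Real.exp (-H0 t))) :=
    intervalIntegral_tendsto_integral hCint tendsto_neg_atTop_atBot tendsto_id
  have t5 := ((t1.sub t2').add
    (t3.const_mul (Real.log ((∫ t, Real.exp (-H0 t)) / V1)))).sub t4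
  simp only [sub_zero, zero_add] at t5
  rw [mul_comm (∫ t, Real.exp (-H0 t)) (Real.log _)]
  exact t5

theorem pl_one_aux {H0 H1 P C S : ℝ → ℝ}
    (hc0 : Continuous H0) (hc1 : Continuous H1)
    {α β : ℝ} (hα : 0 < α) (hl : ∀ t, α * |t| - β ≤ H0 t)
    {α1 β1 : ℝ} (hα1 : 0 < α1) (hl1 : ∀ t, α1 * |t| - β1 ≤ H1 t)
    {K : ℝ} (hPb : ∀ t, |P t| ≤ K)
    (hC : Measurable C) {KC : ℝ} (hCb : ∀ t, |C t| ≤ KC)
    (hs0 : ∀ᵐ t, ∀ s, H0 t + P t * (s - t) ≤ H0 s)
    (hs1 : ∀ᵐ t, ∀ s, H0 t + C t + P t * (s - t) ≤ H1 s)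
    (hSc : Continuous S)
    (hS : ∀ t, HasDerivAt S (((∫ s, Real.exp (-H1 s)) / (∫ s, Real.exp (-H0 s))) *
      Real.exp (H1 (S t) - H0 t)) t)
    {A B : ℝ} (hSb : ∀ t, |S t| ≤ A * |t| + B) :
    (∫ t, C t * Real.exp (-H0 t) ≤ (∫ t, Real.exp (-H0 t)) *
      Real.log ((∫ t, Real.exp (-H0 t)) / (∫ t, Real.exp (-H1 t)))) ∧
    (∫ t, C t * Real.exp (-H0 t) = (∫ t, Real.exp (-H0 t)) *
      Real.log ((∫ t, Real.exp (-H0 t)) / (∫ t, Real.exp (-H1 t))) →
      ∀ t, defect H0 H1 S (∫ s, Real.exp (-H0 s)) (∫ s, Real.exp (-H1 s)) t = 0) := by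
  have hint0 : Integrable (fun t => Real.exp (-H0 t)) := by
    simpa using integrable_mul_exp_neg hc0 hα hl 0
  have hint1 : Integrable (fun t => Real.exp (-H1 t)) := by
    simpa using integrable_mul_exp_neg hc1 hα1 hl1 0
  have hV0 : 0 < ∫ t, Real.exp (-H0 t) := integral_exp_pos hint0
  have hV1 : 0 < ∫ t, Real.exp (-H1 t) := integral_exp_pos hint1
  have hl0 : ∀ t, -β ≤ H0 t := fun t => by
    have := hl t
    have := mul_nonneg hα.le (abs_nonneg t)
    linarith
  have hdefc : Continuous (defect H0 H1 S (∫ s, Real.exp (-H0 s)) (∫ s, Real.exp (-H1 s))) := by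
    unfold defect; fun_prop
  have hnn := defect_nonneg (H0 := H0) (H1 := H1) (S := S) hV0 hV1
  have hlim := core_limit (V1 := ∫ s, Real.exp (-H1 s)) hc0 hα hl hC hCb hSb
  have hcore : ∀ R : ℝ, 0 ≤ R → _ := fun R hR =>
    core_interval (V0 := ∫ s, Real.exp (-H0 s)) (V1 := ∫ s, Real.exp (-H1 s))
      hc0 hc1 hl0 hPb hC hCb hs0 hs1 hSc hS hR
  have hmono : ∀ R0 R : ℝ, 0 ≤ R0 → R0 ≤ R →
      ∫ t in (-R0)..R0, defect H0 H1 S (∫ s, Real.exp (-H0 s)) (∫ s, Real.exp (-H1 s)) t ≤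
      ∫ t in (-R)..R, defect H0 H1 S (∫ s, Real.exp (-H0 s)) (∫ s, Real.exp (-H1 s)) t := by
    intro R0 R h0 h1
    exact intervalIntegral.integral_mono_interval (by linarith) (by linarith) h1
      (Eventually.of_forall fun t => hnn t) (hdefc.intervalIntegrable _ _)
  have hle : ∀ R0 : ℝ, 0 ≤ R0 →
      ∫ t in (-R0)..R0, defect H0 H1 S (∫ s, Real.exp (-H0 s)) (∫ s, Real.exp (-H1 s)) t ≤
      (∫ t, Real.exp (-H0 t)) * Real.log ((∫ t, Real.exp (-H0 t)) / ∫ s, Real.exp (-H1 s)) -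
        ∫ t, C t * Real.exp (-H0 t) := by
    intro R0 h0
    refine ge_of_tendsto hlim ?_
    filter_upwards [eventually_ge_atTop R0] with R hR
    have h1 := hcore R (h0.trans hR)
    have h2 := hmono R0 R h0 hR
    linarith
  constructor
  · have h1 := hle 0 le_rfl
    simp only [neg_zero, intervalIntegral.integral_same] at h1
    linarith
  · intro heq t
    set D := defect H0 H1 S (∫ s, Real.exp (-H0 s)) (∫ s, Real.exp (-H1 s)) with hD
    have h1 := hle (|t| + 1) (by positivity)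
    rw [heq, sub_self] at h1
    have hR : -(|t| + 1) < |t| + 1 := by have := abs_nonneg t; linarith
    have h2 : ∫ t in (-(|t| + 1))..(|t| + 1), D t = 0 :=
      le_antisymm h1 (intervalIntegral.integral_nonneg hR.le fun u _ => hnn u)
    by_contra hne
    have h3 : 0 < D t := lt_of_le_of_ne (hnn t) (Ne.symm hne)
    have h4 : 0 < ∫ t in (-(|t| + 1))..(|t| + 1), D t := by
      refine intervalIntegral.integral_pos hR hdefc.continuousOn (fun u _ => hnn u) ⟨t, ?_, h3⟩
      constructor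
      · have := neg_abs_le t; linarith
      · have := le_abs_self t; linarith
    linarith

theorem translate_of_defect {H0 H1 S : ℝ → ℝ} {V0 V1 : ℝ} (hV0 : 0 < V0) (hV1 : 0 < V1)
    (hS : ∀ t, HasDerivAt S (V1 / V0 * Real.exp (H1 (S t) - H0 t)) t)
    (hD : ∀ t, defect H0 H1 S V0 V1 t = 0) :
    ∃ a : ℝ, ∀ t, H1 (t + a) = H0 t + Real.log (V0 / V1) := by
  have hq : 0 < V1 / V0 := by positivity
  have h1 : ∀ t, V1 / V0 * Real.exp (H1 (S t) - H0 t) = 1 := by
    intro t
    have h2 := hD t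
    unfold defect at h2
    have h3 := (mul_eq_zero.1 h2).resolve_right (Real.exp_pos _).ne'
    by_contra hne
    have h4 : 0 < V1 / V0 * Real.exp (H1 (S t) - H0 t) := mul_pos hq (Real.exp_pos _)
    have h5 := Real.log_lt_sub_one_of_pos h4 hne
    rw [Real.log_mul hq.ne' (Real.exp_pos _).ne', Real.log_exp] at h5
    linarith
  have hS1 : ∀ t, HasDerivAt (fun t => S t - t) 0 t := by
    intro t
    have := (hS t).sub (hasDerivAt_id t)
    rw [h1 t, sub_self] at this
    exact this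
  have hconst : ∀ t, S t - t = S 0 - 0 := fun t =>
    is_const_of_deriv_eq_zero (fun t => (hS1 t).differentiableAt) (fun t => (hS1 t).deriv) t 0
  refine ⟨S 0, fun t => ?_⟩
  have h2 : S t = t + S 0 := by have := hconst t; linarith
  have h3 := h1 t
  rw [h2] at h3
  have h4 : Real.log (V1 / V0 * Real.exp (H1 (t + S 0) - H0 t)) = 0 := by rw [h3, Real.log_one]
  rw [Real.log_mul hq.ne' (Real.exp_pos _).ne', Real.log_exp] at h4
  have h5 : Real.log (V0 / V1) = -Real.log (V1 / V0) := by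
    rw [← Real.log_inv, inv_div]
  rw [h5]
  linarith

end Vale.Agent.P084.T
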