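import Mathlib
import Vale.Agent.P084.T.PLoneCore

/-!
# Module A1: monotone transport on `ℝ`
-/

namespace Vale.Agent.P084.T

open MeasureTheory Filter Topology Set

/-- distribution function -/
noncomputable def cdfH (H : ℝ → ℝ) (t : ℝ) : ℝ := ∫ s in Iic t, Real.exp (-H s)

section
variable {H : ℝ → ℝ} (hc : Continuous H) (hi : Integrable (fun t => Real.exp (-H t)))
include hc hi

omit hc in
theorem cdfH_add (t : ℝ) : cdfH H t + ∫ s in Ioi t, Real.exp (-H s) = ∫ s, Real.exp (-H s) :=
  intervalIntegral.integral_Iic_add_Ioi hi.integrableOn hi.integrableOn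

theorem cdfH_strictDeriv (t : ℝ) : HasStrictDerivAt (cdfH H) (Real.exp (-H t)) t := by
  have hce : Continuous (fun s => Real.exp (-H s)) := by fun_prop
  have h1 : HasStrictDerivAt (fun t => ∫ s in (0:ℝ)..t, Real.exp (-H s)) (Real.exp (-H t)) t :=
    intervalIntegral.integral_hasStrictDerivAt_right (hce.intervalIntegrable _ _)
      (hce.stronglyMeasurableAtFilter _ _) hce.continuousAt
  have h2 : cdfH H = fun t => cdfH H 0 + ∫ s in (0:ℝ)..t, Real.exp (-H s) := by
    funext t
    unfold cdfH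
    rw [← intervalIntegral.integral_Iic_sub_Iic hi.integrableOn hi.integrableOn]
    ring
  rw [h2]
  exact h1.const_add _

theorem cdfH_cont : Continuous (cdfH H) :=
  continuous_iff_continuousAt.2 fun t => (cdfH_strictDeriv hc hi t).hasDerivAt.continuousAt

theorem cdfH_strictMono : StrictMono (cdfH H) := by
  refine strictMono_of_deriv_pos fun t => ?_
  rw [(cdfH_strictDeriv hc hi t).hasDerivAt.deriv]
  exact Real.exp_pos _

omit hc in
theorem cdfH_atTop : Tendsto (cdfH H) atTop (𝓝 (∫ s, Real.exp (-H s))) := by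
  have h1 : Tendsto (fun t : ℝ => ∫ s in Ioi t, Real.exp (-H s)) atTop (𝓝 0) :=
    tendsto_integral_Ioi_zero tendsto_id
  have h2 := (tendsto_const_nhds (x := ∫ s, Real.exp (-H s))).sub h1
  rw [sub_zero] at h2
  refine h2.congr fun t => ?_
  rw [← cdfH_add hi t]
  ring

omit hc hi in
theorem cdfH_atBot : Tendsto (cdfH H) atBot (𝓝 0) := tendsto_integral_Iic_zero tendsto_id

theorem cdfH_pos (t : ℝ) : 0 < cdfH H t := by
  have h1 : cdfH H (t - 1) < cdfH H t := cdfH_strictMono hc hi (by linarith)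
  refine lt_of_le_of_lt ?_ h1
  exact (cdfH_strictMono hc hi).monotone.le_of_tendsto cdfH_atBot _

theorem cdfH_lt (t : ℝ) : cdfH H t < ∫ s, Real.exp (-H s) := by
  have h1 : cdfH H t < cdfH H (t + 1) := cdfH_strictMono hc hi (by linarith)
  refine h1.trans_le ?_
  exact (cdfH_strictMono hc hi).monotone.ge_of_tendsto (cdfH_atTop hi) _

theorem cdfH_range {y : ℝ} (h0 : 0 < y) (h1 : y < ∫ s, Real.exp (-H s)) :
    ∃ t, cdfH H t = y := by
  obtain ⟨a, ha⟩ := ((cdfH_atBot (H := H)).eventually (gt_mem_nhds h0)).exists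
  obtain ⟨b, hb⟩ := ((cdfH_atTop hi).eventually (lt_mem_nhds h1)).exists
  exact mem_range_of_exists_le_of_exists_ge (cdfH_cont hc hi) ⟨a, ha.le⟩ ⟨b, hb.le⟩

end

/-- lower bound of the two tails -/
theorem tail_lower {H : ℝ → ℝ} (hc : Continuous H) (hi : Integrable (fun t => Real.exp (-H t)))
    {α β : ℝ} (hα : 0 < α) (hu : ∀ t, H t ≤ α * |t| + β) (t : ℝ) :
    Real.exp (-(α * (|t| + 1) + β)) ≤ cdfH H t ∧
    Real.exp (-(α * (|t| + 1) + β)) ≤ ∫ s in Ioi t, Real.exp (-H s) := by
  have hce : Continuous (fun s => Real.exp (-H s)) := by fun_prop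
  constructor
  · have h1 : ∫ s in Ioc (t - 1) t, Real.exp (-(α * (|t| + 1) + β)) ≤
        ∫ s in Ioc (t - 1) t, Real.exp (-H s) := by
      refine setIntegral_mono_on (by simp) hi.integrableOn measurableSet_Ioc fun s hs => ?_
      refine Real.exp_le_exp.2 ?_
      have h2 : |s| ≤ |t| + 1 := by
        have : |s| ≤ |t| + |s - t| := by
          have := abs_add_le t (s - t); rwa [add_sub_cancel] at this
        have h3 : |s - t| ≤ 1 := abs_le.2 ⟨by linarith [hs.1], by linarith [hs.2]⟩
        linarith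
      have := hu s
      nlinarith
    rw [setIntegral_const] at h1
    simp only [Measure.real, Real.volume_Ioc, sub_sub_cancel, ENNReal.ofReal_one,
      ENNReal.toReal_one, one_smul] at h1
    refine h1.trans ?_
    exact setIntegral_mono_set hi.integrableOn (Eventually.of_forall fun s => (Real.exp_pos _).le)
      (LE.le.eventuallyLE fun s hs => hs.2)
  · have h1 : ∫ s in Ioc t (t + 1), Real.exp (-(α * (|t| + 1) + β)) ≤
        ∫ s in Ioc t (t + 1), Real.exp (-H s) := by
      refine setIntegral_mono_on (by simp) hi.integrableOn measurableSet_Ioc fun s hs => ?_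
      refine Real.exp_le_exp.2 ?_
      have h2 : |s| ≤ |t| + 1 := by
        have : |s| ≤ |t| + |s - t| := by
          have := abs_add_le t (s - t); rwa [add_sub_cancel] at this
        have h3 : |s - t| ≤ 1 := abs_le.2 ⟨by linarith [hs.1], by linarith [hs.2]⟩
        linarith
      have := hu s
      nlinarith
    rw [setIntegral_const] at h1
    simp only [Measure.real, Real.volume_Ioc, add_sub_cancel_left, ENNReal.ofReal_one,
      ENNReal.toReal_one, one_smul] at h1
    refine h1.trans ?_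
    exact setIntegral_mono_set hi.integrableOn (Eventually.of_forall fun s => (Real.exp_pos _).le)
      (LE.le.eventuallyLE fun s hs => hs.1)

/-- upper bound of the two tails -/
theorem tail_upper {H : ℝ → ℝ} (hi : Integrable (fun t => Real.exp (-H t)))
    {α β : ℝ} (hα : 0 < α) (hl : ∀ t, α * |t| - β ≤ H t) (s : ℝ) :
    cdfH H s ≤ Real.exp β * (Real.exp (α * s) / α) ∧
    ∫ r in Ioi s, Real.exp (-H r) ≤ Real.exp β * (Real.exp (-α * s) / α) := by
  constructor
  · have h1 : cdfH H s ≤ ∫ r in Iic s, Real.exp β * Real.exp (α * r) := by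
      refine setIntegral_mono_on hi.integrableOn ((integrableOn_exp_mul_Iic hα s).const_mul _)
        measurableSet_Iic fun r hr => ?_
      rw [← Real.exp_add]
      refine Real.exp_le_exp.2 ?_
      have := hl r
      have h2 : α * (-r) ≤ α * |r| := by gcongr; exact neg_le_abs r
      linarith
    rwa [integral_const_mul, integral_exp_mul_Iic hα] at h1
  · have h1 : ∫ r in Ioi s, Real.exp (-H r) ≤ ∫ r in Ioi s, Real.exp β * Real.exp (-α * r) := by
      refine setIntegral_mono_on hi.integrableOn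
        ((integrableOn_exp_mul_Ioi (by linarith) s).const_mul _) measurableSet_Ioi fun r hr => ?_
      rw [← Real.exp_add]
      refine Real.exp_le_exp.2 ?_
      have := hl r
      have h2 : α * r ≤ α * |r| := by gcongr; exact le_abs_self r
      linarith
    rw [integral_const_mul, integral_exp_mul_Ioi (by linarith)] at h1
    rwa [neg_div_neg_eq] at h1

theorem exists_transport_aux {H0 H1 : ℝ → ℝ} (c0 : Continuous H0) (c1 : Continuous H1)
    (i0 : Integrable (fun t => Real.exp (-H0 t))) (i1 : Integrable (fun t => Real.exp (-H1 t)))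
    (u0 : ∃ α β : ℝ, 0 < α ∧ ∀ t, H0 t ≤ α * |t| + β)
    (l1 : ∃ α β : ℝ, 0 < α ∧ ∀ t, α * |t| - β ≤ H1 t) :
    ∃ S : ℝ → ℝ, Continuous S ∧ StrictMono S ∧ Function.Surjective S ∧
      (∀ t, HasDerivAt S (((∫ s, Real.exp (-H1 s)) / (∫ s, Real.exp (-H0 s))) *
        Real.exp (H1 (S t) - H0 t)) t) ∧
      (∃ A B : ℝ, 0 < A ∧ ∀ t, |S t| ≤ A * |t| + B) ∧
      (∀ t, (∫ s in Set.Iic (S t), Real.exp (-H1 s)) / (∫ s, Real.exp (-H1 s)) =
        (∫ s in Set.Iic t, Real.exp (-H0 s)) / (∫ s, Real.exp (-H0 s))) := by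
  set V0 := ∫ s, Real.exp (-H0 s) with hV0
  set V1 := ∫ s, Real.exp (-H1 s) with hV1
  have V0pos : 0 < V0 := (cdfH_pos c0 i0 0).trans (cdfH_lt c0 i0 0)
  have V1pos : 0 < V1 := (cdfH_pos c1 i1 0).trans (cdfH_lt c1 i1 0)
  let g : ℝ → ℝ := Function.invFun (cdfH H1)
  have hg : ∀ x, g (cdfH H1 x) = x := Function.leftInverse_invFun (cdfH_strictMono c1 i1).injective
  let S : ℝ → ℝ := fun t => g (V1 / V0 * cdfH H0 t)
  have hS : ∀ t, cdfH H1 (S t) = V1 / V0 * cdfH H0 t := by
    intro t
    have e1 := cdfH_pos c0 i0 t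
    have e2 : V1 / V0 * cdfH H0 t < V1 := by
      have := cdfH_lt c0 i0 t
      rw [← hV0] at this
      calc V1 / V0 * cdfH H0 t < V1 / V0 * V0 := by gcongr
        _ = V1 := by field_simp
    obtain ⟨s, hs⟩ := cdfH_range c1 i1 (by positivity) e2
    change cdfH H1 (g (V1 / V0 * cdfH H0 t)) = _
    rw [← hs, hg]
  have hder : ∀ t, HasDerivAt S (V1 / V0 * Real.exp (H1 (S t) - H0 t)) t := by
    intro t
    have d1 : HasStrictDerivAt g (Real.exp (-H1 (S t)))⁻¹ (cdfH H1 (S t)) :=
      (cdfH_strictDeriv c1 i1 (S t)).to_local_left_inverse (Real.exp_pos _).ne'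
        (Eventually.of_forall hg)
    have d2 : HasDerivAt (fun a => V1 / V0 * cdfH H0 a) (V1 / V0 * Real.exp (-H0 t)) t :=
      (cdfH_strictDeriv c0 i0 t).hasDerivAt.const_mul _
    rw [hS t] at d1
    have d3 := d1.hasDerivAt.comp t d2
    have d4 : (Real.exp (-H1 (S t)))⁻¹ * (V1 / V0 * Real.exp (-H0 t)) =
        V1 / V0 * Real.exp (H1 (S t) - H0 t) := by
      rw [← Real.exp_neg, neg_neg, sub_eq_add_neg, Real.exp_add]
      ring
    rw [d4] at d3
    exact d3
  have hcont : Continuous S := continuous_iff_continuousAt.2 fun t => (hder t).continuousAt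
  have hmono : StrictMono S := by
    intro a b hab
    refine (cdfH_strictMono c1 i1).lt_iff_lt.1 ?_
    rw [hS, hS]
    have := cdfH_strictMono c0 i0 hab
    gcongr
  refine ⟨S, hcont, hmono, ?_, hder, ?_, ?_⟩
  · intro s
    have e1 := cdfH_pos c1 i1 s
    have e2 : V0 / V1 * cdfH H1 s < V0 := by
      have := cdfH_lt c1 i1 s
      rw [← hV1] at this
      calc V0 / V1 * cdfH H1 s < V0 / V1 * V1 := by gcongr
        _ = V0 := by field_simp
    obtain ⟨t, ht⟩ := cdfH_range c0 i0 (by positivity) e2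
    refine ⟨t, (cdfH_strictMono c1 i1).injective ?_⟩
    rw [hS, ht]
    field_simp
  · obtain ⟨α0, β0, hα0, hu⟩ := u0
    obtain ⟨α1, β1, hα1, hl⟩ := l1
    refine ⟨α0 / α1, (β1 - Real.log α1 - Real.log (V1 / V0) + α0 + β0) / α1, by positivity,
      fun t => ?_⟩
    have hr : 0 < V1 / V0 := by positivity
    obtain ⟨a1, a2⟩ := tail_lower c0 i0 hα0 hu t
    obtain ⟨b1, b2⟩ := tail_upper i1 hα1 hl (S t)
    have key : ∀ x T : ℝ, V1 / V0 * Real.exp (-(α0 * (|t| + 1) + β0)) ≤ T →
        T ≤ Real.exp β1 * (Real.exp x / α1) →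
        -x ≤ β1 - Real.log α1 - Real.log (V1 / V0) + α0 + β0 + α0 * |t| := by
      intro x T h1 h2
      have h3 := Real.log_le_log (by positivity) (h1.trans h2)
      rw [Real.log_mul hr.ne' (Real.exp_pos _).ne', Real.log_exp,
        Real.log_mul (Real.exp_pos _).ne' (by positivity), Real.log_exp,
        Real.log_div (Real.exp_pos _).ne' hα1.ne', Real.log_exp] at h3
      linarith
    have k1 := key (α1 * S t) (cdfH H1 (S t)) (by rw [hS]; gcongr) b1
    have hI : ∫ (r : ℝ) in Ioi (S t), Real.exp (-H1 r) =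
        V1 / V0 * ∫ (s : ℝ) in Ioi t, Real.exp (-H0 s) := by
      have q1 := cdfH_add i1 (S t)
      have q0 := cdfH_add i0 t
      rw [hS, ← hV1] at q1
      rw [← hV0] at q0
      have q2 : ∫ (r : ℝ) in Ioi (S t), Real.exp (-H1 r) = V1 - V1 / V0 * cdfH H0 t := by
        linarith
      have q3 : ∫ (s : ℝ) in Ioi t, Real.exp (-H0 s) = V0 - cdfH H0 t := by linarith
      rw [q2, q3]
      field_simp
    have k2 := key (-α1 * S t) _ (by rw [hI]; gcongr) b2
    have k3 : |S t| * α1 ≤ α0 * |t| + (β1 - Real.log α1 - Real.log (V1 / V0) + α0 + β0) := by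
      rcases abs_cases (S t) with ⟨h, -⟩ | ⟨h, -⟩ <;> rw [h] <;> linarith
    have k4 : α0 / α1 * |t| + (β1 - Real.log α1 - Real.log (V1 / V0) + α0 + β0) / α1 =
        (α0 * |t| + (β1 - Real.log α1 - Real.log (V1 / V0) + α0 + β0)) / α1 := by ring
    rw [k4, le_div_iff₀ hα1]
    exact k3
  · intro t
    change cdfH H1 (S t) / V1 = cdfH H0 t / V0
    rw [hS]
    field_simp

end Vale.Agent.P084.T
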