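import Mathlib
import Vale.Agent.P084.T.TransportB

/-!
# Module A: first-order Prekopa-Leindler inequality in dimension one, with equality case
-/

namespace Vale.Agent.P084.T

open MeasureTheory Filter Topology

/-- two-sided linear growth of a continuous function on `ℝ` -/
structure Lin1 (H : ℝ → ℝ) : Prop where
  cont : Continuous H
  lower : ∃ α β : ℝ, 0 < α ∧ ∀ t, α * |t| - β ≤ H t
  upper : ∃ α β : ℝ, 0 < α ∧ ∀ t, H t ≤ α * |t| + β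

/-- Monotone transport `S` of `e^{-H0}/V0` to `e^{-H1}/V1`: `C¹`, `S' > 0`, linear growth. -/
theorem exists_transport {H0 H1 : ℝ → ℝ} (h0 : Lin1 H0) (h1 : Lin1 H1) :
    ∃ S : ℝ → ℝ, Continuous S ∧ StrictMono S ∧ Function.Surjective S ∧
      (∀ t, HasDerivAt S (((∫ s, Real.exp (-H1 s)) / (∫ s, Real.exp (-H0 s))) *
        Real.exp (H1 (S t) - H0 t)) t) ∧
      (∃ A B : ℝ, 0 < A ∧ ∀ t, |S t| ≤ A * |t| + B) ∧
      (∀ t, (∫ s in Set.Iic (S t), Real.exp (-H1 s)) / (∫ s, Real.exp (-H1 s)) =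
        (∫ s in Set.Iic t, Real.exp (-H0 s)) / (∫ s, Real.exp (-H0 s))) := by
  obtain ⟨α, β, hα, hl⟩ := h0.lower
  obtain ⟨α1, β1, hα1, hl1⟩ := h1.lower
  exact exists_transport_aux h0.cont h1.cont
    (by simpa using integrable_mul_exp_neg h0.cont hα hl 0)
    (by simpa using integrable_mul_exp_neg h1.cont hα1 hl1 0) h0.upper h1.lower

/-- 1-D first-order Prekopa-Leindler inequality. -/
theorem pl_one {H0 H1 P C : ℝ → ℝ} (h0 : Lin1 H0) (h1 : Lin1 H1)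
    (hP : Measurable P) (hPb : ∃ K, ∀ t, |P t| ≤ K)
    (hC : Measurable C) (hCb : ∃ K, ∀ t, |C t| ≤ K)
    (hs0 : ∀ᵐ t, ∀ s, H0 t + P t * (s - t) ≤ H0 s)
    (hs1 : ∀ᵐ t, ∀ s, H0 t + C t + P t * (s - t) ≤ H1 s) :
    ∫ t, C t * Real.exp (-H0 t) ≤ (∫ t, Real.exp (-H0 t)) *
      Real.log ((∫ t, Real.exp (-H0 t)) / (∫ t, Real.exp (-H1 t))) := by
  obtain ⟨S, hSc, -, -, hS, ⟨A, B, -, hSb⟩, -⟩ := exists_transport h0 h1
  obtain ⟨α, β, hα, hl⟩ := h0.lower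
  obtain ⟨α1, β1, hα1, hl1⟩ := h1.lower
  obtain ⟨K, hK⟩ := hPb
  obtain ⟨KC, hKC⟩ := hCb
  exact (pl_one_aux h0.cont h1.cont hα hl hα1 hl1 hK hC hKC hs0 hs1 hSc hS hSb).1

/-- Equality case of `pl_one`: `H1` is a translate of `H0` plus a constant. -/
theorem pl_one_eq {H0 H1 P C : ℝ → ℝ} (h0 : Lin1 H0) (h1 : Lin1 H1)
    (hP : Measurable P) (hPb : ∃ K, ∀ t, |P t| ≤ K)
    (hC : Measurable C) (hCb : ∃ K, ∀ t, |C t| ≤ K)
    (hs0 : ∀ᵐ t, ∀ s, H0 t + P t * (s - t) ≤ H0 s)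
    (hs1 : ∀ᵐ t, ∀ s, H0 t + C t + P t * (s - t) ≤ H1 s)
    (heq : ∫ t, C t * Real.exp (-H0 t) = (∫ t, Real.exp (-H0 t)) *
      Real.log ((∫ t, Real.exp (-H0 t)) / (∫ t, Real.exp (-H1 t)))) :
    ∃ a : ℝ, ∀ t, H1 (t + a) = H0 t +
      Real.log ((∫ t, Real.exp (-H0 t)) / (∫ t, Real.exp (-H1 t))) := by
  obtain ⟨S, hSc, -, -, hS, ⟨A, B, -, hSb⟩, -⟩ := exists_transport h0 h1
  obtain ⟨α, β, hα, hl⟩ := h0.lower
  obtain ⟨α1, β1, hα1, hl1⟩ := h1.lower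
  obtain ⟨K, hK⟩ := hPb
  obtain ⟨KC, hKC⟩ := hCb
  have hint0 : Integrable (fun t => Real.exp (-H0 t)) := by
    simpa using integrable_mul_exp_neg h0.cont hα hl 0
  have hint1 : Integrable (fun t => Real.exp (-H1 t)) := by
    simpa using integrable_mul_exp_neg h1.cont hα1 hl1 0
  exact translate_of_defect (integral_exp_pos hint0) (integral_exp_pos hint1) hS
    ((pl_one_aux h0.cont h1.cont hα hl hα1 hl1 hK hC hKC hs0 hs1 hSc hS hSb).2 heq)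

end Vale.Agent.P084.T
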