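import Vale.Agent.P084.T.PLn

/-!
# Module C: equality case of the Prekopa-Leindler inequality
-/

namespace Vale.Agent.P084.T

open MeasureTheory Filter Topology

theorem LinV.integrable_mulC {V : Type*} [NormedAddCommGroup V] [NormedSpace ℝ V]
    [FiniteDimensional ℝ V] [MeasurableSpace V] [BorelSpace V] (μ : Measure V)
    [μ.IsAddHaarMeasure] {E : Type*} [NormedAddCommGroup E] [NormedSpace ℝ E]
    {G : V → ℝ} (h : LinV G) {ψ : V → E} (hψ : Continuous ψ)
    {K : ℝ} (hK : ∀ z, ‖ψ z‖ ≤ K * (1 + ‖z‖)) :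
    Integrable (fun z : V => Real.exp (-G z) • ψ z) μ := by
  obtain ⟨α, β, hα, hl⟩ := h.lower
  have hα2 : 0 < α / 2 := by positivity
  have h1 := (integrable_exp_neg_norm μ hα2).const_mul (Real.exp β * |K| * max 1 (1 / (α / 2)))
  have hGc := h.cont
  have : ProperSpace V := FiniteDimensional.proper_real V
  refine h1.mono' ?_ (Eventually.of_forall fun z => ?_)
  · exact Continuous.aestronglyMeasurable (by fun_prop)
  · rw [norm_smul, Real.norm_eq_abs, abs_of_pos (Real.exp_pos _)]
    have h2 := one_add_pow_le_exp hα2 (norm_nonneg z) 0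
    simp only [zero_add, pow_one, Nat.cast_zero] at h2
    have h3 : ‖ψ z‖ ≤ |K| * (1 + ‖z‖) :=
      (hK z).trans (mul_le_mul_of_nonneg_right (le_abs_self K) (by positivity))
    have h4 : Real.exp (-G z) ≤ Real.exp β * Real.exp (-(α * ‖z‖)) := by
      rw [← Real.exp_add]
      exact Real.exp_le_exp.2 (by linarith [hl z])
    have h5 : Real.exp (-(α * ‖z‖)) * Real.exp (α / 2 * ‖z‖) = Real.exp (-(α / 2 * ‖z‖)) := by
      rw [← Real.exp_add]
      congr 1
      ring
    have h6 : 0 ≤ |K| := abs_nonneg K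
    calc Real.exp (-G z) * ‖ψ z‖
        ≤ (Real.exp β * Real.exp (-(α * ‖z‖))) *
          (|K| * (max 1 (1 / (α / 2)) * Real.exp (α / 2 * ‖z‖))) := by
          gcongr
          exact h3.trans (mul_le_mul_of_nonneg_left h2 h6)
      _ = Real.exp β * |K| * max 1 (1 / (α / 2)) *
          (Real.exp (-(α * ‖z‖)) * Real.exp (α / 2 * ‖z‖)) := by ring
      _ = _ := by rw [h5]

/-- integration of a function of the first coordinate through the marginal -/
theorem integral_marg {W : Type*} [NormedAddCommGroup W] [NormedSpace ℝ W] [FiniteDimensional ℝ W]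
    [MeasurableSpace W] [BorelSpace W] (ν : Measure W) [ν.IsAddHaarMeasure]
    {G : ℝ × W → ℝ} (h : LinV G) {H : ℝ → ℝ}
    (hH : ∀ t, Real.exp (-H t) = ∫ y, Real.exp (-G (t, y)) ∂ν)
    {φ : ℝ → ℂ} (hφ : Continuous φ) (hφb : ∃ K, ∀ t, ‖φ t‖ ≤ K * (1 + |t|)) :
    ∫ z : ℝ × W, φ z.1 * Real.exp (-G z) ∂((volume : Measure ℝ).prod ν) =
      ∫ t, φ t * Real.exp (-H t) := by
  obtain ⟨K, hK⟩ := hφb
  have hint : Integrable (fun z : ℝ × W => φ z.1 * (Real.exp (-G z) : ℂ))
      ((volume : Measure ℝ).prod ν) := by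
    have h1 := h.integrable_mulC ((volume : Measure ℝ).prod ν) (ψ := fun z : ℝ × W => φ z.1)
      (by fun_prop) (K := |K|) (fun z => by
        refine (hK z.1).trans ?_
        have h2 : |z.1| ≤ ‖z‖ := norm_fst_le z
        have h3 : 0 ≤ |z.1| := abs_nonneg _
        have h4 : 0 ≤ ‖z‖ := norm_nonneg _
        calc K * (1 + |z.1|) ≤ |K| * (1 + |z.1|) :=
              mul_le_mul_of_nonneg_right (le_abs_self K) (by positivity)
          _ ≤ _ := mul_le_mul_of_nonneg_left (by linarith) (abs_nonneg K))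
    refine h1.congr (Eventually.of_forall fun z => ?_)
    simp only [Complex.real_smul]
    ring
  rw [integral_prod _ hint]
  congr 1
  funext t
  simp only
  rw [integral_const_mul, hH t, integral_complex_ofReal]

/-- splitting off the direction of a nonzero functional -/
theorem exists_splitC {V : Type*} [NormedAddCommGroup V] [NormedSpace ℝ V]
    [FiniteDimensional ℝ V] (θ : V →L[ℝ] ℝ) (hθ : θ ≠ 0) :
    ∃ e : V ≃L[ℝ] ℝ × (LinearMap.ker (θ : V →ₗ[ℝ] ℝ)), ∀ z, (e z).1 = θ z := by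
  obtain ⟨v1, hv1⟩ : ∃ v, θ v ≠ 0 := by
    by_contra hcon
    push Not at hcon
    exact hθ (ContinuousLinearMap.ext fun v => by simpa using hcon v)
  set v0 : V := (θ v1)⁻¹ • v1 with hv0
  have h0 : θ v0 = 1 := by rw [hv0, map_smul, smul_eq_mul, inv_mul_cancel₀ hv1]
  let e : V ≃ₗ[ℝ] ℝ × (LinearMap.ker (θ : V →ₗ[ℝ] ℝ)) :=
    { toFun := fun z => (θ z, ⟨z - θ z • v0, by simp [h0]⟩)
      invFun := fun p => (p.2 : V) + p.1 • v0
      map_add' := by
        intro x y
        ext
        · simp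
        · simp only [map_add, Prod.snd_add, Submodule.coe_add]
          module
      map_smul' := by
        intro c x
        ext
        · simp
        · simp only [map_smul, smul_eq_mul, RingHom.id_apply, Prod.smul_snd, Submodule.coe_smul]
          module
      left_inv := by
        intro z
        simp
      right_inv := by
        rintro ⟨t, w⟩
        have hw : θ (w : V) = 0 := w.2
        ext
        · simp [h0, hw]
        · simp [h0, hw] }
  exact ⟨e.toContinuousLinearEquiv, fun z => rfl⟩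

/-- Equality in `pl_ineq` forces the one-dimensional marginals of the two probability measures
`e^{-G_i}/V_i` to be translates of each other, for every nonzero functional `θ`. -/
theorem marginal_translate {V : Type*} [NormedAddCommGroup V] [NormedSpace ℝ V]
    [FiniteDimensional ℝ V] [MeasurableSpace V] [BorelSpace V] (μ : Measure V)
    [μ.IsAddHaarMeasure] {G0 G1 c : V → ℝ} {p : V → (V →L[ℝ] ℝ)}
    (h0 : LinV G0) (h1 : LinV G1)
    (hp : Measurable p) (hpb : ∃ K, ∀ z, ‖p z‖ ≤ K)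
    (hc : Measurable c) (hcb : ∃ K, ∀ z, |c z| ≤ K)
    (hs0 : ∀ᵐ z ∂μ, ∀ y, G0 z + p z (y - z) ≤ G0 y)
    (hs1 : ∀ᵐ z ∂μ, ∀ y, G0 z + c z + p z (y - z) ≤ G1 y)
    (heq : ∫ z, c z * Real.exp (-G0 z) ∂μ = (∫ z, Real.exp (-G0 z) ∂μ) *
      Real.log ((∫ z, Real.exp (-G0 z) ∂μ) / (∫ z, Real.exp (-G1 z) ∂μ)))
    (θ : V →L[ℝ] ℝ) :
    ∃ a : ℝ, ∀ φ : ℝ → ℂ, Continuous φ → (∃ K, ∀ t, ‖φ t‖ ≤ K * (1 + |t|)) →
      (∫ z, φ (θ z) * Real.exp (-G1 z) ∂μ) / (∫ z, Real.exp (-G1 z) ∂μ) =
      (∫ z, φ (θ z + a) * Real.exp (-G0 z) ∂μ) / (∫ z, Real.exp (-G0 z) ∂μ) := by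
  have V0pos := h0.integral_pos μ
  have V1pos := h1.integral_pos μ
  by_cases hθ : θ = 0
  · refine ⟨0, fun φ hφ hφb => ?_⟩
    simp only [hθ, zero_apply, add_zero, integral_const_mul, integral_complex_ofReal]
    rw [mul_div_assoc, mul_div_assoc, div_self (by exact_mod_cast V1pos.ne'),
      div_self (by exact_mod_cast V0pos.ne')]
  obtain ⟨e, he⟩ := exists_splitC θ hθ
  have hemb : MeasurableEmbedding e := e.toHomeomorph.measurableEmbedding
  have hesm : Measurable e.symm := e.symm.continuous.measurable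
  set ν : Measure (LinearMap.ker (θ : V →ₗ[ℝ] ℝ)) := Measure.addHaar with hν
  have hH : (μ.map e).IsAddHaarMeasure := e.isAddHaarMeasure_map μ
  set s : NNReal := (μ.map e).addHaarScalarFactor ((volume : Measure ℝ).prod ν) with hs
  have hspos : 0 < s := Measure.addHaarScalarFactor_pos_of_isAddHaarMeasure _ _
  have hsr : (0 : ℝ) < s := by exact_mod_cast hspos
  have hmap : μ.map e = s • ((volume : Measure ℝ).prod ν) :=
    Measure.isAddLeftInvariant_eq_smul _ _
  have hint : ∀ f : V → ℝ, ∫ z, f z ∂μ =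
      (s : ℝ) * ∫ z, f (e.symm z) ∂((volume : Measure ℝ).prod ν) := by
    intro f
    have h2 : ∫ z, f (e.symm z) ∂(μ.map e) = ∫ z, f z ∂μ := by
      rw [hemb.integral_map]
      congr 1
      funext z
      rw [e.symm_apply_apply]
    rw [← h2, hmap, integral_smul_nnreal_measure, NNReal.smul_def, smul_eq_mul]
  have hintC : ∀ f : V → ℂ, ∫ z, f z ∂μ =
      (s : ℝ) * ∫ z, f (e.symm z) ∂((volume : Measure ℝ).prod ν) := by
    intro f
    have h2 : ∫ z, f (e.symm z) ∂(μ.map e) = ∫ z, f z ∂μ := by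
      rw [hemb.integral_map]
      congr 1
      funext z
      rw [e.symm_apply_apply]
    rw [← h2, hmap, integral_smul_nnreal_measure, NNReal.smul_def, Complex.real_smul]
  have hae : ∀ Q : V → Prop, (∀ᵐ z ∂μ, Q z) →
      ∀ᵐ z ∂((volume : Measure ℝ).prod ν), Q (e.symm z) := by
    intro Q hQ
    have h2 : ∀ᵐ z ∂(μ.map e), Q (e.symm z) := by
      rw [hemb.ae_map_iff]
      filter_upwards [hQ] with z hz
      simpa using hz
    rw [hmap, ae_iff, Measure.smul_apply] at h2
    rw [ae_iff]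
    have h3 : (s : ENNReal) ≠ 0 := by exact_mod_cast hspos.ne'
    have h4 : (s : ENNReal) * ((volume : Measure ℝ).prod ν) {a | ¬Q (e.symm a)} = 0 := h2
    exact (mul_eq_zero.1 h4).resolve_left h3
  obtain ⟨Kp, hKp⟩ := hpb
  obtain ⟨Kc, hKc⟩ := hcb
  obtain ⟨H0, H1, P, C, l0, l1, mP, bP, mC, bC, s0, s1, x0, x1, z0, z1, zc⟩ :=
    marginals ν (G0 := fun z => G0 (e.symm z)) (G1 := fun z => G1 (e.symm z))
      (c := fun z => c (e.symm z))
      (p := fun z => (p (e.symm z)).comp (e.symm : _ →L[ℝ] V)) (h0.comp_equiv e)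
      (h1.comp_equiv e)
      (by
        have c1 : Continuous (fun φ : V →L[ℝ] ℝ => φ.comp
          (e.symm : ℝ × (LinearMap.ker (θ : V →ₗ[ℝ] ℝ)) →L[ℝ] V)) := by fun_prop
        exact c1.measurable.comp (hp.comp hesm))
      ⟨Kp * ‖(e.symm : ℝ × (LinearMap.ker (θ : V →ₗ[ℝ] ℝ)) →L[ℝ] V)‖, fun z =>
        (ContinuousLinearMap.opNorm_comp_le _ _).trans
          (mul_le_mul_of_nonneg_right (hKp _) (norm_nonneg _))⟩
      (hc.comp hesm) ⟨Kc, fun z => hKc _⟩
      (by
        filter_upwards [hae _ hs0] with z hz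
        intro y
        have := hz (e.symm y)
        simpa using this)
      (by
        filter_upwards [hae _ hs1] with z hz
        intro y
        have := hz (e.symm y)
        simpa using this)
  set U0 := ∫ t, Real.exp (-H0 t) with hU0
  set U1 := ∫ t, Real.exp (-H1 t) with hU1
  have e0 : ∫ z, Real.exp (-G0 z) ∂μ = s * U0 := by rw [hint, z0]
  have e1 : ∫ z, Real.exp (-G1 z) ∂μ = s * U1 := by rw [hint, z1]
  have ec : ∫ z, c z * Real.exp (-G0 z) ∂μ = s * ∫ t, C t * Real.exp (-H0 t) := by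
    rw [hint, zc]
  rw [e0, e1, ec, mul_div_mul_left _ _ hsr.ne', mul_assoc] at heq
  have heq' := mul_left_cancel₀ hsr.ne' heq
  obtain ⟨a, ha⟩ := pl_one_eq l0 l1 mP bP mC bC s0 s1 heq'
  rw [← hU0, ← hU1] at ha
  have U0pos : 0 < U0 := by
    have := V0pos
    rw [e0] at this
    exact (mul_pos_iff_of_pos_left hsr).1 this
  have U1pos : 0 < U1 := by
    have := V1pos
    rw [e1] at this
    exact (mul_pos_iff_of_pos_left hsr).1 this
  refine ⟨a, fun φ hφ hφb => ?_⟩
  have hφa : ∃ K, ∀ t, ‖φ (t + a)‖ ≤ K * (1 + |t|) := by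
    obtain ⟨K, hK⟩ := hφb
    refine ⟨|K| * (1 + |a|), fun t => (hK (t + a)).trans ?_⟩
    have h2 : |t + a| ≤ |t| + |a| := abs_add_le _ _
    have h3 : 0 ≤ |t| := abs_nonneg _
    have h4 : 0 ≤ |a| := abs_nonneg _
    calc K * (1 + |t + a|) ≤ |K| * (1 + |t + a|) :=
          mul_le_mul_of_nonneg_right (le_abs_self K) (by positivity)
      _ ≤ |K| * ((1 + |a|) * (1 + |t|)) :=
          mul_le_mul_of_nonneg_left (by nlinarith) (abs_nonneg K)
      _ = _ := by ring
  have k1 : ∫ z, φ (θ z) * Real.exp (-G1 z) ∂μ = (s : ℝ) * ∫ t, φ t * Real.exp (-H1 t) := by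
    rw [hintC, ← integral_marg ν (h1.comp_equiv e) x1 hφ hφb]
    congr 2
    funext z
    rw [← he, e.apply_symm_apply]
  have k0 : ∫ z, φ (θ z + a) * Real.exp (-G0 z) ∂μ =
      (s : ℝ) * ∫ t, φ (t + a) * Real.exp (-H0 t) := by
    rw [hintC, ← integral_marg ν (h0.comp_equiv e) x0 (φ := fun t => φ (t + a))
      (by fun_prop) hφa]
    congr 2
    funext z
    rw [← he, e.apply_symm_apply]
  have k2 : ∫ t, φ t * Real.exp (-H1 t) = (U1 / U0 : ℝ) * ∫ t, φ (t + a) * Real.exp (-H0 t) := by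
    rw [← integral_add_right_eq_self (fun t => φ t * (Real.exp (-H1 t) : ℂ)) a,
      ← integral_const_mul]
    congr 1
    funext t
    have h2 : Real.exp (-H1 (t + a)) = (U1 / U0) * Real.exp (-H0 t) := by
      rw [ha t, neg_add, Real.exp_add, Real.exp_neg (Real.log _), Real.exp_log (by positivity),
        inv_div]
      ring
    rw [h2]
    push_cast
    ring
  rw [k1, k0, k2, e0, e1]
  have c1 : (U0 : ℂ) ≠ 0 := by exact_mod_cast U0pos.ne'
  have c2 : (U1 : ℂ) ≠ 0 := by exact_mod_cast U1pos.ne'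
  have c3 : ((s : ℝ) : ℂ) ≠ 0 := by exact_mod_cast hsr.ne'
  push_cast
  field_simp

/-- Equality in `pl_ineq`: `G1` is a translate of `G0` plus a constant. -/
theorem pl_eq {V : Type*} [NormedAddCommGroup V] [NormedSpace ℝ V] [FiniteDimensional ℝ V]
    [MeasurableSpace V] [BorelSpace V] (μ : Measure V) [μ.IsAddHaarMeasure]
    {G0 G1 c : V → ℝ} {p : V → (V →L[ℝ] ℝ)}
    (h0 : LinV G0) (h1 : LinV G1)
    (hp : Measurable p) (hpb : ∃ K, ∀ z, ‖p z‖ ≤ K)
    (hc : Measurable c) (hcb : ∃ K, ∀ z, |c z| ≤ K)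
    (hs0 : ∀ᵐ z ∂μ, ∀ y, G0 z + p z (y - z) ≤ G0 y)
    (hs1 : ∀ᵐ z ∂μ, ∀ y, G0 z + c z + p z (y - z) ≤ G1 y)
    (heq : ∫ z, c z * Real.exp (-G0 z) ∂μ = (∫ z, Real.exp (-G0 z) ∂μ) *
      Real.log ((∫ z, Real.exp (-G0 z) ∂μ) / (∫ z, Real.exp (-G1 z) ∂μ))) :
    ∃ m : V, ∀ z, G1 (z + m) = G0 z +
      Real.log ((∫ z, Real.exp (-G0 z) ∂μ) / (∫ z, Real.exp (-G1 z) ∂μ)) := by
  have : ProperSpace V := FiniteDimensional.proper_real V
  have : CompleteSpace V := FiniteDimensional.complete ℝ V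
  have V0pos := h0.integral_pos μ
  have V1pos := h1.integral_pos μ
  have key := marginal_translate μ h0 h1 hp hpb hc hcb hs0 hs1 heq
  set V0 := ∫ z, Real.exp (-G0 z) ∂μ with hV0
  set V1 := ∫ z, Real.exp (-G1 z) ∂μ with hV1
  have i0 : Integrable (fun z => Real.exp (-G0 z) • z) μ :=
    h0.integrable_mulC μ (ψ := fun z => z) continuous_id (K := 1) (fun z => by linarith)
  have i1 : Integrable (fun z => Real.exp (-G1 z) • z) μ :=
    h1.integrable_mulC μ (ψ := fun z => z) continuous_id (K := 1) (fun z => by linarith)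
  set m0 : V := V0⁻¹ • ∫ z, Real.exp (-G0 z) • z ∂μ with hm0
  set m1 : V := V1⁻¹ • ∫ z, Real.exp (-G1 z) • z ∂μ with hm1
  have hθ0 : ∀ θ : V →L[ℝ] ℝ, ∫ z, Real.exp (-G0 z) * θ z ∂μ = V0 * θ m0 := by
    intro θ
    rw [hm0, map_smul, ← ContinuousLinearMap.integral_comp_comm θ i0]
    simp only [map_smul, smul_eq_mul]
    rw [mul_inv_cancel_left₀ V0pos.ne']
  have hθ1 : ∀ θ : V →L[ℝ] ℝ, ∫ z, Real.exp (-G1 z) * θ z ∂μ = V1 * θ m1 := by
    intro θ
    rw [hm1, map_smul, ← ContinuousLinearMap.integral_comp_comm θ i1]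
    simp only [map_smul, smul_eq_mul]
    rw [mul_inv_cancel_left₀ V1pos.ne']
  set m : V := m1 - m0 with hm
  have hchar : ∀ θ : V →L[ℝ] ℝ,
      (∫ z, Complex.exp (θ z * Complex.I) * Real.exp (-G1 z) ∂μ) / V1 =
      (∫ z, Complex.exp ((θ z + θ m : ℝ) * Complex.I) * Real.exp (-G0 z) ∂μ) / V0 := by
    intro θ
    obtain ⟨a, ha⟩ := key θ
    have h2 := ha (fun t => (t : ℂ)) (by fun_prop) ⟨1, fun t => by
      rw [Complex.norm_real, Real.norm_eq_abs]; linarith⟩
    have h3 : ∫ z, ((θ z : ℝ) : ℂ) * Real.exp (-G1 z) ∂μ = ((V1 * θ m1 : ℝ) : ℂ) := by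
      rw [← hθ1, ← integral_complex_ofReal]
      congr 1
      funext z
      push_cast
      ring
    have h4 : ∫ z, ((θ z + a : ℝ) : ℂ) * Real.exp (-G0 z) ∂μ = ((V0 * θ m0 + a * V0 : ℝ) : ℂ) := by
      have h5 : ∫ z, (Real.exp (-G0 z) * θ z + a * Real.exp (-G0 z)) ∂μ = V0 * θ m0 + a * V0 := by
        rw [integral_add, hθ0, integral_const_mul]
        · have := θ.integrable_comp i0
          simpa using this
        · exact (h0.integrable μ).const_mul a
      rw [← h5, ← integral_complex_ofReal]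
      congr 1
      funext z
      push_cast
      ring
    rw [h3, h4] at h2
    have h6 : V1 * θ m1 / V1 = (V0 * θ m0 + a * V0) / V0 := by exact_mod_cast h2
    have h7 : a = θ m := by
      rw [hm, map_sub]
      field_simp at h6
      linarith
    have h8 := ha (fun t => Complex.exp (t * Complex.I)) (by fun_prop) ⟨1, fun t => by
      rw [Complex.norm_exp_ofReal_mul_I]
      have : 0 ≤ |t| := abs_nonneg t
      linarith⟩
    rw [h7] at h8
    exact h8
  -- the two densities
  let d1 : V → ENNReal := fun z => ENNReal.ofReal (Real.exp (-G1 z) / V1)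
  let d0 : V → ENNReal := fun z => ENNReal.ofReal (Real.exp (-G0 (z - m)) / V0)
  have hG0 := h0.cont
  have hG1 := h1.cont
  have md1 : Measurable d1 := by
    have : Measurable (fun z => Real.exp (-G1 z) / V1) := Continuous.measurable (by fun_prop)
    exact this.ennreal_ofReal
  have md0 : Measurable d0 := by
    have : Measurable (fun z => Real.exp (-G0 (z - m)) / V0) := Continuous.measurable (by fun_prop)
    exact this.ennreal_ofReal
  have j1 : Integrable (fun z => Real.exp (-G1 z) / V1) μ := (h1.integrable μ).div_const V1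
  have j0 : Integrable (fun z => Real.exp (-G0 (z - m)) / V0) μ :=
    ((h0.integrable μ).comp_sub_right m).div_const V0
  have f1 : IsFiniteMeasure (μ.withDensity d1) := isFiniteMeasure_withDensity_ofReal j1.2
  have f0 : IsFiniteMeasure (μ.withDensity d0) := isFiniteMeasure_withDensity_ofReal j0.2
  have hmeas : μ.withDensity d1 = μ.withDensity d0 := by
    apply Measure.ext_of_charFunDual
    funext θ
    rw [charFunDual_apply, charFunDual_apply,
      integral_withDensity_eq_integral_toReal_smul md1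
        (Eventually.of_forall fun z => ENNReal.ofReal_lt_top),
      integral_withDensity_eq_integral_toReal_smul md0
        (Eventually.of_forall fun z => ENNReal.ofReal_lt_top)]
    have e1 : ∫ z, (d1 z).toReal • Complex.exp (θ z * Complex.I) ∂μ =
        (∫ z, Complex.exp (θ z * Complex.I) * Real.exp (-G1 z) ∂μ) / V1 := by
      rw [← integral_div]
      congr 1
      funext z
      have : (d1 z).toReal = Real.exp (-G1 z) / V1 := ENNReal.toReal_ofReal (by positivity)
      rw [this, Complex.real_smul]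
      push_cast
      ring
    have e0 : ∫ z, (d0 z).toReal • Complex.exp (θ z * Complex.I) ∂μ =
        (∫ z, Complex.exp ((θ z + θ m : ℝ) * Complex.I) * Real.exp (-G0 z) ∂μ) / V0 := by
      rw [← integral_div,
        ← integral_add_right_eq_self (fun z => (d0 z).toReal • Complex.exp (θ z * Complex.I)) m]
      congr 1
      funext z
      have : (d0 (z + m)).toReal = Real.exp (-G0 z) / V0 := by
        show (ENNReal.ofReal (Real.exp (-G0 (z + m - m)) / V0)).toReal = _
        rw [add_sub_cancel_right, ENNReal.toReal_ofReal (by positivity)]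
      rw [this, Complex.real_smul, map_add]
      push_cast
      ring
    rw [e1, e0, hchar θ]
  have hae : d1 =ᵐ[μ] d0 := by
    refine (withDensity_eq_iff md1.aemeasurable md0.aemeasurable ?_).1 hmeas
    have := f1.measure_univ_lt_top
    rw [withDensity_apply _ MeasurableSet.univ, setLIntegral_univ] at this
    exact this.ne
  have hae' : (fun z => Real.exp (-G1 z) / V1) =ᵐ[μ] (fun z => Real.exp (-G0 (z - m)) / V0) := by
    filter_upwards [hae] with z hz
    have := congrArg ENNReal.toReal hz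
    rwa [ENNReal.toReal_ofReal (by positivity), ENNReal.toReal_ofReal (by positivity)] at this
  have heqf := (Continuous.ae_eq_iff_eq μ (by fun_prop) (by fun_prop)).1 hae'
  refine ⟨m, fun z => ?_⟩
  have h2 := congrFun heqf (z + m)
  simp only [add_sub_cancel_right] at h2
  have h3 : Real.exp (-G1 (z + m)) = Real.exp (-G0 z) * (V1 / V0) := by
    field_simp at h2 ⊢
    linarith
  have h4 := congrArg Real.log h3
  rw [Real.log_exp, Real.log_mul (Real.exp_pos _).ne' (by positivity), Real.log_exp,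
    Real.log_div V1pos.ne' V0pos.ne'] at h4
  rw [Real.log_div V0pos.ne' V1pos.ne']
  linarith

end Vale.Agent.P084.T
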