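import Vale.Agent.P084.T.PLnMarg

/-!
# Module B: first-order Prekopa-Leindler inequality in dimension `k` (induction on `k`)
-/

namespace Vale.Agent.P084.T

open MeasureTheory Filter Topology

theorem PL_prod {W : Type*} [NormedAddCommGroup W] [NormedSpace ℝ W] [FiniteDimensional ℝ W]
    [MeasurableSpace W] [BorelSpace W] (μ : Measure W) [μ.IsAddHaarMeasure] (hPL : PL μ) :
    PL ((volume : Measure ℝ).prod μ) := by
  intro G0 G1 c p h0 h1 hp hpb hc hcb hs0 hs1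
  obtain ⟨H0, H1, P, C, l0, l1, mP, bP, mC, bC, s0, s1, _, _, z0, z1, zc⟩ :=
    marginals_of_PL μ hPL h0 h1 hp hpb hc hcb hs0 hs1
  have := pl_one l0 l1 mP bP mC bC s0 s1
  rw [zc, z0, z1] at this
  exact this

theorem PL_smul {V : Type*} [NormedAddCommGroup V] [NormedSpace ℝ V]
    [MeasurableSpace V] (μ : Measure V) (a : ENNReal) (ha : a ≠ 0) (ha' : a ≠ ⊤) (h : PL μ) :
    PL (a • μ) := by
  intro G0 G1 c p h0 h1 hp hpb hc hcb hs0 hs1
  have key : ∀ Q : V → Prop, (∀ᵐ z ∂(a • μ), Q z) → ∀ᵐ z ∂μ, Q z := by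
    intro Q hQ
    rw [ae_iff] at hQ ⊢
    rw [Measure.smul_apply, smul_eq_mul, mul_eq_zero] at hQ
    exact hQ.resolve_left ha
  have e0 := key _ hs0
  have e1 := key _ hs1
  have := h G0 G1 c p h0 h1 hp hpb hc hcb e0 e1
  have hpos : 0 < a.toReal := ENNReal.toReal_pos ha ha'
  simp only [integral_smul_measure, smul_eq_mul]
  rw [mul_div_mul_left _ _ hpos.ne', mul_assoc]
  exact mul_le_mul_of_nonneg_left this hpos.le

theorem LinV.comp_equiv {V V' : Type*} [NormedAddCommGroup V] [NormedSpace ℝ V]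
    [NormedAddCommGroup V'] [NormedSpace ℝ V'] (e : V ≃L[ℝ] V') {G : V → ℝ} (h : LinV G) :
    LinV (fun z : V' => G (e.symm z)) where
  cont := h.cont.comp e.symm.continuous
  lower := by
    obtain ⟨α, β, hα, hl⟩ := h.lower
    have hK : 0 < ‖(e : V →L[ℝ] V')‖ + 1 := by positivity
    refine ⟨α / (‖(e : V →L[ℝ] V')‖ + 1), β, by positivity, fun z => ?_⟩
    have h1 : ‖z‖ ≤ (‖(e : V →L[ℝ] V')‖ + 1) * ‖e.symm z‖ := by
      have := (e : V →L[ℝ] V').le_opNorm (e.symm z)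
      rw [ContinuousLinearEquiv.coe_coe, e.apply_symm_apply] at this
      nlinarith [norm_nonneg (e.symm z)]
    have h2 := hl (e.symm z)
    have h3 : α / (‖(e : V →L[ℝ] V')‖ + 1) * ‖z‖ ≤ α * ‖e.symm z‖ := by
      rw [div_mul_eq_mul_div, div_le_iff₀ hK]
      nlinarith
    linarith
  upper := by
    obtain ⟨α, β, hα, hl⟩ := h.upper
    refine ⟨α * (‖(e.symm : V' →L[ℝ] V)‖ + 1), β, by positivity, fun z => ?_⟩
    have h1 := (e.symm : V' →L[ℝ] V).le_opNorm z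
    rw [ContinuousLinearEquiv.coe_coe] at h1
    have h2 := hl (e.symm z)
    nlinarith [norm_nonneg z]

theorem PL_of_map {V V' : Type*} [NormedAddCommGroup V] [NormedSpace ℝ V]
    [MeasurableSpace V] [BorelSpace V] [NormedAddCommGroup V'] [NormedSpace ℝ V']
    [MeasurableSpace V'] [BorelSpace V'] (μ : Measure V) (e : V ≃L[ℝ] V')
    (h : PL (μ.map e)) : PL μ := by
  intro G0 G1 c p h0 h1 hp hpb hc hcb hs0 hs1
  obtain ⟨Kp, hKp⟩ := hpb
  obtain ⟨Kc, hKc⟩ := hcb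
  have hemb : MeasurableEmbedding e := e.toHomeomorph.measurableEmbedding
  have hint : ∀ f : V → ℝ, ∫ z, f (e.symm z) ∂(μ.map e) = ∫ z, f z ∂μ := by
    intro f
    rw [hemb.integral_map]
    congr 1
    funext z
    rw [e.symm_apply_apply]
  have hesm : Measurable e.symm := e.symm.continuous.measurable
  have := h (fun z => G0 (e.symm z)) (fun z => G1 (e.symm z)) (fun z => c (e.symm z))
    (fun z => (p (e.symm z)).comp (e.symm : V' →L[ℝ] V)) (h0.comp_equiv e) (h1.comp_equiv e)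
    (by
      have c1 : Continuous (fun φ : V →L[ℝ] ℝ => φ.comp (e.symm : V' →L[ℝ] V)) := by fun_prop
      exact c1.measurable.comp (hp.comp hesm))
    ⟨Kp * ‖(e.symm : V' →L[ℝ] V)‖, fun z =>
      (ContinuousLinearMap.opNorm_comp_le _ _).trans
        (mul_le_mul_of_nonneg_right (hKp _) (norm_nonneg _))⟩
    (hc.comp hesm) ⟨Kc, fun z => hKc _⟩
    (by
      rw [hemb.ae_map_iff]
      filter_upwards [hs0] with z hz
      intro y
      have := hz (e.symm y)
      simpa using this)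
    (by
      rw [hemb.ae_map_iff]
      filter_upwards [hs1] with z hz
      intro y
      have := hz (e.symm y)
      simpa using this)
  rw [hint (fun z => c z * Real.exp (-G0 z)), hint (fun z => Real.exp (-G0 z)),
    hint (fun z => Real.exp (-G1 z))] at this
  exact this

theorem PL_transfer {V V' : Type*} [NormedAddCommGroup V] [NormedSpace ℝ V]
    [FiniteDimensional ℝ V]
    [MeasurableSpace V] [BorelSpace V] [NormedAddCommGroup V'] [NormedSpace ℝ V']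
    [FiniteDimensional ℝ V'] [MeasurableSpace V'] [BorelSpace V'] (μ : Measure V)
    [μ.IsAddHaarMeasure] (μ' : Measure V') [μ'.IsAddHaarMeasure]
    (hd : Module.finrank ℝ V = Module.finrank ℝ V') (h : PL μ') : PL μ := by
  have e : V ≃L[ℝ] V' := ContinuousLinearEquiv.ofFinrankEq hd
  apply PL_of_map μ e
  have hH : (μ.map e).IsAddHaarMeasure := e.isAddHaarMeasure_map μ
  rw [Measure.isAddLeftInvariant_eq_smul (μ.map e) μ']
  have hpos := Measure.addHaarScalarFactor_pos_of_isAddHaarMeasure (μ.map e) μ'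
  refine PL_smul μ' ((Measure.addHaarScalarFactor (μ.map e) μ' : NNReal) : ENNReal) ?_
    ENNReal.coe_ne_top h
  exact ENNReal.coe_ne_zero.2 hpos.ne'

theorem PL_zero : PL (volume : Measure (Fin 0 → ℝ)) := by
  intro G0 G1 c p h0 h1 hp hpb hc hcb hs0 hs1
  have hm : 0 < (volume : Measure (Fin 0 → ℝ)).real Set.univ := by
    rw [Measure.real, ENNReal.toReal_pos_iff]
    refine ⟨?_, ?_⟩
    · exact isOpen_univ.measure_pos _ Set.univ_nonempty
    · exact measure_lt_top _ _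
  have hz : ∀ w, G0 w + c w ≤ G1 w := by
    intro w
    obtain ⟨z, hz⟩ := hs1.exists
    have h2 := hz z
    rw [sub_self, map_zero, add_zero] at h2
    rw [Subsingleton.elim w z]
    exact h2
  simp only [integral_unique, smul_eq_mul]
  rw [mul_div_mul_left _ _ hm.ne', mul_assoc, ← Real.exp_sub, Real.log_exp]
  apply mul_le_mul_of_nonneg_left _ hm.le
  rw [mul_comm]
  apply mul_le_mul_of_nonneg_left _ (Real.exp_pos _).le
  suffices h : ∀ w : Fin 0 → ℝ, c w ≤ -G0 w - -G1 w from h _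
  intro w
  have h2 := hz w
  linarith

theorem PL_fin (k : ℕ) : PL (volume : Measure (Fin k → ℝ)) := by
  induction k with
  | zero => exact PL_zero
  | succ k ih =>
    refine PL_transfer _ ((volume : Measure ℝ).prod (volume : Measure (Fin k → ℝ))) ?_
      (PL_prod _ ih)
    rw [Module.finrank_prod]
    simp [add_comm]

theorem PL_all {V : Type*} [NormedAddCommGroup V] [NormedSpace ℝ V] [FiniteDimensional ℝ V]
    [MeasurableSpace V] [BorelSpace V] (μ : Measure V) [μ.IsAddHaarMeasure] : PL μ := by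
  refine PL_transfer μ (volume : Measure (Fin (Module.finrank ℝ V) → ℝ)) ?_ (PL_fin _)
  simp

/-- the inequality on `Fin k → ℝ` -/
theorem pl_fin (k : ℕ) {G0 G1 c : (Fin k → ℝ) → ℝ} {p : (Fin k → ℝ) → (Fin k → ℝ)}
    (h0 : LinV G0) (h1 : LinV G1)
    (hp : Measurable p) (hpb : ∃ K, ∀ z, ‖p z‖ ≤ K)
    (hc : Measurable c) (hcb : ∃ K, ∀ z, |c z| ≤ K)
    (hs0 : ∀ᵐ z, ∀ y, G0 z + ∑ i, p z i * (y i - z i) ≤ G0 y)
    (hs1 : ∀ᵐ z, ∀ y, G0 z + c z + ∑ i, p z i * (y i - z i) ≤ G1 y) :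
    ∫ z, c z * Real.exp (-G0 z) ≤ (∫ z, Real.exp (-G0 z)) *
      Real.log ((∫ z, Real.exp (-G0 z)) / (∫ z, Real.exp (-G1 z))) := by
  obtain ⟨K, hK⟩ := hpb
  have c1 : Continuous (fun v : Fin k → ℝ =>
      ∑ i, v i • (ContinuousLinearMap.proj i : (Fin k → ℝ) →L[ℝ] ℝ)) := by fun_prop
  have happ : ∀ (v w : Fin k → ℝ),
      (∑ i, v i • (ContinuousLinearMap.proj i : (Fin k → ℝ) →L[ℝ] ℝ)) w = ∑ i, v i * w i := by
    intro v w
    simp [ContinuousLinearMap.sum_apply]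
  refine PL_fin k G0 G1 c
    (fun z => ∑ i, p z i • (ContinuousLinearMap.proj i : (Fin k → ℝ) →L[ℝ] ℝ)) h0 h1
    (c1.measurable.comp hp) ⟨k * K, fun z => ?_⟩ hc hcb ?_ ?_
  · refine (norm_sum_le _ _).trans ?_
    calc ∑ i : Fin k, ‖p z i • (ContinuousLinearMap.proj i : (Fin k → ℝ) →L[ℝ] ℝ)‖
        ≤ ∑ i : Fin k, K := by
          apply Finset.sum_le_sum
          intro i _
          rw [norm_smul]
          have h2 : ‖(ContinuousLinearMap.proj i : (Fin k → ℝ) →L[ℝ] ℝ)‖ ≤ 1 := by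
            refine ContinuousLinearMap.opNorm_le_bound _ zero_le_one fun y => ?_
            rw [one_mul]
            exact norm_le_pi_norm y i
          have h3 : ‖p z i‖ ≤ K := (norm_le_pi_norm (p z) i).trans (hK z)
          have h4 := norm_nonneg (p z i)
          have h5 := norm_nonneg (ContinuousLinearMap.proj i : (Fin k → ℝ) →L[ℝ] ℝ)
          nlinarith
      _ = k * K := by simp
  · filter_upwards [hs0] with z hz
    intro y
    rw [happ]
    exact hz y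
  · filter_upwards [hs1] with z hz
    intro y
    rw [happ]
    exact hz y

/-- 1-D marginals of the data `(G0, G1, p, c)` on `ℝ × W`, `W` finite-dimensional:
they satisfy the hypotheses of `pl_one`, with the same total integrals. -/
theorem marginals {W : Type*} [NormedAddCommGroup W] [NormedSpace ℝ W] [FiniteDimensional ℝ W]
    [MeasurableSpace W] [BorelSpace W] (μ : Measure W) [μ.IsAddHaarMeasure]
    {G0 G1 c : ℝ × W → ℝ} {p : ℝ × W → (ℝ × W →L[ℝ] ℝ)}
    (h0 : LinV G0) (h1 : LinV G1)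
    (hp : Measurable p) (hpb : ∃ K, ∀ z, ‖p z‖ ≤ K)
    (hc : Measurable c) (hcb : ∃ K, ∀ z, |c z| ≤ K)
    (hs0 : ∀ᵐ z ∂((volume : Measure ℝ).prod μ), ∀ y, G0 z + p z (y - z) ≤ G0 y)
    (hs1 : ∀ᵐ z ∂((volume : Measure ℝ).prod μ), ∀ y, G0 z + c z + p z (y - z) ≤ G1 y) :
    ∃ H0 H1 P C : ℝ → ℝ, Lin1 H0 ∧ Lin1 H1 ∧ Measurable P ∧ (∃ K, ∀ t, |P t| ≤ K) ∧
      Measurable C ∧ (∃ K, ∀ t, |C t| ≤ K) ∧
      (∀ᵐ t, ∀ s, H0 t + P t * (s - t) ≤ H0 s) ∧
      (∀ᵐ t, ∀ s, H0 t + C t + P t * (s - t) ≤ H1 s) ∧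
      (∀ t, Real.exp (-H0 t) = ∫ y, Real.exp (-G0 (t, y)) ∂μ) ∧
      (∀ t, Real.exp (-H1 t) = ∫ y, Real.exp (-G1 (t, y)) ∂μ) ∧
      (∫ t, Real.exp (-H0 t) = ∫ z, Real.exp (-G0 z) ∂((volume : Measure ℝ).prod μ)) ∧
      (∫ t, Real.exp (-H1 t) = ∫ z, Real.exp (-G1 z) ∂((volume : Measure ℝ).prod μ)) ∧
      (∫ t, C t * Real.exp (-H0 t) =
        ∫ z, c z * Real.exp (-G0 z) ∂((volume : Measure ℝ).prod μ)) :=
  marginals_of_PL μ (PL_all μ) h0 h1 hp hpb hc hcb hs0 hs1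

/-- the inequality on a general finite-dimensional space -/
theorem pl_ineq {V : Type*} [NormedAddCommGroup V] [NormedSpace ℝ V] [FiniteDimensional ℝ V]
    [MeasurableSpace V] [BorelSpace V] (μ : Measure V) [μ.IsAddHaarMeasure]
    {G0 G1 c : V → ℝ} {p : V → (V →L[ℝ] ℝ)}
    (h0 : LinV G0) (h1 : LinV G1)
    (hp : Measurable p) (hpb : ∃ K, ∀ z, ‖p z‖ ≤ K)
    (hc : Measurable c) (hcb : ∃ K, ∀ z, |c z| ≤ K)
    (hs0 : ∀ᵐ z ∂μ, ∀ y, G0 z + p z (y - z) ≤ G0 y)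
    (hs1 : ∀ᵐ z ∂μ, ∀ y, G0 z + c z + p z (y - z) ≤ G1 y) :
    ∫ z, c z * Real.exp (-G0 z) ∂μ ≤ (∫ z, Real.exp (-G0 z) ∂μ) *
      Real.log ((∫ z, Real.exp (-G0 z) ∂μ) / (∫ z, Real.exp (-G1 z) ∂μ)) :=
  PL_all μ G0 G1 c p h0 h1 hp hpb hc hcb hs0 hs1

end Vale.Agent.P084.T
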