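import Vale.Agent.P084.T.PL1

namespace Vale.Agent.P084.T

open MeasureTheory Filter Topology

structure LinV {V : Type*} [NormedAddCommGroup V] (G : V → ℝ) : Prop where
  cont : Continuous G
  lower : ∃ α β : ℝ, 0 < α ∧ ∀ z, α * ‖z‖ - β ≤ G z
  upper : ∃ α β : ℝ, 0 < α ∧ ∀ z, G z ≤ α * ‖z‖ + β

theorem one_add_pow_le_exp {α t : ℝ} (hα : 0 < α) (ht : 0 ≤ t) (n : ℕ) :
    (1 + t) ^ (n + 1) ≤ (max 1 ((n + 1) / α)) ^ (n + 1) * Real.exp (α * t) := by
  have hn : (0 : ℝ) < n + 1 := by positivity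
  have h1 : 1 + t ≤ max 1 ((n + 1) / α) * (1 + α / (n + 1) * t) := by
    have h2 : (1 : ℝ) ≤ max 1 ((n + 1) / α) := le_max_left _ _
    have h3 : ((n : ℝ) + 1) / α ≤ max 1 ((n + 1) / α) := le_max_right _ _
    have h4 : t ≤ max 1 ((n + 1) / α) * (α / (n + 1) * t) := by
      have : ((n : ℝ) + 1) / α * (α / (n + 1) * t) = t := by field_simp
      calc t = ((n : ℝ) + 1) / α * (α / (n + 1) * t) := this.symm
        _ ≤ _ := mul_le_mul_of_nonneg_right h3 (by positivity)
    nlinarith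
  have h5 : 1 + α / (n + 1) * t ≤ Real.exp (α / (n + 1) * t) := by
    rw [add_comm]; exact Real.add_one_le_exp _
  calc (1 + t) ^ (n + 1) ≤ (max 1 ((n + 1) / α) * Real.exp (α / (n + 1) * t)) ^ (n + 1) := by
        apply pow_le_pow_left₀ (by positivity)
        exact h1.trans (mul_le_mul_of_nonneg_left h5 (by positivity))
    _ = (max 1 ((n + 1) / α)) ^ (n + 1) * Real.exp (α * t) := by
        rw [mul_pow, ← Real.exp_nat_mul]
        congr 2
        push_cast
        field_simp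

section
variable {V : Type*} [NormedAddCommGroup V] [NormedSpace ℝ V] [FiniteDimensional ℝ V]
    [MeasurableSpace V] [BorelSpace V] (μ : Measure V) [μ.IsAddHaarMeasure]

theorem integrable_exp_neg_norm {α : ℝ} (hα : 0 < α) :
    Integrable (fun z : V => Real.exp (-(α * ‖z‖))) μ := by
  have h1 := integrable_one_add_norm (E := V) (μ := μ) (r := (Module.finrank ℝ V : ℝ) + 1)
    (by linarith)
  have h2 := h1.const_mul ((max 1 (((Module.finrank ℝ V : ℕ) + 1 : ℝ) / α)) ^
    (Module.finrank ℝ V + 1))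
  refine h2.mono' (by fun_prop) (Eventually.of_forall fun z => ?_)
  rw [Real.norm_eq_abs, abs_of_pos (Real.exp_pos _)]
  have h3 := one_add_pow_le_exp hα (norm_nonneg z) (Module.finrank ℝ V)
  have h4 : (1 + ‖z‖) ^ (-((Module.finrank ℝ V : ℝ) + 1)) =
      ((1 + ‖z‖) ^ (Module.finrank ℝ V + 1))⁻¹ := by
    rw [Real.rpow_neg (by positivity)]
    congr 1
    rw [← Real.rpow_natCast]
    push_cast
    rfl
  rw [h4, Real.exp_neg]
  have h5 : (0 : ℝ) < (1 + ‖z‖) ^ (Module.finrank ℝ V + 1) := by positivity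
  rw [← div_eq_mul_inv, le_div_iff₀ h5, inv_mul_le_iff₀ (Real.exp_pos _), mul_comm]
  simpa using h3

theorem LinV.integrable {G : V → ℝ} (h : LinV G) :
    Integrable (fun z : V => Real.exp (-G z)) μ := by
  obtain ⟨α, β, hα, hl⟩ := h.lower
  have h1 := (integrable_exp_neg_norm μ hα).const_mul (Real.exp β)
  have hc := h.cont
  refine h1.mono' (by fun_prop) (Eventually.of_forall fun z => ?_)
  rw [Real.norm_eq_abs, abs_of_pos (Real.exp_pos _), ← Real.exp_add]
  exact Real.exp_le_exp.2 (by linarith [hl z])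

theorem LinV.integral_pos {G : V → ℝ} (h : LinV G) :
    0 < ∫ z : V, Real.exp (-G z) ∂μ :=
  integral_exp_pos (h.integrable μ)

theorem LinV.integrable_mul {G c : V → ℝ} (h : LinV G) (hc : Measurable c)
    (hcb : ∃ K, ∀ z, |c z| ≤ K) :
    Integrable (fun z : V => c z * Real.exp (-G z)) μ := by
  obtain ⟨K, hK⟩ := hcb
  exact (h.integrable μ).bdd_mul hc.aestronglyMeasurable (Eventually.of_forall fun z => by
    rw [Real.norm_eq_abs]; exact hK z)

end

end Vale.Agent.P084.T
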