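import Vale.Agent.P084.T.PLnAux

namespace Vale.Agent.P084.T

open MeasureTheory Filter Topology

def PL {V : Type*} [NormedAddCommGroup V] [NormedSpace ℝ V]
    [MeasurableSpace V] (μ : Measure V) : Prop :=
  ∀ (G0 G1 c : V → ℝ) (p : V → (V →L[ℝ] ℝ)), LinV G0 → LinV G1 → Measurable p →
    (∃ K, ∀ z, ‖p z‖ ≤ K) → Measurable c → (∃ K, ∀ z, |c z| ≤ K) →
    (∀ᵐ z ∂μ, ∀ y, G0 z + p z (y - z) ≤ G0 y) →
    (∀ᵐ z ∂μ, ∀ y, G0 z + c z + p z (y - z) ≤ G1 y) →
    ∫ z, c z * Real.exp (-G0 z) ∂μ ≤ (∫ z, Real.exp (-G0 z) ∂μ) *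
      Real.log ((∫ z, Real.exp (-G0 z) ∂μ) / (∫ z, Real.exp (-G1 z) ∂μ))

section
variable {W : Type*} [NormedAddCommGroup W] [NormedSpace ℝ W] [FiniteDimensional ℝ W]
    [MeasurableSpace W] [BorelSpace W] (μ : Measure W) [μ.IsAddHaarMeasure]

theorem norm_pair_ge (t : ℝ) (y : W) : (|t| + ‖y‖) / 2 ≤ ‖((t, y) : ℝ × W)‖ := by
  have h1 : |t| ≤ ‖((t, y) : ℝ × W)‖ := by
    have := norm_fst_le ((t, y) : ℝ × W)
    simpa using this
  have h2 : ‖y‖ ≤ ‖((t, y) : ℝ × W)‖ := norm_snd_le ((t, y) : ℝ × W)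
  linarith

theorem norm_pair_le' (t : ℝ) (y : W) : ‖((t, y) : ℝ × W)‖ ≤ |t| + ‖y‖ := by
  rw [Prod.norm_def]
  simp only [Real.norm_eq_abs]
  exact max_le (by linarith [norm_nonneg y]) (by linarith [abs_nonneg t])

theorem LinV.section' {G : ℝ × W → ℝ} (h : LinV G) (t : ℝ) : LinV (fun y : W => G (t, y)) where
  cont := h.cont.comp (by fun_prop)
  lower := by
    obtain ⟨α, β, hα, hl⟩ := h.lower
    refine ⟨α, β, hα, fun y => ?_⟩
    have h2 : ‖y‖ ≤ ‖((t, y) : ℝ × W)‖ := norm_snd_le ((t, y) : ℝ × W)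
    have := hl (t, y)
    nlinarith
  upper := by
    obtain ⟨α, β, hα, hl⟩ := h.upper
    refine ⟨α, α * |t| + β, hα, fun y => ?_⟩
    have h2 := norm_pair_le' t y
    have := hl (t, y)
    nlinarith

theorem marg_lin1 {G : ℝ × W → ℝ} (h : LinV G) :
    Lin1 (fun t => -Real.log (∫ y, Real.exp (-G (t, y)) ∂μ)) := by
  have hpos : ∀ t, 0 < ∫ y, Real.exp (-G (t, y)) ∂μ := fun t =>
    LinV.integral_pos μ (h.section' t)
  have hcG := h.cont
  refine ⟨?_, ?_, ?_⟩
  · have hc : Continuous (fun t => ∫ y, Real.exp (-G (t, y)) ∂μ) := by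
      obtain ⟨α, β, hα, hl⟩ := h.lower
      refine continuous_of_dominated (bound := fun y => Real.exp β * Real.exp (-(α * ‖y‖)))
        ?_ ?_ ?_ ?_
      · intro t
        have : Continuous (fun y : W => Real.exp (-G (t, y))) := by fun_prop
        exact this.aestronglyMeasurable
      · intro t
        refine Eventually.of_forall fun y => ?_
        rw [Real.norm_eq_abs, abs_of_pos (Real.exp_pos _), ← Real.exp_add]
        apply Real.exp_le_exp.2
        have h2 : ‖y‖ ≤ ‖((t, y) : ℝ × W)‖ := norm_snd_le ((t, y) : ℝ × W)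
        have := hl (t, y)
        nlinarith
      · exact (integrable_exp_neg_norm μ hα).const_mul _
      · refine Eventually.of_forall fun y => ?_
        fun_prop
    exact (hc.log fun t => (hpos t).ne').neg
  · obtain ⟨α, β, hα, hl⟩ := h.lower
    have hα2 : 0 < α / 2 := by positivity
    set K := ∫ y : W, Real.exp (-(α / 2 * ‖y‖)) ∂μ with hK
    have hKi := integrable_exp_neg_norm μ hα2
    have hKpos : 0 < K := integral_exp_pos hKi
    refine ⟨α / 2, β + Real.log K, hα2, fun t => ?_⟩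
    have h1 : ∫ y, Real.exp (-G (t, y)) ∂μ ≤ Real.exp (β - α / 2 * |t|) * K := by
      rw [hK, ← integral_const_mul]
      refine integral_mono (LinV.integrable μ (h.section' t)) (hKi.const_mul _) fun y => ?_
      simp only
      rw [← Real.exp_add]
      apply Real.exp_le_exp.2
      have h2 := norm_pair_ge t y
      have := hl (t, y)
      nlinarith
    have h2 := Real.log_le_log (hpos t) h1
    rw [Real.log_mul (Real.exp_pos _).ne' hKpos.ne', Real.log_exp] at h2
    linarith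
  · obtain ⟨α, β, hα, hl⟩ := h.upper
    set K := ∫ y : W, Real.exp (-(α * ‖y‖)) ∂μ with hK
    have hKi := integrable_exp_neg_norm μ hα
    have hKpos : 0 < K := integral_exp_pos hKi
    refine ⟨α, β - Real.log K, hα, fun t => ?_⟩
    have h1 : Real.exp (-(β + α * |t|)) * K ≤ ∫ y, Real.exp (-G (t, y)) ∂μ := by
      rw [hK, ← integral_const_mul]
      refine integral_mono (hKi.const_mul _) (LinV.integrable μ (h.section' t)) fun y => ?_
      simp only
      rw [← Real.exp_add]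
      apply Real.exp_le_exp.2
      have h2 := norm_pair_le' t y
      have := hl (t, y)
      nlinarith
    have h2 := Real.log_le_log (mul_pos (Real.exp_pos _) hKpos) h1
    rw [Real.log_mul (Real.exp_pos _).ne' hKpos.ne', Real.log_exp] at h2
    linarith

theorem avg_bound {G f : W → ℝ} (h : LinV G) (hf : Measurable f) {K : ℝ}
    (hK : ∀ z, |f z| ≤ K) :
    |(∫ y, f y * Real.exp (-G y) ∂μ) / (∫ y, Real.exp (-G y) ∂μ)| ≤ K := by
  have hpos := h.integral_pos μ
  rw [abs_div, abs_of_pos hpos, div_le_iff₀ hpos, ← integral_const_mul]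
  refine (abs_integral_le_integral_abs).trans ?_
  refine integral_mono (h.integrable_mul μ hf ⟨K, hK⟩).abs ((h.integrable μ).const_mul _)
    fun y => ?_
  simp only [abs_mul, abs_of_pos (Real.exp_pos _)]
  exact mul_le_mul_of_nonneg_right (hK y) (Real.exp_pos _).le

theorem marginals_of_PL (hPL : PL μ)
    {G0 G1 c : ℝ × W → ℝ} {p : ℝ × W → (ℝ × W →L[ℝ] ℝ)}
    (h0 : LinV G0) (h1 : LinV G1)
    (hp : Measurable p) (hpb : ∃ K, ∀ z, ‖p z‖ ≤ K)
    (hc : Measurable c) (hcb : ∃ K, ∀ z, |c z| ≤ K)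
    (hs0 : ∀ᵐ z ∂((volume : Measure ℝ).prod μ), ∀ y, G0 z + p z (y - z) ≤ G0 y)
    (hs1 : ∀ᵐ z ∂((volume : Measure ℝ).prod μ), ∀ y, G0 z + c z + p z (y - z) ≤ G1 y) :
    ∃ H0 H1 P C : ℝ → ℝ, Lin1 H0 ∧ Lin1 H1 ∧ Measurable P ∧ (∃ K, ∀ t, |P t| ≤ K) ∧
      Measurable C ∧ (∃ K, ∀ t, |C t| ≤ K) ∧
      (∀ᵐ t, ∀ s, H0 t + P t * (s - t) ≤ H0 s) ∧
      (∀ᵐ t, ∀ s, H0 t + C t + P t * (s - t) ≤ H1 s) ∧
      (∀ t, Real.exp (-H0 t) = ∫ y, Real.exp (-G0 (t, y)) ∂μ) ∧
      (∀ t, Real.exp (-H1 t) = ∫ y, Real.exp (-G1 (t, y)) ∂μ) ∧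
      (∫ t, Real.exp (-H0 t) = ∫ z, Real.exp (-G0 z) ∂((volume : Measure ℝ).prod μ)) ∧
      (∫ t, Real.exp (-H1 t) = ∫ z, Real.exp (-G1 z) ∂((volume : Measure ℝ).prod μ)) ∧
      (∫ t, C t * Real.exp (-H0 t) =
        ∫ z, c z * Real.exp (-G0 z) ∂((volume : Measure ℝ).prod μ)) := by
  have hpos0 : ∀ t, 0 < ∫ y, Real.exp (-G0 (t, y)) ∂μ := fun t =>
    LinV.integral_pos μ (h0.section' t)
  have hpos1 : ∀ t, 0 < ∫ y, Real.exp (-G1 (t, y)) ∂μ := fun t =>
    LinV.integral_pos μ (h1.section' t)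
  have hcG0 := h0.cont
  have hcG1 := h1.cont
  have hE0 : ∀ t, Real.exp (-(-Real.log (∫ y, Real.exp (-G0 (t, y)) ∂μ))) =
      ∫ y, Real.exp (-G0 (t, y)) ∂μ := fun t => by rw [neg_neg, Real.exp_log (hpos0 t)]
  have hE1 : ∀ t, Real.exp (-(-Real.log (∫ y, Real.exp (-G1 (t, y)) ∂μ))) =
      ∫ y, Real.exp (-G1 (t, y)) ∂μ := fun t => by rw [neg_neg, Real.exp_log (hpos1 t)]
  obtain ⟨Kp, hKp⟩ := hpb
  obtain ⟨Kc, hKc⟩ := hcb
  have hpt : Measurable (fun z : ℝ × W => p z ((1 : ℝ), (0 : W))) :=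
    (ContinuousLinearMap.measurable_apply ((1 : ℝ), (0 : W))).comp hp
  have hptb : ∀ z, |p z ((1 : ℝ), (0 : W))| ≤ Kp := by
    intro z
    have h := (p z).le_opNorm ((1 : ℝ), (0 : W))
    have h2 : ‖(((1 : ℝ), (0 : W)) : ℝ × W)‖ ≤ 1 := by
      rw [Prod.norm_def]; simp
    rw [Real.norm_eq_abs] at h
    have h3 := norm_nonneg (p z)
    have h4 := norm_nonneg (((1 : ℝ), (0 : W)) : ℝ × W)
    have h5 := hKp z
    nlinarith
  have hsecm : ∀ {f : ℝ × W → ℝ}, Measurable f → ∀ t, Measurable (fun y => f (t, y)) :=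
    fun hf t => hf.comp (by fun_prop)
  have hmeasavg : ∀ {f : ℝ × W → ℝ}, Measurable f →
      Measurable (fun t => (∫ y, f (t, y) * Real.exp (-G0 (t, y)) ∂μ) /
        (∫ y, Real.exp (-G0 (t, y)) ∂μ)) := by
    intro f hf
    have m1 : StronglyMeasurable (fun z : ℝ × W => f z * Real.exp (-G0 z)) :=
      (hf.mul (by fun_prop : Measurable fun z : ℝ × W => Real.exp (-G0 z))).stronglyMeasurable
    have m2 : StronglyMeasurable (fun z : ℝ × W => Real.exp (-G0 z)) :=
      (by fun_prop : Measurable fun z : ℝ × W => Real.exp (-G0 z)).stronglyMeasurable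
    exact (m1.integral_prod_right (ν := μ)).measurable.div
      (m2.integral_prod_right (ν := μ)).measurable
  have key : ∀ (Gs : W → ℝ) (hGs : LinV Gs) (a : ℝ) (f : W → ℝ) (hf : Measurable f)
      (hfb : ∃ K, ∀ y, |f y| ≤ K) (t : ℝ),
      (∀ᵐ y ∂μ, ∀ y', G0 (t, y) + (p (t, y)).comp (ContinuousLinearMap.inr ℝ ℝ W) (y' - y)
        ≤ G0 (t, y')) →
      (∀ᵐ y ∂μ, ∀ y', G0 (t, y) + (f y + p (t, y) ((1 : ℝ), (0 : W)) * a) +
        (p (t, y)).comp (ContinuousLinearMap.inr ℝ ℝ W) (y' - y) ≤ Gs y') →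
      -Real.log (∫ y, Real.exp (-G0 (t, y)) ∂μ) +
        (∫ y, f y * Real.exp (-G0 (t, y)) ∂μ) / (∫ y, Real.exp (-G0 (t, y)) ∂μ) +
        (∫ y, p (t, y) ((1 : ℝ), (0 : W)) * Real.exp (-G0 (t, y)) ∂μ) /
          (∫ y, Real.exp (-G0 (t, y)) ∂μ) * a ≤ -Real.log (∫ y, Real.exp (-Gs y) ∂μ) := by
    intro Gs hGs a f hf hfb t e0 e1
    obtain ⟨Kf, hKf⟩ := hfb
    have hposs := hGs.integral_pos μ
    have hpm : Measurable (fun y : W => (p (t, y)).comp (ContinuousLinearMap.inr ℝ ℝ W)) := by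
      have c1 : Continuous (fun φ : ℝ × W →L[ℝ] ℝ =>
          φ.comp (ContinuousLinearMap.inr ℝ ℝ W)) := by fun_prop
      exact c1.measurable.comp (hp.comp (by fun_prop))
    have h := hPL (fun y => G0 (t, y)) Gs (fun y => f y + p (t, y) ((1 : ℝ), (0 : W)) * a)
      (fun y => (p (t, y)).comp (ContinuousLinearMap.inr ℝ ℝ W)) (h0.section' t) hGs hpm
      ⟨Kp, fun y => by
        refine (ContinuousLinearMap.opNorm_comp_le _ _).trans ?_
        have h2 : ‖ContinuousLinearMap.inr ℝ ℝ W‖ ≤ 1 := by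
          refine ContinuousLinearMap.opNorm_le_bound _ zero_le_one fun y => ?_
          simp
        have h3 := norm_nonneg (p (t, y))
        have h4 := norm_nonneg (ContinuousLinearMap.inr ℝ ℝ W)
        have h5 := hKp (t, y)
        nlinarith⟩
      (hf.add ((hsecm hpt t).mul_const a))
      ⟨Kf + Kp * |a|, fun y => by
        refine (abs_add_le _ _).trans ?_
        rw [abs_mul]
        have h2 := hKf y
        have h3 := hptb (t, y)
        have h4 := abs_nonneg a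
        nlinarith⟩ e0 e1
    have i1 : Integrable (fun y => f y * Real.exp (-G0 (t, y))) μ :=
      (h0.section' t).integrable_mul μ hf ⟨Kf, hKf⟩
    have i2 : Integrable (fun y => p (t, y) ((1 : ℝ), (0 : W)) * Real.exp (-G0 (t, y))) μ :=
      (h0.section' t).integrable_mul μ (hsecm hpt t) ⟨Kp, fun y => hptb (t, y)⟩
    have e2 : ∫ y, (f y + p (t, y) ((1 : ℝ), (0 : W)) * a) * Real.exp (-G0 (t, y)) ∂μ =
        (∫ y, f y * Real.exp (-G0 (t, y)) ∂μ) +
        (∫ y, p (t, y) ((1 : ℝ), (0 : W)) * Real.exp (-G0 (t, y)) ∂μ) * a := by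
      rw [← integral_mul_const, ← integral_add i1 (i2.mul_const a)]
      congr 1
      funext y
      ring
    rw [e2, Real.log_div (hpos0 t).ne' hposs.ne'] at h
    have hz := hpos0 t
    have h6 : ((∫ y, f y * Real.exp (-G0 (t, y)) ∂μ) +
        (∫ y, p (t, y) ((1 : ℝ), (0 : W)) * Real.exp (-G0 (t, y)) ∂μ) * a) /
        (∫ y, Real.exp (-G0 (t, y)) ∂μ) ≤
        Real.log (∫ y, Real.exp (-G0 (t, y)) ∂μ) - Real.log (∫ y, Real.exp (-Gs y) ∂μ) := by
      rw [div_le_iff₀ hz]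
      exact h.trans (le_of_eq (mul_comm _ _))
    rw [add_div, mul_div_right_comm] at h6
    linarith
  have ae0 := Measure.ae_ae_of_ae_prod hs0
  have ae1 := Measure.ae_ae_of_ae_prod hs1
  have decomp : ∀ (t s : ℝ) (y y' : W),
      p (t, y) ((s, y') - (t, y)) = p (t, y) ((1 : ℝ), (0 : W)) * (s - t) +
        (p (t, y)).comp (ContinuousLinearMap.inr ℝ ℝ W) (y' - y) := by
    intro t s y y'
    have : ((s, y') - (t, y) : ℝ × W) = (s - t) • ((1 : ℝ), (0 : W)) +
        ContinuousLinearMap.inr ℝ ℝ W (y' - y) := by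
      ext <;> simp
    rw [this, map_add, map_smul, smul_eq_mul, mul_comm]
    rfl
  refine ⟨fun t => -Real.log (∫ y, Real.exp (-G0 (t, y)) ∂μ),
    fun t => -Real.log (∫ y, Real.exp (-G1 (t, y)) ∂μ),
    fun t => (∫ y, p (t, y) ((1 : ℝ), (0 : W)) * Real.exp (-G0 (t, y)) ∂μ) /
      (∫ y, Real.exp (-G0 (t, y)) ∂μ),
    fun t => (∫ y, c (t, y) * Real.exp (-G0 (t, y)) ∂μ) /
      (∫ y, Real.exp (-G0 (t, y)) ∂μ),
    marg_lin1 μ h0, marg_lin1 μ h1, hmeasavg hpt,
    ⟨Kp, fun t => avg_bound μ (h0.section' t) (hsecm hpt t) fun y => hptb (t, y)⟩,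
    hmeasavg hc, ⟨Kc, fun t => avg_bound μ (h0.section' t) (hsecm hc t) fun y => hKc (t, y)⟩,
    ?_, ?_, hE0, hE1, ?_, ?_, ?_⟩
  · filter_upwards [ae0] with t ht
    intro s
    have := key (fun y => G0 (s, y)) (h0.section' s) (s - t) (fun _ => 0) measurable_const
      ⟨0, fun y => by simp⟩ t
      (by
        filter_upwards [ht] with y hy
        intro y'
        have h := hy (t, y')
        rw [decomp, sub_self, mul_zero, zero_add] at h
        exact h)
      (by
        filter_upwards [ht] with y hy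
        intro y'
        have h := hy (s, y')
        rw [decomp] at h
        linarith)
    simp only [zero_mul, integral_zero, zero_div, add_zero] at this
    exact this
  · filter_upwards [ae0, ae1] with t ht ht1
    intro s
    exact key (fun y => G1 (s, y)) (h1.section' s) (s - t) (fun y => c (t, y)) (hsecm hc t)
      ⟨Kc, fun y => hKc (t, y)⟩ t
      (by
        filter_upwards [ht] with y hy
        intro y'
        have h := hy (t, y')
        rw [decomp, sub_self, mul_zero, zero_add] at h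
        exact h)
      (by
        filter_upwards [ht1] with y hy
        intro y'
        have h := hy (s, y')
        rw [decomp] at h
        linarith)
  · simp only [hE0]
    exact (integral_prod _ (h0.integrable ((volume : Measure ℝ).prod μ))).symm
  · simp only [hE1]
    exact (integral_prod _ (h1.integrable ((volume : Measure ℝ).prod μ))).symm
  · simp only [hE0]
    have i1 := h0.integrable_mul ((volume : Measure ℝ).prod μ) hc ⟨Kc, hKc⟩
    rw [integral_prod _ i1]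
    congr 1
    funext t
    exact div_mul_cancel₀ _ (hpos0 t).ne'

end

end Vale.Agent.P084.T
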